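import Vale.Agent.P154.AF.SpecA

/-! Blackwell comparison of tree experiments. -/

namespace Vale.Agent.P154.AF

open Filter Topology Tr

namespace BWm

def NN (u : Fin 3 → ℝ) : Prop := ∀ i, 0 ≤ u i

/-- sublinear functionals on the cone -/
structure Sub (F : (Fin 3 → ℝ) → ℝ) : Prop where
  add : ∀ u w, NN u → NN w → F (fun i => u i + w i) ≤ F u + F w
  smul : ∀ c u, 0 ≤ c → NN u → F (fun i => c * u i) = c * F u
  bd : ∃ C, 0 ≤ C ∧ ∀ u, NN u → |F u| ≤ C * mean u

lemma h3 : 2 ≤ 3 := by norm_num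

lemma mean3 (u : Fin 3 → ℝ) : mean u = (u 0 + u 1 + u 2) / 3 := by
  simp [mean, Fin.sum_univ_three]

lemma mean_add (u w : Fin 3 → ℝ) : mean (fun i => u i + w i) = mean u + mean w := by
  simp only [mean3]; ring

lemma hom_sub {f : (Fin 3 → ℝ) → ℝ} (hf : Cvx f) : Sub (hom f) where
  add u w hu hw := by
    have m1 := mean_nonneg hu
    have m2 := mean_nonneg hw
    rw [hom_eq, hom_eq, hom_eq, mean_add]
    rcases (add_nonneg m1 m2).eq_or_lt with h | h
    · have a1 : mean u = 0 := by linarith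
      have a2 : mean w = 0 := by linarith
      simp [a1, a2]
    · have e : nr (fun i => u i + w i) =
          (mean u / (mean u + mean w)) • nr u + (mean w / (mean u + mean w)) • nr w := by
        funext i
        have e1 := eq_mul_nr h3 hu i
        have e2 := eq_mul_nr h3 hw i
        have : nr (fun i => u i + w i) i = (u i + w i) / (mean u + mean w) := by
          unfold nr; rw [mean_add, if_neg h.ne']
        rw [this]
        simp only [Pi.add_apply, Pi.smul_apply, smul_eq_mul]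
        field_simp
        linarith
      have := hf.2.2 (nr_mem h3 hu) (nr_mem h3 hw) (div_nonneg m1 h.le) (div_nonneg m2 h.le)
        (by field_simp)
      rw [e]
      refine (mul_le_mul_of_nonneg_left this h.le).trans_eq ?_
      simp only [smul_eq_mul]
      field_simp
  smul c u _ _ := hom_smul f c u
  bd := by
    obtain ⟨C, hC⟩ := bd_of_cont hf.1
    refine ⟨C, (abs_nonneg _).trans (hC _ one_mem), fun u hu => ?_⟩
    rw [hom_eq, abs_mul, abs_of_nonneg (mean_nonneg hu), mul_comm]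
    exact mul_le_mul_of_nonneg_right (hC _ (nr_mem h3 hu)) (mean_nonneg hu)

lemma Sub.mul {F : (Fin 3 → ℝ) → ℝ} (hF : Sub F) {c : Fin 3 → ℝ} (hc : NN c) :
    Sub (fun u => F (fun i => c i * u i)) where
  add u w hu hw := by
    simp only [mul_add]
    exact hF.add _ _ (fun i => mul_nonneg (hc i) (hu i)) (fun i => mul_nonneg (hc i) (hw i))
  smul a u ha hu := by
    rw [← hF.smul a _ ha (fun i => mul_nonneg (hc i) (hu i))]
    congr 1; funext i; ring
  bd := by
    obtain ⟨C, C0, hC⟩ := hF.bd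
    have := hc 0; have := hc 1; have := hc 2
    refine ⟨C * (c 0 + c 1 + c 2), by positivity, fun u hu => ?_⟩
    refine (hC _ (fun i => mul_nonneg (hc i) (hu i))).trans ?_
    rw [mul_assoc]
    refine mul_le_mul_of_nonneg_left ?_ C0
    have := hu 0; have := hu 1; have := hu 2
    simp only [mean3]
    nlinarith [mul_nonneg (hc 0) (hu 1), mul_nonneg (hc 0) (hu 2), mul_nonneg (hc 1) (hu 0),
      mul_nonneg (hc 1) (hu 2), mul_nonneg (hc 2) (hu 0), mul_nonneg (hc 2) (hu 1)]

lemma ch_nn {lam : ℝ} (h0 : -1 / 2 ≤ lam) (h1 : lam ≤ 1) {u : Fin 3 → ℝ} (hu : NN u) :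
    NN (fun i => lam * u i + (1 - lam) * mean u) := by
  intro i
  have a0 := hu 0; have a1 := hu 1; have a2 := hu 2
  have b0 : 0 ≤ 1 + 2 * lam := by linarith
  have b1 : 0 ≤ 1 - lam := by linarith
  simp only [mean3]
  fin_cases i <;> simp only [Fin.zero_eta, Fin.mk_one, Fin.reduceFinMk] <;>
    nlinarith [mul_nonneg b0 a0, mul_nonneg b0 a1, mul_nonneg b0 a2, mul_nonneg b1 a0,
      mul_nonneg b1 a1, mul_nonneg b1 a2]

lemma Sub.ch {F : (Fin 3 → ℝ) → ℝ} (hF : Sub F) {lam : ℝ} (h0 : -1 / 2 ≤ lam) (h1 : lam ≤ 1) :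
    Sub (fun u => F (fun i => lam * u i + (1 - lam) * mean u)) where
  add u w hu hw := by
    refine le_trans (le_of_eq ?_) (hF.add _ _ (ch_nn h0 h1 hu) (ch_nn h0 h1 hw))
    congr 1; funext i; rw [mean_add]; ring
  smul a u ha hu := by
    rw [← hF.smul a _ ha (ch_nn h0 h1 hu)]
    congr 1; funext i; rw [mean_smul]; ring
  bd := by
    obtain ⟨C, C0, hC⟩ := hF.bd
    refine ⟨C, C0, fun u hu => (hC _ (ch_nn h0 h1 hu)).trans_eq ?_⟩
    simp only [mean3]; ring

variable {O O' O'' : Type} {F : (Fin 3 → ℝ) → ℝ}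

lemma Sub.summable (hF : Sub F) {a : O → Fin 3 → ℝ} (ha : ∀ o, NN (a o))
    (hs : Summable fun o => mean (a o)) : Summable fun o => F (a o) := by
  obtain ⟨C, -, hC⟩ := hF.bd
  exact Summable.of_norm_bounded (hs.mul_left C) fun o => hC _ (ha o)

lemma Sub.sm (hF : Sub F) {v : O → Fin 3 → ℝ} (h : IsSys v) : Summable fun o => F (v o) :=
  hF.summable h.nn (h.hasSum_mean h3).summable

lemma Sub.fin (hF : Sub F) {a : O → Fin 3 → ℝ} (ha : ∀ o, NN (a o)) (s : Finset O) :
    F (fun i => ∑ o ∈ s, a o i) ≤ ∑ o ∈ s, F (a o) := by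
  classical
  induction s using Finset.induction_on with
  | empty =>
    have := hF.smul 0 (fun _ => 0) le_rfl (fun _ => le_rfl)
    simpa using this.le
  | insert o s ho ih =>
    simp only [Finset.sum_insert ho]
    exact (hF.add _ _ (ha o) fun i => Finset.sum_nonneg fun o _ => ha o i).trans (by linarith)

/-- countable subadditivity -/
lemma Sub.csub (hF : Sub F) {a : O → Fin 3 → ℝ} (ha : ∀ o, NN (a o)) {u : Fin 3 → ℝ}
    (hs : ∀ i, HasSum (fun o => a o i) (u i)) : F u ≤ ∑' o, F (a o) := by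
  have hm : HasSum (fun o => mean (a o)) (mean u) := by
    simp only [mean3]
    exact (((hs 0).add (hs 1)).add (hs 2)).div_const 3
  have h1 := (hF.summable ha hm.summable).hasSum
  obtain ⟨C, -, hC⟩ := hF.bd
  have h2 : Tendsto (fun s : Finset O => ∑ o ∈ s, F (a o) + C * (mean u - ∑ o ∈ s, mean (a o)))
      atTop (𝓝 (∑' o, F (a o) + C * (mean u - mean u))) :=
    Tendsto.add h1 ((Tendsto.const_sub _ hm).const_mul C)
  rw [sub_self, mul_zero, add_zero] at h2
  refine ge_of_tendsto' h2 fun s => ?_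
  have n1 : NN fun i => ∑ o ∈ s, a o i := fun i => Finset.sum_nonneg fun o _ => ha o i
  have n2 : NN fun i => u i - ∑ o ∈ s, a o i := fun i =>
    sub_nonneg.2 (sum_le_hasSum s (fun o _ => ha o i) (hs i))
  have b1 := hF.add _ _ n1 n2
  simp only [add_sub_cancel] at b1
  have b2 := (le_abs_self _).trans (hC _ n2)
  have b3 : mean (fun i => u i - ∑ o ∈ s, a o i) = mean u - ∑ o ∈ s, mean (a o) := by
    simp only [mean3, ← Finset.sum_div, Finset.sum_add_distrib]; ring
  rw [b3] at b2
  linarith [hF.fin ha s]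

noncomputable def T (v : O → Fin 3 → ℝ) (F : (Fin 3 → ℝ) → ℝ) : ℝ := ∑' o, F (v o)

def Dom (v : O → Fin 3 → ℝ) (w : O' → Fin 3 → ℝ) : Prop := ∀ F, Sub F → T v F ≤ T w F

variable {v : O → Fin 3 → ℝ} {w : O' → Fin 3 → ℝ} {x : O'' → Fin 3 → ℝ}

lemma Dom.trans (a : Dom v w) (b : Dom w x) : Dom v x := fun F hF => (a F hF).trans (b F hF)

lemma T_comp (e : O' ≃ O) : T (fun o => v (e o)) F = T v F := e.tsum_eq (fun o => F (v o))

lemma T_comm : T (pr v w) F = T (pr w v) F := by
  rw [← T_comp (Equiv.prodComm O' O)]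
  unfold T
  congr 1; funext p; congr 1; funext i
  simp [pr, mul_comm]

lemma T_pr (hF : Sub F) (h : IsSys v) (h' : IsSys w) :
    HasSum (fun o => T w (fun u => F (fun i => v o i * u i))) (T (pr v w) F) := by
  have hs := hF.sm (h.pr h')
  exact hs.hasSum.prod_fiberwise fun o => ((hF.mul (h.nn o)).sm h').hasSum

lemma pr_right (h : IsSys v) (h' : IsSys w) (h'' : IsSys x) (d : Dom w x) :
    Dom (pr v w) (pr v x) := fun _ hF =>
  hasSum_le (fun o => d _ (hF.mul (h.nn o))) (T_pr hF h h') (T_pr hF h h'')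

lemma pr_left (h : IsSys v) (h' : IsSys w) (h'' : IsSys x) (d : Dom w x) :
    Dom (pr w v) (pr x v) := fun F hF => by
  rw [T_comm, T_comm (v := x)]
  exact pr_right h h' h'' d F hF

lemma child (h : IsSys v) (h' : IsSys w) : Dom w (pr v w) := fun F hF => by
  rw [T_comm]
  refine hasSum_le (fun o => ?_) (hF.sm h').hasSum (T_pr hF h' h)
  refine hF.csub (a := fun o' i => w o i * v o' i)
    (fun o' i => mul_nonneg (h'.nn o i) (h.nn o' i)) fun i => ?_
  simpa using (h.hs i).mul_left (w o i)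

lemma T_succ (k : ℕ) : T (pw v (k + 1)) F = T (pr v (pw v k)) F := by
  rw [pw_succ, T_comp]

lemma pw_dom (h : IsSys v) (h' : IsSys w) (d : Dom v w) : ∀ k, Dom (pw v k) (pw w k)
  | 0 => fun F _ => by
    unfold T
    rw [tsum_fintype, tsum_fintype]
    have e1 : ∀ o : Fin 0 → O, pw v 0 o = fun _ => 1 := fun o => by funext i; simp [pw]
    have e2 : ∀ o : Fin 0 → O', pw w 0 o = fun _ => 1 := fun o => by funext i; simp [pw]
    simp [e1, e2]
  | k + 1 => fun F hF => by
    rw [T_succ, T_succ]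
    exact ((pr_right h (h.pw k) (h'.pw k) (pw_dom h h' d k)).trans
      (pr_left (h'.pw k) h h' d)) F hF

lemma T_bd (hF : Sub F) : ∃ C, ∀ (O : Type) (v : O → Fin 3 → ℝ), IsSys v → |T v F| ≤ C := by
  obtain ⟨C, -, hC⟩ := hF.bd
  refine ⟨C, fun O v h => ?_⟩
  have := tsum_of_norm_bounded ((h.hasSum_mean h3).mul_left C) (g := fun o => C * mean (v o))
    (f := fun o => F (v o)) fun o => hC _ (h.nn o)
  simpa [T] using this

lemma T_mx (hF : Sub F) (h : IsSys v) {off : ℕ → ℝ} (ho : Off off) :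
    HasSum (fun k => off k * T (pw v k) F) (T (mx off v) F) := by
  refine (hF.sm (h.mx ho.1 ho.2)).hasSum.sigma fun k => ?_
  have := (hF.sm (h.pw k)).hasSum.mul_left (off k)
  have e : (fun o : Fin k → O => F (mx off v ⟨k, o⟩)) = fun o => off k * F (pw v k o) :=
    funext fun o => hF.smul _ _ (ho.1 k) ((h.pw k).nn o)
  rw [e]
  exact this

lemma mx_dom (h : IsSys v) (h' : IsSys w) (d : Dom v w) {off off' : ℕ → ℝ} (ho : Off off)
    (ho' : Off off') (hs : St off off') : Dom (mx off v) (mx off' w) := fun F hF => by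
  have a1 : T (mx off v) F ≤ T (mx off w) F :=
    hasSum_le (fun k => mul_le_mul_of_nonneg_left (pw_dom h h' d k F hF) (ho.1 k))
      (T_mx hF h ho) (T_mx hF h' ho)
  refine a1.trans ?_
  rw [← (T_mx hF h' ho).tsum_eq, ← (T_mx hF h' ho').tsum_eq]
  obtain ⟨C, hC⟩ := T_bd hF
  refine hs _ (monotone_nat_of_le_succ fun k => ?_) ⟨C, fun k => hC _ _ (h'.pw k)⟩
  rw [T_succ]
  exact child h' (h'.pw k) F hF

lemma ch_sys (h : IsSys v) {lam : ℝ} (h0 : -1 / 2 ≤ lam) (h1 : lam ≤ 1) : IsSys (ch lam v) where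
  nn o i := by rw [ch_eq]; exact ch_nn h0 h1 (h.nn o) i
  hs i := by
    have := ((h.hs i).mul_left lam).add ((h.hasSum_mean h3).mul_left (1 - lam))
    simp only [mul_one, add_sub_cancel] at this
    simpa only [ch_eq] using this
  sym σ := by
    obtain ⟨e, he⟩ := h.sym σ
    refine ⟨e, fun o i => ?_⟩
    rw [ch_eq, ch_eq, he]
    congr 2
    unfold mean
    simp only [he]
    rw [Equiv.sum_comp σ (v o)]

lemma T_ch (lam : ℝ) : T (ch lam v) F = T v (fun u => F (fun i => lam * u i + (1 - lam) * mean u)) := by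
  unfold T
  congr 1; funext o; congr 1; funext i
  exact ch_eq lam o i

lemma ch_dom {lam : ℝ} (h0 : -1 / 2 ≤ lam) (h1 : lam ≤ 1) (d : Dom v w) :
    Dom (ch lam v) (ch lam w) := fun F hF => by
  rw [T_ch, T_ch]; exact d _ (hF.ch h0 h1)

lemma perm (hF : Sub F) (h : IsSys v) (σ : Equiv.Perm (Fin 3)) :
    HasSum (fun o => F (fun i => v o (σ i))) (T v F) := by
  obtain ⟨e, he⟩ := h.sym σ
  have := (e.hasSum_iff (f := fun o => F (v o))).2 (hF.sm h).hasSum
  have e1 : (fun o => F (fun i => v o (σ i))) = (fun o => F (v o)) ∘ e := by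
    funext o
    simp only [Function.comp_apply]
    congr 1; funext i; rw [he]
  rw [e1]
  exact this

lemma weak (h : IsSys v) {s : ℝ} (h0 : 0 ≤ s) (h1 : s ≤ 1) : Dom (ch s v) v := fun F hF => by
  have c0 : 0 ≤ (1 - s) / 3 := by linarith
  have a0 := (hF.sm h).hasSum
  have a1 := perm hF h (Equiv.addRight 1)
  have a2 := perm hF h (Equiv.addRight 2)
  have a3 := (a0.mul_left (s + (1 - s) / 3)).add
    ((a1.mul_left ((1 - s) / 3)).add (a2.mul_left ((1 - s) / 3)))
  refine (hasSum_le (fun o => ?_) (hF.sm (ch_sys h (by linarith) h1)).hasSum a3).trans_eq ?_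
  · have n0 : NN (v o) := h.nn o
    have n1 : NN fun i => v o (Equiv.addRight 1 i) := fun i => h.nn o _
    have n2 : NN fun i => v o (Equiv.addRight 2 i) := fun i => h.nn o _
    rw [← hF.smul _ _ (by linarith) n0, ← hF.smul _ _ c0 n1, ← hF.smul _ _ c0 n2]
    have m0 : NN fun i => (s + (1 - s) / 3) * v o i := fun i => mul_nonneg (by linarith) (n0 i)
    have m1 : NN fun i => (1 - s) / 3 * v o (Equiv.addRight 1 i) := fun i => mul_nonneg c0 (n1 i)
    have m2 : NN fun i => (1 - s) / 3 * v o (Equiv.addRight 2 i) := fun i => mul_nonneg c0 (n2 i)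
    have b1 := hF.add _ _ m1 m2
    have b2 := hF.add _ _ m0 (fun i => add_nonneg (m1 i) (m2 i))
    refine le_trans (le_of_eq ?_) (b2.trans (by linarith))
    congr 1; funext i
    rw [ch_eq, mean3]
    have e1 : (1 : Fin 3) + 1 = 2 := rfl
    have e2 : (1 : Fin 3) + 2 = 0 := rfl
    have e3 : (2 : Fin 3) + 1 = 0 := rfl
    have e4 : (2 : Fin 3) + 2 = 1 := rfl
    fin_cases i <;> simp [e1, e2, e3, e4] <;> ring
  · unfold T; ring

lemma ch_ch (s lam : ℝ) : ch (s * lam) v = ch s (ch lam v) := by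
  funext o i
  have : mean (ch lam v o) = mean (v o) := by
    rw [mean3, ch_eq, ch_eq, ch_eq, mean3]; ring
  rw [ch_eq, ch_eq, ch_eq, this]; ring

lemma top (h : IsSys v) (lam : ℝ) (off : ℕ → ℝ) : Dom v (V 3 lam off 0) := fun F hF => by
  have z := V_zero_sys (q := 3) (lam := lam) (off := off)
  have a1 := hasSum_sum (s := (Finset.univ : Finset (Fin 3)))
    fun j _ => (h.hs j).mul_right (F (V 3 lam off 0 j))
  refine (hasSum_le (fun o => ?_) (hF.sm h).hasSum a1).trans_eq ?_
  · have := hF.fin (a := fun (j : Fin 3) i => v o j * V 3 lam off 0 j i)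
      (fun j i => mul_nonneg (h.nn o j) (z.nn j i)) Finset.univ
    refine le_trans (le_of_eq ?_) (this.trans_eq ?_)
    · congr 1; funext i
      simp [V, like]
    · exact Finset.sum_congr rfl fun j _ => hF.smul _ _ (h.nn o j) (z.nn j)
  · simp only [one_mul]
    exact (hasSum_fintype (fun j : Fin 3 => F (V 3 lam off 0 j))).tsum_eq.symm

end BWm

open BWm

theorem antiS (h : StmtSys) : StmtAnti := by
  intro lam off h0 h1 ho f hf
  have hs := h lam off h0 h1 ho
  have key : ∀ n, Dom (V 3 lam off (n + 1)) (V 3 lam off n) := by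
    intro n
    induction n with
    | zero => exact top (hs 1) lam off
    | succ n ih =>
      rw [V_succ (n + 1), V_succ n]
      exact mx_dom (ch_sys (hs _) h0 h1) (ch_sys (hs _) h0 h1) (ch_dom h0 h1 ih) ho ho
        fun _ _ _ => le_rfl
  exact antitone_nat_of_succ_le fun n => key n _ (hom_sub hf)

theorem cmpS (h : StmtSys) : StmtCmp := by
  intro lam lam' off off' h0 h1 h2 ho ho' hst f hf
  have hs := h lam off (by linarith) (by linarith) ho
  have hs' := h lam' off' h0 (by linarith) ho'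
  obtain ⟨s, s0, s1, e⟩ : ∃ s : ℝ, 0 ≤ s ∧ s ≤ 1 ∧ lam = s * lam' := by
    rcases (h1.trans h2).eq_or_lt with h3 | h3
    · exact ⟨0, le_rfl, zero_le_one, by linarith⟩
    · refine ⟨lam / lam', div_nonneg_of_nonpos h2 h3.le, (div_le_one_of_neg h3).2 h1, ?_⟩
      field_simp [h3.ne]
  have key : ∀ n, Dom (V 3 lam off n) (V 3 lam' off' n) := by
    intro n
    induction n with
    | zero => exact top (hs 0) lam' off'
    | succ n ih =>
      rw [V_succ n, V_succ n]
      refine mx_dom (ch_sys (hs _) (by linarith) (by linarith)) (ch_sys (hs' _) h0 (by linarith))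
        ((ch_dom (by linarith) (by linarith) ih).trans ?_) ho ho' hst
      rw [e, ch_ch]
      exact weak (ch_sys (hs' _) h0 (by linarith)) s0 s1
  exact fun n => key n _ (hom_sub hf)

end Vale.Agent.P154.AF
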