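import Vale.Agent.P154.AF.SpecB

namespace Vale.Agent.P154.AF.Cellm

open Vale.Agent.P154.AF Vale.Agent.P154.AF.Ck

variable {r : ℕ} {u v : ℝ} {R : TM → ℝ → Prop}

theorem cv {m : TM} {x y : ℝ} (h : R m x) (e : x = y) : R m y := e ▸ h

theorem hc (n : ℕ) : ((2 ^ n : ℕ) : ℝ) = 2 ^ n := by
  rw [Nat.cast_pow, Nat.cast_ofNat]

def p12v (a : TM) : TM :=
  mul (mul (mul (mul a a) a) (mul (mul a a) a)) (mul (mul (mul a a) a) (mul (mul a a) a))

theorem p12_eq {β : Type} (a : TM) (k : TM → β) : p12 a k = k (p12v a) := by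
  simp only [p12, fT_eq, p12v]

theorem r12 (hR : RepOk r u v R) {a : TM} {x : ℝ} (h : R a x) : R (p12v a) (x ^ 12) := by
  have h2 := hR.mul _ _ _ _ h h
  have h3 := hR.mul _ _ _ _ h2 h
  have h6 := hR.mul _ _ _ _ h3 h3
  exact cv (hR.mul _ _ _ _ h6 h6) (by ring)

def pwsL (w0 w1 w2 : TM) : ℕ → TM → TM → TM → List TM
  | 0, _, _, _ => []
  | n + 1, a, b, c => add (add a b) c :: pwsL w0 w1 w2 n (mul a w0) (mul b w1) (mul c w2)

theorem pws_eq {β : Type} (w0 w1 w2 : TM) (n : ℕ) : ∀ (a b c : TM) (ac : List TM)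
    (k : List TM → β), pws w0 w1 w2 n a b c ac k = k (ac ++ pwsL w0 w1 w2 n a b c) := by
  induction n with
  | zero => intro a b c ac k; simp only [pws, pwsL, List.append_nil]
  | succ n ih =>
    intro a b c ac k
    simp only [pws, pwsL, fT_eq, ih, List.append_assoc, List.cons_append, List.nil_append]

theorem r_pws (hR : RepOk r u v R) {w0 w1 w2 : TM} {y0 y1 y2 : ℝ} (h0 : R w0 y0) (h1 : R w1 y1)
    (h2 : R w2 y2) (n : ℕ) : ∀ (a b c : TM) (x y z : ℝ), R a x → R b y → R c z → ∀ i < n,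
    R ((pwsL w0 w1 w2 n a b c).getD i (cst 0)) (x * y0 ^ i + y * y1 ^ i + z * y2 ^ i) := by
  induction n with
  | zero => intro a b c x y z _ _ _ i hi; omega
  | succ n ih =>
    intro a b c x y z ha hb hd i hi
    cases i with
    | zero =>
      rw [pwsL, List.getD_cons_zero]
      exact cv (hR.add _ _ _ _ (hR.add _ _ _ _ ha hb) hd) (by ring)
    | succ i =>
      rw [pwsL, List.getD_cons_succ]
      exact cv (ih _ _ _ _ _ _ (hR.mul _ _ _ _ ha h0) (hR.mul _ _ _ _ hb h1)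
        (hR.mul _ _ _ _ hd h2) i (by omega)) (by ring)

def out1 (me p : List TM) (x : ℕ × ℕ × ℕ) : TM :=
  mul (me.getD x.1 (cst 0)) (sub (mul (p.getD x.2.1 (cst 0)) (p.getD x.2.2 (cst 0)))
    (p.getD (x.2.1 + x.2.2) (cst 0)))

theorem outs_eq {β : Type} (me p : List TM) (l : List (ℕ × ℕ × ℕ)) : ∀ (k : List TM → β),
    outs me p l k = k (l.map (out1 me p)) := by
  induction l with
  | nil => intro k; simp only [outs, List.map_nil]
  | cons x l ih => intro k; simp only [outs, fT_eq, ih, List.map_cons, out1]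

def meL (e m3 : TM) : List TM :=
  [m3, mul m3 e, mul (mul m3 e) e, mul (mul (mul m3 e) e) e, mul (mul (mul (mul m3 e) e) e) e]

def partL (w0 w1 w2 m3 : TM) : List TM :=
  KS.map (out1 (meL (mul (mul w0 w1) w2) m3) (pwsL w0 w1 w2 13 (cst 1) (cst 1) (cst 1)))

theorem part_eq {β : Type} (w0 w1 w2 m3 : TM) (k : List TM → β) :
    part w0 w1 w2 m3 k = k (partL w0 w1 w2 m3) := by
  simp only [part, pws_eq, fT_eq, outs_eq, partL, meL, List.nil_append]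

theorem r_me (hR : RepOk r u v R) {e m3 : TM} {y m : ℝ} (he : R e y) (hm : R m3 m) :
    ∀ j < 5, R ((meL e m3).getD j (cst 0)) (m * y ^ j) := by
  have h1 := hR.mul _ _ _ _ hm he
  have h2 := hR.mul _ _ _ _ h1 he
  have h3 := hR.mul _ _ _ _ h2 he
  have h4 := hR.mul _ _ _ _ h3 he
  intro j hj
  unfold meL
  rcases j with _ | _ | _ | _ | _ | j
  · rw [List.getD_cons_zero]; exact cv hm (by ring)
  · rw [List.getD_cons_succ, List.getD_cons_zero]; exact cv h1 (by ring)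
  · rw [List.getD_cons_succ, List.getD_cons_succ, List.getD_cons_zero]; exact cv h2 (by ring)
  · rw [List.getD_cons_succ, List.getD_cons_succ, List.getD_cons_succ, List.getD_cons_zero]
    exact cv h3 (by ring)
  · rw [List.getD_cons_succ, List.getD_cons_succ, List.getD_cons_succ, List.getD_cons_succ,
      List.getD_cons_zero]
    exact cv h4 (by ring)
  · omega

theorem ks_ok : ∀ x ∈ KS, 3 * x.1 + x.2.1 + x.2.2 = 12 := by decide

theorem hom (t M : ℝ) (w : Fin 3 → ℝ) (j a b : ℕ) :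
    M * (t * w 0 * (t * w 1) * (t * w 2)) ^ j *
      ((((1 : ℕ) : ℝ) * (t * w 0) ^ a + ((1 : ℕ) : ℝ) * (t * w 1) ^ a +
        ((1 : ℕ) : ℝ) * (t * w 2) ^ a) *
      (((1 : ℕ) : ℝ) * (t * w 0) ^ b + ((1 : ℕ) : ℝ) * (t * w 1) ^ b +
        ((1 : ℕ) : ℝ) * (t * w 2) ^ b) -
      (((1 : ℕ) : ℝ) * (t * w 0) ^ (a + b) + ((1 : ℕ) : ℝ) * (t * w 1) ^ (a + b) +
        ((1 : ℕ) : ℝ) * (t * w 2) ^ (a + b))) =
    t ^ (3 * j + a + b) * (M * Ph (j, a, b) w) := by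
  simp only [Ph, ps, Nat.cast_one, one_mul, mul_pow, pow_add, pow_mul']
  ring

theorem r_part (hR : RepOk r u v R) {w0 w1 w2 m3 : TM} {w : Fin 3 → ℝ} {M : ℝ}
    (h0 : R w0 (2 ^ 57 * w 0)) (h1 : R w1 (2 ^ 57 * w 1)) (h2 : R w2 (2 ^ 57 * w 2))
    (hm : R m3 (2 ^ 156 * M)) :
    List.Forall₂ (fun m y => R m (2 ^ 840 * y)) (partL w0 w1 w2 m3)
      (KS.map fun k => M * Ph k w) := by
  unfold partL
  rw [List.forall₂_map_left_iff, List.forall₂_map_right_iff, List.forall₂_same]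
  rintro ⟨j, a, b⟩ hx
  have hk := ks_ok _ hx
  simp only at hk
  have hp := r_pws hR h0 h1 h2 13 _ _ _ _ _ _ (hR.cst 1) (hR.cst 1) (hR.cst 1)
  have he := r_me hR (hR.mul _ _ _ _ (hR.mul _ _ _ _ h0 h1) h2) hm j (by omega)
  refine cv (hR.mul _ _ _ _ he (hR.sub _ _ _ _ (hR.mul _ _ _ _ (hp a (by omega))
    (hp b (by omega))) (hp (a + b) (by omega)))) ?_
  rw [hom, hk]
  generalize (2 : ℝ) = t
  ring

theorem rt_mul {c b : ℝ} (h : 0 ≤ c) (hb : 0 ≤ b) : rt (c ^ 12 * b) = c * rt b := by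
  unfold rt
  rw [Real.mul_rpow (by positivity) hb, ← Real.rpow_natCast, ← Real.rpow_mul h]
  norm_num

theorem rt_one : rt 1 = 1 := Real.one_rpow _

theorem r_root (hrt : RootOk r R) (S : ℕ) {B : TM} {c b : ℝ} (h : 0 ≤ c) (hb : 0 ≤ b)
    (hB : R B (c ^ 12 * b)) : R (root r S B) (c * rt b) :=
  cv (hrt S B _ hB (by positivity)) (rt_mul h hb)

theorem r_bt (hR : RepOk r u v R) (ln : ℕ) {m3 a : TM} {M y : ℝ} (hm : R m3 (2 ^ 156 * M))
    (ha : R a (2 ^ 312 * y)) :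
    R (bt ln m3 a) ((2 ^ 57) ^ 12 * ((1 - lamOf ln) * M + 3 * lamOf ln * y)) := by
  refine cv (hR.sm _ _ _ (hR.sub _ _ _ _ (hR.sm _ _ _ hm) (hR.sm _ _ _ ha))) ?_
  have e : (ln : ℝ) = -lamOf ln * 2 ^ 20 := by
    unfold lamOf
    field_simp
  rw [Nat.cast_mul, Nat.cast_mul, Nat.cast_add, hc, hc, hc, Nat.cast_ofNat, e]
  generalize lamOf ln = l
  generalize (2 : ℝ) = t
  ring

theorem lam_bd {ln : ℕ} (hl : ln ≤ 2 ^ 19) : -1 / 2 ≤ lamOf ln ∧ lamOf ln ≤ 0 := by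
  have h : (ln : ℝ) ≤ 2 ^ 19 := by exact_mod_cast hl
  have h0 : (0 : ℝ) ≤ ln := Nat.cast_nonneg _
  unfold lamOf
  constructor
  · rw [le_div_iff₀ (by positivity)]
    linarith
  · exact div_nonpos_of_nonpos_of_nonneg (by linarith) (by positivity)

theorem rad_nn {l s y : ℝ} (h1 : -1 / 2 ≤ l) (h2 : l ≤ 0) (hs : 0 ≤ s) (hy : y ≤ 1 + s) :
    0 ≤ (1 - l) * (1 + s) + 3 * l * y := by
  nlinarith [mul_nonneg (neg_nonneg.2 h2) (sub_nonneg.2 hy),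
    mul_nonneg (show 0 ≤ 1 + 2 * l by linarith) (show 0 ≤ 1 + s by linarith)]

theorem r_W0 (hR : RepOk r u v R) (hrt : RootOk r R) {ln : ℕ} (hl : ln ≤ 2 ^ 19) {σ : ℝ}
    (hσ : 0 ≤ σ) {sg m3 : TM} (h1 : R sg (2 ^ 13 * σ)) (hm : R m3 (2 ^ 156 * (1 + σ ^ 12))) :
    R (if ln = 2 ^ 19 then mul sg (root r (if ln = 2 ^ 19 then 2 ^ 44 else 2 ^ 57)
        (if ln = 2 ^ 19 then cst (3 * 2 ^ 527) else bt ln m3 (cst (2 ^ 312))))
      else root r (if ln = 2 ^ 19 then 2 ^ 44 else 2 ^ 57)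
        (if ln = 2 ^ 19 then cst (3 * 2 ^ 527) else bt ln m3 (cst (2 ^ 312))))
      (2 ^ 57 * rt ((1 - lamOf ln) * (1 + σ ^ 12) + 3 * lamOf ln * 1)) := by
  by_cases h : ln = 2 ^ 19
  · rw [if_pos h, if_pos h, if_pos h]
    have e : lamOf ln = -1 / 2 := by
      unfold lamOf
      rw [h, hc]
      norm_num
    have hB : R (cst (3 * 2 ^ 527)) ((2 ^ 44) ^ 12 * (3 / 2)) := by
      refine cv (hR.cst _) ?_
      rw [Nat.cast_mul, hc, Nat.cast_ofNat, ← pow_mul, show 44 * 12 = 527 + 1 from rfl, pow_succ _ 527]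
      generalize (2 : ℝ) ^ 527 = t
      ring
    refine cv (hR.mul _ _ _ _ h1 (r_root hrt _ (by positivity) (by norm_num) hB)) ?_
    rw [e, show (1 - (-1 / 2 : ℝ)) * (1 + σ ^ 12) + 3 * (-1 / 2) * 1 = σ ^ 12 * (3 / 2) by ring,
      rt_mul hσ (by norm_num)]
    generalize rt (3 / 2) = z
    ring
  · rw [if_neg h, if_neg h, if_neg h]
    have hs : 0 ≤ σ ^ 12 := by positivity
    exact r_root hrt _ (by positivity) (rad_nn (lam_bd hl).1 (lam_bd hl).2 hs (by linarith))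
      (r_bt hR ln hm (cv (hR.cst _) (by rw [hc, mul_one])))

theorem r_lin (hR : RepOk r u v R) {s0 s1 : ℕ} (h : s0 ≤ s1) (a b : ℕ) {σ : ℝ}
    (e : 8192 * σ = s0 + s1 + ((s1 : ℝ) - s0) * (u ^ a * v ^ b)) :
    R (add (cst (s0 + s1)) (sm (s1 - s0) (mon r a b))) (2 ^ 13 * σ) := by
  refine cv (hR.add _ _ _ _ (hR.cst _) (hR.sm _ _ _ (hR.mon a b))) ?_
  rw [Nat.cast_add, Nat.cast_sub h, ← e]
  norm_num

end Vale.Agent.P154.AF.Cellm

namespace Vale.Agent.P154.AF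

open Ck Cellm

theorem cellS : StmtCell := by
  intro ln r s0 s1 x0 x1 u v σ ξ R hR hrt hl hs hx hσ hξ hξ1 eσ eξ
  have hsg := r_lin hR hs 1 0 (σ := σ) (by rw [eσ]; ring)
  have hxi := r_lin hR hx 0 1 (σ := ξ) (by rw [eξ]; ring)
  have n1 : 0 ≤ σ ^ 12 := by positivity
  have n2 : 0 ≤ ξ ^ 12 := by positivity
  have n3 : ξ ^ 12 ≤ 1 := pow_le_one₀ hξ hξ1
  have n4 : 0 ≤ 1 - ξ ^ 12 := by linarith
  have hS := cv (y := 2 ^ 156 * σ ^ 12) (r12 hR hsg) (by generalize (2 : ℝ) = t; ring)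
  have hX := cv (y := 2 ^ 156 * ξ ^ 12) (r12 hR hxi) (by generalize (2 : ℝ) = t; ring)
  have ha2 := cv (y := 2 ^ 312 * (σ ^ 12 * ξ ^ 12)) (hR.mul _ _ _ _ hS hX)
    (by generalize (2 : ℝ) = t; ring)
  have ha1 := cv (y := 2 ^ 312 * (σ ^ 12 * (1 - ξ ^ 12)))
    (hR.sub _ _ _ _ (hR.sm (2 ^ 156) _ _ hS) ha2) (by rw [hc]; generalize (2 : ℝ) = t; ring)
  have hm := cv (y := 2 ^ 156 * (1 + σ ^ 12)) (hR.add _ _ _ _ (hR.cst (2 ^ 156)) hS)
    (by rw [hc]; generalize (2 : ℝ) = t; ring)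
  have hB1 := cv (y := (2 ^ 44) ^ 12 * (1 - ξ ^ 12))
    (hR.sm (2 ^ 372) _ _ (hR.sub _ _ _ _ (hR.cst (2 ^ 156)) hX))
    (by rw [hc, hc]; generalize (2 : ℝ) = t; ring)
  have hR1 := r_root hrt (2 ^ 44) (by positivity) n4 hB1
  have hw1 := cv (y := 2 ^ 57 * rt (σ ^ 12 * (1 - ξ ^ 12))) (hR.mul _ _ _ _ hsg hR1)
    (by rw [rt_mul hσ n4]; generalize (2 : ℝ) = t; ring)
  have hw2 := cv (y := 2 ^ 57 * rt (σ ^ 12 * ξ ^ 12))
    (hR.sm (2 ^ 31) _ _ (hR.mul _ _ _ _ hsg hxi))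
    (by
      rw [hc, rt_mul hσ n2, ← mul_one (ξ ^ 12), rt_mul hξ zero_le_one, rt_one]
      generalize (2 : ℝ) = t
      ring)
  have hw0 := cv (y := 2 ^ 57 * rt 1) (hR.cst (2 ^ 57)) (by rw [hc, rt_one, mul_one])
  have hT1 := r_part hR (w := fun i => rt (av σ ξ i)) hw0 hw1 hw2 hm
  have hW0 := r_W0 hR hrt hl hσ hsg hm
  have hW1 := r_root hrt (2 ^ 57) (by positivity)
    (rad_nn (lam_bd hl).1 (lam_bd hl).2 n1 (by nlinarith [mul_nonneg n1 n2])) (r_bt hR ln hm ha1)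
  have hW2 := r_root hrt (2 ^ 57) (by positivity)
    (rad_nn (lam_bd hl).1 (lam_bd hl).2 n1 (by nlinarith [mul_nonneg n1 n4])) (r_bt hR ln hm ha2)
  have hT2 := r_part hR
    (w := fun i => rt ((1 - lamOf ln) * (1 + σ ^ 12) + 3 * lamOf ln * av σ ξ i)) hW0 hW1 hW2 hm
  have hq := cv (y := 2 ^ 840 * (1 + (σ ^ 12 * (1 - ξ ^ 12)) ^ 2 + (σ ^ 12 * ξ ^ 12) ^ 2))
    (hR.sm (2 ^ 216) _ _ (hR.add _ _ _ _ (hR.add _ _ _ _ (hR.cst (2 ^ 624))
      (hR.mul _ _ _ _ ha1 ha1)) (hR.mul _ _ _ _ ha2 ha2)))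
    (by rw [hc, hc]; generalize (2 : ℝ) = t; ring)
  have hmm := cv (y := 2 ^ 840 * (1 + σ ^ 12) ^ 2) (hR.sm (2 ^ 528) _ _ (hR.mul _ _ _ _ hm hm))
    (by rw [hc]; generalize (2 : ℝ) = t; ring)
  refine ⟨_, fun β k => ?_, List.rel_append hT1 (List.rel_append hT2
    (List.Forall₂.cons hq (List.Forall₂.cons hmm List.Forall₂.nil)))⟩
  unfold cell
  simp only [fT_eq, p12_eq, part_eq]

end Vale.Agent.P154.AF
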