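import Vale.Agent.P154.AF.SpecA

namespace Vale.Agent.P154.AF

open Filter Topology Tr

namespace Concm

noncomputable def mm (e0 e1 e2 : ℕ) (a : Fin 3 → ℝ) : ℝ := rt (a 0) ^ e0 * rt (a 1) ^ e1 * rt (a 2) ^ e2

theorem cont_rt : Continuous rt := Real.continuous_rpow_const (by norm_num)

theorem rt_pow {x : ℝ} (hx : 0 ≤ x) (e : ℕ) : rt x ^ e = x ^ ((e : ℝ) / 12) := by
  rw [rt, ← Real.rpow_natCast, ← Real.rpow_mul hx]
  congr 1
  ring

theorem mm_nn (e0 e1 e2 : ℕ) {a : Fin 3 → ℝ} (ha : ∀ i, 0 ≤ a i) : 0 ≤ mm e0 e1 e2 a := by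
  have := fun i => Real.rpow_nonneg (ha i) ((1 : ℝ) / 12)
  exact mul_nonneg (mul_nonneg (pow_nonneg (this 0) _) (pow_nonneg (this 1) _)) (pow_nonneg (this 2) _)

theorem cont_mm (e0 e1 e2 : ℕ) : Continuous (mm e0 e1 e2) := by
  have := cont_rt
  unfold mm
  fun_prop

theorem key {e0 e1 e2 : ℕ} (he : e0 + e1 + e2 = 12) {x c : Fin 3 → ℝ} (hx : ∀ i, 0 ≤ x i)
    (hc : ∀ i, 0 < c i) : mm e0 e1 e2 x ≤ mm e0 e1 e2 c *
      (e0 / 12 * (x 0 / c 0) + e1 / 12 * (x 1 / c 1) + e2 / 12 * (x 2 / c 2)) := by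
  have he' : (e0 : ℝ) + e1 + e2 = 12 := by exact_mod_cast he
  have q := fun i => div_nonneg (hx i) (hc i).le
  have h := Real.geom_mean_le_arith_mean3_weighted (w₁ := (e0 : ℝ) / 12) (w₂ := (e1 : ℝ) / 12)
    (w₃ := (e2 : ℝ) / 12) (by positivity) (by positivity) (by positivity) (q 0) (q 1) (q 2)
    (by linarith)
  have e : ∀ i (θ : ℝ), x i ^ θ = c i ^ θ * (x i / c i) ^ θ := fun i θ => by
    rw [← Real.mul_rpow (hc i).le (q i), mul_div_cancel₀ _ (hc i).ne']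
  refine le_trans (le_of_eq ?_) (mul_le_mul_of_nonneg_left h (mm_nn _ _ _ fun i => (hc i).le))
  simp only [mm, rt_pow (hx _), rt_pow (hc _).le]
  rw [e 0, e 1, e 2]
  ring

theorem conc {e0 e1 e2 : ℕ} (he : e0 + e1 + e2 = 12) {x y : Fin 3 → ℝ} (hx : ∀ i, 0 ≤ x i)
    (hy : ∀ i, 0 ≤ y i) {α β : ℝ} (hα : 0 ≤ α) (hβ : 0 ≤ β) :
    α * mm e0 e1 e2 x + β * mm e0 e1 e2 y ≤ mm e0 e1 e2 fun i => α * x i + β * y i := by
  have he' : (e0 : ℝ) + e1 + e2 = 12 := by exact_mod_cast he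
  have c0 : ∀ i, 0 ≤ α * x i + β * y i := fun i => add_nonneg (mul_nonneg hα (hx i)) (mul_nonneg hβ (hy i))
  have hl : Tendsto (fun ε : ℝ => mm e0 e1 e2 fun i => α * x i + β * y i + ε) (𝓝[>] 0)
      (𝓝 (mm e0 e1 e2 fun i => α * x i + β * y i)) := by
    have : Continuous fun ε : ℝ => mm e0 e1 e2 fun i => α * x i + β * y i + ε :=
      (cont_mm _ _ _).comp (by fun_prop)
    simpa using (this.tendsto 0).mono_left nhdsWithin_le_nhds
  refine ge_of_tendsto hl (eventually_nhdsWithin_of_forall fun ε hε => ?_)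
  have e0' : 0 < ε := hε
  have hc : ∀ i, 0 < α * x i + β * y i + ε := fun i => by linarith [c0 i]
  have k1 := mul_le_mul_of_nonneg_left (key he hx hc) hα
  have k2 := mul_le_mul_of_nonneg_left (key he hy hc) hβ
  have m0 := mm_nn e0 e1 e2 fun i => (hc i).le
  have r : ∀ i, α * (x i / (α * x i + β * y i + ε)) + β * (y i / (α * x i + β * y i + ε)) ≤ 1 := by
    intro i
    rw [← mul_div_assoc, ← mul_div_assoc, ← add_div, div_le_one (hc i)]
    linarith
  have s0 := mul_le_mul_of_nonneg_left (r 0) (by positivity : (0 : ℝ) ≤ e0 / 12)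
  have s1 := mul_le_mul_of_nonneg_left (r 1) (by positivity : (0 : ℝ) ≤ e1 / 12)
  have s2 := mul_le_mul_of_nonneg_left (r 2) (by positivity : (0 : ℝ) ≤ e2 / 12)
  beta_reduce at k1 k2 ⊢
  generalize x 0 / (α * x 0 + β * y 0 + ε) = a0 at *
  generalize x 1 / (α * x 1 + β * y 1 + ε) = a1 at *
  generalize x 2 / (α * x 2 + β * y 2 + ε) = a2 at *
  generalize y 0 / (α * x 0 + β * y 0 + ε) = b0 at *
  generalize y 1 / (α * x 1 + β * y 1 + ε) = b1 at *
  generalize y 2 / (α * x 2 + β * y 2 + ε) = b2 at *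
  generalize (mm e0 e1 e2 fun i => α * x i + β * y i + ε) = M at *
  have t : α * (e0 / 12 * a0 + e1 / 12 * a1 + e2 / 12 * a2) +
      β * (e0 / 12 * b0 + e1 / 12 * b1 + e2 / 12 * b2) ≤ 1 := by linarith
  nlinarith [mul_le_mul_of_nonneg_left t m0]

theorem ph_eq (j s t : ℕ) (a : Fin 3 → ℝ) : ph (j, s, t) a =
    (mm (j + s) (j + t) j a + mm (j + t) (j + s) j a + mm (j + s) j (j + t) a +
      mm (j + t) j (j + s) a + mm j (j + s) (j + t) a + mm j (j + t) (j + s) a) / 6 := by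
  simp only [ph, Ph, ps, mm]
  ring

theorem ph_conc {k : ℕ × ℕ × ℕ} (hk : Ad k) {x y : Fin 3 → ℝ} (hx : ∀ i, 0 ≤ x i)
    (hy : ∀ i, 0 ≤ y i) {α β : ℝ} (hα : 0 ≤ α) (hβ : 0 ≤ β) :
    α * ph k x + β * ph k y ≤ ph k fun i => α * x i + β * y i := by
  obtain ⟨j, s, t⟩ := k
  simp only [Ad] at hk
  have h1 := conc (e0 := j + s) (e1 := j + t) (e2 := j) (by omega) hx hy hα hβ
  have h2 := conc (e0 := j + t) (e1 := j + s) (e2 := j) (by omega) hx hy hα hβ
  have h3 := conc (e0 := j + s) (e1 := j) (e2 := j + t) (by omega) hx hy hα hβ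
  have h4 := conc (e0 := j + t) (e1 := j) (e2 := j + s) (by omega) hx hy hα hβ
  have h5 := conc (e0 := j) (e1 := j + s) (e2 := j + t) (by omega) hx hy hα hβ
  have h6 := conc (e0 := j) (e1 := j + t) (e2 := j + s) (by omega) hx hy hα hβ
  simp only [ph_eq]
  linarith

theorem cont_ph (k : ℕ × ℕ × ℕ) : Continuous (ph k) := by
  obtain ⟨j, s, t⟩ := k
  have := cont_mm
  rw [funext (ph_eq j s t)]
  fun_prop

theorem cvx_sx : Convex ℝ (Sx 3) := by
  intro x hx y hy α β hα hβ h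
  refine ⟨fun i => add_nonneg (mul_nonneg hα (hx.1 i)) (mul_nonneg hβ (hy.1 i)), ?_⟩
  simp only [Pi.add_apply, Pi.smul_apply, smul_eq_mul, Finset.sum_add_distrib, ← Finset.mul_sum,
    hx.2, hy.2]
  rw [← add_mul, h, one_mul]

theorem mm_le {e0 e1 e2 : ℕ} (he : e0 + e1 + e2 = 12) {a : Fin 3 → ℝ} (ha : ∀ i, 0 ≤ a i) :
    mm e0 e1 e2 a ≤ e0 / 12 * a 0 + e1 / 12 * a 1 + e2 / 12 * a 2 := by
  simpa [mm, rt] using key he ha (c := fun _ => 1) fun _ => one_pos

theorem chx_nn {lam : ℝ} (h0 : -1 / 2 ≤ lam) (h1 : lam ≤ 1) {a : Fin 3 → ℝ} (ha : a ∈ Sx 3) (i : Fin 3) :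
    0 ≤ chx lam a i := by
  have h2 := ha.1 i
  have h3 : a i ≤ 3 := by exact_mod_cast le_of_mem ha i
  unfold chx
  rcases le_total 0 lam with h | h <;> nlinarith

end Concm

open Concm

theorem concS : StmtConc := by
  refine ⟨⟨cont_chi, cvx_sx, fun x _ y _ α β hα hβ h => ?_⟩, fun k hk =>
    ⟨⟨(cont_ph k).neg, cvx_sx, fun x hx y hy α β hα hβ _ => ?_⟩,
      fun lam h0 h1 => ⟨?_, cvx_sx, fun x hx y hy α β hα hβ h => ?_⟩, fun a ha => ?_⟩⟩
  · obtain rfl : β = 1 - α := by linarith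
    simp only [chi, Fin.sum_univ_three, Pi.add_apply, Pi.smul_apply, smul_eq_mul]
    have := mul_nonneg hα hβ
    push_cast
    nlinarith [mul_nonneg this (sq_nonneg (x 0 - y 0)), mul_nonneg this (sq_nonneg (x 1 - y 1)),
      mul_nonneg this (sq_nonneg (x 2 - y 2))]
  · have := ph_conc hk hx.1 hy.1 hα hβ
    have e : α • x + β • y = fun i => α * x i + β * y i := rfl
    simp only [smul_eq_mul, e]
    linarith
  · exact ((cont_ph k).comp (by unfold chx; fun_prop)).neg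
  · have := ph_conc hk (chx_nn h0 h1 hx) (chx_nn h0 h1 hy) hα hβ
    have e : chx lam (α • x + β • y) = fun i => α * chx lam x i + β * chx lam y i := by
      funext i
      simp only [chx, Pi.add_apply, Pi.smul_apply, smul_eq_mul]
      linear_combination (lam - 1) * h
    simp only [smul_eq_mul, e]
    linarith
  · obtain ⟨j, s, t⟩ := k
    simp only [Ad] at hk
    have hk' : 3 * (j : ℝ) + s + t = 12 := by exact_mod_cast hk
    have hs : a 0 + a 1 + a 2 = 3 := by simpa [Fin.sum_univ_three] using ha.2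
    rw [ph_eq]
    have n := fun e0 e1 e2 => mm_nn e0 e1 e2 ha.1
    refine ⟨div_nonneg (add_nonneg (add_nonneg (add_nonneg (add_nonneg (add_nonneg (n _ _ _) (n _ _ _))
      (n _ _ _)) (n _ _ _)) (n _ _ _)) (n _ _ _)) (by norm_num), ?_⟩
    have h1 := mm_le (e0 := j + s) (e1 := j + t) (e2 := j) (by omega) ha.1
    have h2 := mm_le (e0 := j + t) (e1 := j + s) (e2 := j) (by omega) ha.1
    have h3 := mm_le (e0 := j + s) (e1 := j) (e2 := j + t) (by omega) ha.1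
    have h4 := mm_le (e0 := j + t) (e1 := j) (e2 := j + s) (by omega) ha.1
    have h5 := mm_le (e0 := j) (e1 := j + s) (e2 := j + t) (by omega) ha.1
    have h6 := mm_le (e0 := j) (e1 := j + t) (e2 := j + s) (by omega) ha.1
    push_cast at h1 h2 h3 h4 h5 h6
    have e : (3 * (j : ℝ) + s + t) * (a 0 + a 1 + a 2) = 36 := by rw [hk', hs]; norm_num
    nlinarith

end Vale.Agent.P154.AF
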