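import Vale.Agent.P154.AF.SpecB

namespace Vale.Agent.P154.AF.Ctm

open Ck

theorem seg {lo hi : ℕ} {N : ℝ} (h1 : (lo : ℝ) ≤ 2 ^ 32 * N) (h2 : 2 ^ 32 * N ≤ hi) :
    ∃ p q : ℝ, 0 ≤ p ∧ 0 ≤ q ∧ p + q = 1 ∧
      p * ((lo : ℝ) / 2 ^ 32) + q * ((hi : ℝ) / 2 ^ 32) = N := by
  have a1 : (lo : ℝ) / 2 ^ 32 ≤ N := by rw [div_le_iff₀ (by positivity)]; linarith
  have a2 : N ≤ (hi : ℝ) / 2 ^ 32 := by rw [le_div_iff₀ (by positivity)]; linarith
  have hm : N ∈ segment ℝ ((lo : ℝ) / 2 ^ 32) ((hi : ℝ) / 2 ^ 32) := by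
    rw [segment_eq_Icc (a1.trans a2)]; exact ⟨a1, a2⟩
  obtain ⟨p, q, hp, hq, hs, he⟩ := hm
  exact ⟨p, q, hp, hq, hs, by simpa using he⟩

theorem mix {m A B : ℤ} {p q x : ℝ} (hp : 0 ≤ p) (hq : 0 ≤ q) (hs : p + q = 1)
    (hm : m = min A B) (hx : p * A + q * B ≤ x) : (m : ℝ) ≤ x := by
  have a1 : (m : ℝ) ≤ A := by exact_mod_cast hm ▸ min_le_left A B
  have a2 : (m : ℝ) ≤ B := by exact_mod_cast hm ▸ min_le_right A B
  have : (m : ℝ) = p * m + q * m := by rw [← add_mul, hs, one_mul]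
  nlinarith [mul_le_mul_of_nonneg_left a1 hp, mul_le_mul_of_nonneg_left a2 hq]

theorem mem01 {n : ℕ} (h : n ≤ 2 ^ 32) : (n : ℝ) / 2 ^ 32 ∈ Set.Icc (0 : ℝ) 1 := by
  refine ⟨by positivity, ?_⟩
  rw [div_le_one (by positivity)]
  exact_mod_cast h

theorem low_le {G : ℝ → ℝ} {g : GB} (hG : GOk G g) (a b : ℤ) {lo hi y : ℕ} {N : ℝ}
    (hN : N ∈ Set.Icc (0 : ℝ) 1) (hl : lo ≤ 2 ^ 32) (hh : hi ≤ 2 ^ 32) (hy : y ≤ 2 ^ 32)
    (h1 : (lo : ℝ) ≤ 2 ^ 32 * N) (h2 : 2 ^ 32 * N ≤ hi) :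
    (low g a b lo hi y : ℝ) ≤ 2 ^ 170 * (a * G N + b * N) := by
  obtain ⟨p, q, hp, hq, hs, he⟩ := seg h1 h2
  obtain ⟨hc, hu, hd⟩ := hG
  by_cases ha : a < 0
  · refine mix hp hq hs (by unfold low; rw [if_pos ha]) ?_
    have c1 := hc.2 (mem01 hl) (mem01 hh) hp hq hs
    simp only [smul_eq_mul] at c1
    rw [he] at c1
    have u1 := mul_le_mul_of_nonneg_left (hu lo hl) hp
    have u2 := mul_le_mul_of_nonneg_left (hu hi hh) hq
    have c2 : G N ≤ p * ((g.gu lo : ℝ) / 2 ^ 128) + q * ((g.gu hi : ℝ) / 2 ^ 128) := by linarith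
    have ha' : (0 : ℝ) ≤ -(a : ℝ) := by
      have : (a : ℝ) < 0 := by exact_mod_cast ha
      linarith
    have c3 := mul_le_mul_of_nonneg_left c2 ha'
    push_cast
    rw [← he] at *
    nlinarith [c3]
  · refine mix hp hq hs (by unfold low; rw [if_neg ha, frc_eq]) ?_
    have ha' : (0 : ℝ) ≤ (a : ℝ) := by exact_mod_cast not_lt.mp ha
    have c3 := mul_le_mul_of_nonneg_left (hd y hy N hN) ha'
    have hq' : q = 1 - p := by linarith
    have key : p * ((a : ℝ) * (g.gl y) * ((g.cc y) * 2 ^ 10 + (g.dn) * ((lo : ℝ) - y)) +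
        b * lo * 2 ^ 138) + q * ((a : ℝ) * (g.gl y) * ((g.cc y) * 2 ^ 10 +
        (g.dn) * ((hi : ℝ) - y)) + b * hi * 2 ^ 138) =
        2 ^ 170 * ((a : ℝ) * ((g.gl y : ℝ) / 2 ^ 128 * (g.cc y / 2 ^ 32 +
          g.dn / 2 ^ 10 * (N - y / 2 ^ 32))) + b * N) := by
      rw [← he, hq']; ring
    push_cast
    linarith [c3, key]

theorem adk (i : ℕ) (hi : i < 12) : Ad (kk i) := by
  unfold Ad kk KS
  interval_cases i <;> simp

/-- the box holds the point -/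
def Box (N : ℕ × ℕ × ℕ → ℝ) (lo hi : List ℕ) : Prop := ∀ i < 12,
  lo.getD i 0 ≤ 2 ^ 32 ∧ hi.getD i 0 ≤ 2 ^ 32 ∧
    (lo.getD i 0 : ℝ) ≤ 2 ^ 32 * N (kk i) ∧ 2 ^ 32 * N (kk i) ≤ hi.getD i 0

theorem getD_set (l : List ℕ) (t x i : ℕ) :
    (l.set t x).getD i 0 = l.getD i 0 ∨ (i = t ∧ (l.set t x).getD i 0 = x) := by
  by_cases h : t = i
  · subst h
    by_cases h2 : t < l.length
    · right; simp [List.getD_eq_getElem?_getD, h2]
    · left; rw [List.set_eq_of_length_le (not_lt.mp h2)]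
  · left; simp [List.getD_eq_getElem?_getD, List.getElem?_set_ne h]

theorem split {N : ℕ × ℕ × ℕ → ℝ} {lo hi : List ℕ} (h : Box N lo hi) (t x : ℕ)
    (hx : x ≤ 2 ^ 32) : Box N lo (hi.set t x) ∨ Box N (lo.set t x) hi := by
  rcases le_total (2 ^ 32 * N (kk t)) (x : ℝ) with c | c
  · left
    intro i hi'
    obtain ⟨a1, a2, a3, a4⟩ := h i hi'
    rcases getD_set hi t x i with e | ⟨rfl, e⟩ <;> rw [e]
    exacts [⟨a1, a2, a3, a4⟩, ⟨a1, hx, a3, c⟩]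
  · right
    intro i hi'
    obtain ⟨a1, a2, a3, a4⟩ := h i hi'
    rcases getD_set lo t x i with e | ⟨rfl, e⟩ <;> rw [e]
    exacts [⟨a1, a2, a3, a4⟩, ⟨hx, a2, c, a4⟩]

theorem ref_false {lam : ℝ} {G : ℝ → ℝ} {g : GB} {en c ys : ℕ} {Z N : ℕ × ℕ × ℕ → ℝ} {A : ℝ}
    (hG : GOk G g) (hH : Hull lam G Z N A) (hA : (en : ℝ) / 2 ^ 10 ≤ A) (hc : Ineq lam c)
    {lo hi : List ℕ} (hB : Box N lo hi) (hr : ref g en c ys lo hi = true) : False := by
  unfold ref at hr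
  rw [Bool.and_eq_true, decide_eq_true_eq, decide_eq_true_eq] at hr
  obtain ⟨h0, h1⟩ := hr
  have hle := hH.le ((List.range 12).map fun i => (kk i, (fld c i : ℝ), (fld c (12 + i) : ℝ)))
    (fld c 24) (fld c 25) (by
      intro x hx
      obtain ⟨i, hi, rfl⟩ := List.mem_map.mp hx
      exact adk i (List.mem_range.mp hi)) (by
      intro a ha
      rw [List.map_map]
      exact hc a ha)
  rw [List.map_map] at hle
  have hs : ((((List.range 12).map fun i => low g (fld c i) (fld c (12 + i)) (lo.getD i 0)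
      (hi.getD i 0) (pt ys i)).sum : ℤ) : ℝ) ≤ 2 ^ 170 * ((List.range 12).map
      ((fun x : (ℕ × ℕ × ℕ) × ℝ × ℝ => x.2.1 * Z x.1 + x.2.2 * N x.1) ∘
        fun i => (kk i, (fld c i : ℝ), (fld c (12 + i) : ℝ)))).sum := by
    rw [Int.cast_list_sum, List.map_map, ← List.sum_map_mul_left]
    refine List.sum_le_sum fun i hi' => ?_
    have hi2 := List.mem_range.mp hi'
    obtain ⟨a1, a2, a3, a4⟩ := hB i hi2
    obtain ⟨e, n0, n1⟩ := hH.id _ (adk i hi2)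
    simp only [Function.comp_apply]
    rw [e]
    exact low_le hG _ _ ⟨n0, n1⟩ a1 a2 (min_le_right _ _) a3 a4
  have h0' : (0 : ℝ) ≤ (fld c 24 : ℝ) := by exact_mod_cast h0
  have h1' : (fld c 25 : ℝ) * 2 ^ 170 < (fld c 24 : ℝ) * en * 2 ^ 160 +
      ((((List.range 12).map fun i => low g (fld c i) (fld c (12 + i)) (lo.getD i 0)
      (hi.getD i 0) (pt ys i)).sum : ℤ) : ℝ) := by exact_mod_cast h1
  have h2 := mul_le_mul_of_nonneg_left hA h0'
  have h3 : (fld c 24 : ℝ) * en * 2 ^ 160 = 2 ^ 170 * ((fld c 24 : ℝ) * ((en : ℝ) / 2 ^ 10)) := by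
    ring
  linarith

theorem pool_mem {pool : List ℕ} {i : ℕ} (h : i < pool.length) : pool.getD i 0 ∈ pool := by
  rw [List.getD_eq_getElem _ _ h]; exact List.getElem_mem h

theorem chk_false {lam : ℝ} {G : ℝ → ℝ} {g : GB} {en : ℕ} {pool : List ℕ}
    {Z N : ℕ × ℕ × ℕ → ℝ} {A : ℝ} (hG : GOk G g) (hH : Hull lam G Z N A)
    (hA : (en : ℝ) / 2 ^ 10 ≤ A) (hp : ∀ c ∈ pool, Ineq lam c) (ct : Ct) :
    ∀ lo hi : List ℕ, Box N lo hi → chkC g en pool ct lo hi = true → False := by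
  induction ct with
  | lf i ys =>
    intro lo hi hB h
    rw [chkC, frc_eq, Bool.and_eq_true, decide_eq_true_eq] at h
    exact ref_false hG hH hA (hp _ (pool_mem h.1)) hB h.2
  | cl t x i ys r ih =>
    intro lo hi hB h
    rw [chkC, frc_eq, fL_eq, fL_eq, Bool.and_eq_true, Bool.and_eq_true, decide_eq_true_eq] at h
    obtain ⟨⟨h1, h2⟩, h3, h4⟩ := h
    rcases split hB t x h2 with c | c
    · exact ref_false hG hH hA (hp _ (pool_mem h1)) c h3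
    · exact ih _ _ c h4
  | ch t x i ys r ih =>
    intro lo hi hB h
    rw [chkC, frc_eq, fL_eq, fL_eq, Bool.and_eq_true, Bool.and_eq_true, decide_eq_true_eq] at h
    obtain ⟨⟨h1, h2⟩, h3, h4⟩ := h
    rcases split hB t x h2 with c | c
    · exact ih _ _ c h4
    · exact ref_false hG hH hA (hp _ (pool_mem h1)) c h3
  | sp t x l r ihl ihr =>
    intro lo hi hB h
    rw [chkC, fL_eq, fL_eq, Bool.and_eq_true, Bool.and_eq_true, decide_eq_true_eq] at h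
    obtain ⟨h2, h3, h4⟩ := h
    rcases split hB t x h2 with c | c
    · exact ihl _ _ c h3
    · exact ihr _ _ c h4

end Vale.Agent.P154.AF.Ctm

namespace Vale.Agent.P154.AF.Ck

theorem ctS : StmtCt := by
  intro lam G g en pool ct hG hp h Z N A hH
  by_contra hA
  refine Ctm.chk_false hG hH (not_lt.mp hA) hp ct _ _ ?_ h
  intro i hi
  obtain ⟨-, n0, n1⟩ := hH.id _ (Ctm.adk i hi)
  have e1 : (List.replicate 12 0).getD i 0 = 0 := by
    rw [List.getD_eq_getElem _ _ (by simpa using hi), List.getElem_replicate]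
  have e2 : (List.replicate 12 (2 ^ 32)).getD i 0 = 2 ^ 32 := by
    rw [List.getD_eq_getElem _ _ (by simpa using hi), List.getElem_replicate]
  rw [e1, e2]
  refine ⟨Nat.zero_le _, le_rfl, ?_, ?_⟩
  · push_cast; positivity
  · push_cast; linarith

end Vale.Agent.P154.AF.Ck
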