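import Vale.Agent.P154.AF.SpecB

namespace Vale.Agent.P154.AF.Ck

open Finset

namespace Ctlm

/-- truncated digit -/
def cc (n : ℕ) (p : ℕ × ℕ) : ℤ :=
  (((n >>> (864 * (8 * p.1 + p.2) + 800)) % 2 ^ 64 : ℕ) : ℤ) - 2 ^ 63

theorem cc_abs (n : ℕ) (p : ℕ × ℕ) : |cc n p| ≤ 2 ^ 63 := by
  unfold cc
  generalize n >>> (864 * (8 * p.1 + p.2) + 800) = m
  have h : m % 2 ^ 64 < 2 ^ 64 := Nat.mod_lt _ (by positivity)
  rw [abs_le]
  constructor <;> omega

theorem dig_aux (A B C m : ℕ) (hA : 0 < A) :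
    0 ≤ (((m % (A * B) : ℕ) : ℤ) - A * C) - A * ((((m / A) % B : ℕ) : ℤ) - C) ∧
    (((m % (A * B) : ℕ) : ℤ) - A * C) - A * ((((m / A) % B : ℕ) : ℤ) - C) ≤ A := by
  rw [← Nat.mod_mul_right_div_self]
  generalize m % (A * B) = d
  have h1 : A * (d / A) + d % A = d := Nat.div_add_mod d A
  have h2 : d % A < A := Nat.mod_lt _ hA
  have h3 : (A : ℤ) * ((d / A : ℕ) : ℤ) + ((d % A : ℕ) : ℤ) = d := by exact_mod_cast h1
  have h4 : ((d % A : ℕ) : ℤ) < A := by exact_mod_cast h2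
  have h5 : (0 : ℤ) ≤ ((d % A : ℕ) : ℤ) := Int.natCast_nonneg _
  constructor <;> nlinarith

theorem dig_aux2 (a b c m : ℕ) :
    0 ≤ (((m % 2 ^ (a + b) : ℕ) : ℤ) - 2 ^ (a + c)) -
      2 ^ a * ((((m >>> a) % 2 ^ b : ℕ) : ℤ) - 2 ^ c) ∧
    (((m % 2 ^ (a + b) : ℕ) : ℤ) - 2 ^ (a + c)) -
      2 ^ a * ((((m >>> a) % 2 ^ b : ℕ) : ℤ) - 2 ^ c) ≤ 2 ^ a := by
  have h := dig_aux (2 ^ a) (2 ^ b) (2 ^ c) m (by positivity)
  rw [Nat.cast_pow, Nat.cast_pow, Nat.cast_ofNat] at h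
  rw [Nat.shiftRight_eq_div_pow, pow_add, pow_add]
  exact h

theorem cc_dig (n : ℕ) (p : ℕ × ℕ) :
    0 ≤ dig n (8 * p.1 + p.2) - 2 ^ 800 * cc n p ∧
      dig n (8 * p.1 + p.2) - 2 ^ 800 * cc n p ≤ 2 ^ 800 := by
  have h := dig_aux2 800 64 63 (n >>> (864 * (8 * p.1 + p.2)))
  simp only [Nat.reduceAdd] at h
  unfold dig dg cc
  rw [Nat.shiftRight_add n _ 800]
  exact h

theorem ctl1_map (n : ℕ) (g : ℕ × ℕ → ℤ) (ps : List (ℕ × ℕ)) :
    ctl1 n ps (ps.map g) = (ps.map fun p => cc n p * g p).sum := by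
  induction ps with
  | nil => rfl
  | cons p ps ih => rw [List.map_cons, List.map_cons, List.sum_cons, ← ih, ctl1, cc]

theorem rw_abs (a i : ℕ) : |rw a i| ≤ 105 := by
  have h : ∀ l ∈ RW, ∀ x ∈ l, |x| ≤ 105 := by decide
  unfold rw
  rcases lt_or_ge a RW.length with ha | ha
  · rw [List.getD_eq_getElem _ _ ha]
    rcases lt_or_ge i (RW[a]).length with hi | hi
    · rw [List.getD_eq_getElem _ _ hi]
      exact h _ (List.getElem_mem ha) _ (List.getElem_mem hi)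
    · rw [List.getD_eq_default _ _ hi]; norm_num
  · rw [List.getD_eq_default _ _ ha]; simp

theorem lsum_abs {α K : Type} [Ring K] [LinearOrder K] [IsStrictOrderedRing K] (f : α → K) (B : K)
    (l : List α) (h : ∀ p, |f p| ≤ B) : |(l.map f).sum| ≤ l.length * B := by
  induction l with
  | nil => simp
  | cons p l ih =>
    rw [List.map_cons, List.sum_cons, List.length_cons, Nat.cast_succ, add_mul, one_mul, add_comm]
    exact (abs_add_le _ _).trans (add_le_add ih (h p))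

/-- control values -/
def W (n i : ℕ) : ℤ := (PS.map fun p => cc n p * (rw (i / 8) (p.1 - p.2) * rw (i % 8) p.2)).sum

theorem PS_len : PS.length = 36 := rfl

theorem W_abs (n i : ℕ) : |W n i| ≤ 2 ^ 82 := by
  have h := lsum_abs (fun p : ℕ × ℕ => cc n p * (rw (i / 8) (p.1 - p.2) * rw (i % 8) p.2))
    (2 ^ 63 * (105 * 105)) PS fun p => by
      rw [abs_mul, abs_mul]
      exact mul_le_mul (cc_abs n p) (mul_le_mul (rw_abs _ _) (rw_abs _ _) (abs_nonneg _)
        (by norm_num)) (by positivity) (by positivity)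
  rw [PS_len] at h
  exact h.trans (by norm_num)

theorem lrange {K : Type} [AddCommMonoid K] (f : ℕ → K) (N : ℕ) :
    ((List.range N).map f).sum = ∑ i ∈ range N, f i := by
  induction N with
  | zero => rfl
  | succ N ih => rw [List.range_succ, List.map_append, List.sum_append, ih, sum_range_succ]; simp

theorem swap {α K : Type} [CommRing K] (c : α → K) (g : α → ℕ → K) (h : ℕ → K) (N : ℕ)
    (l : List α) : (l.map fun p => c p * ∑ i ∈ range N, g p i * h i).sum =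
      ∑ i ∈ range N, (l.map fun p => c p * g p i).sum * h i := by
  induction l with
  | nil => simp
  | cons p l ih =>
    rw [List.map_cons, List.sum_cons, ih]
    simp only [List.map_cons, List.sum_cons, add_mul, sum_add_distrib, mul_sum, mul_assoc]

theorem ones_eq (n : ℕ) : ones n = ∑ i ∈ range n, 2 ^ (128 * i) := by
  unfold ones
  simp only [pow_mul]
  rw [Nat.geomSum_eq (by norm_num)]

theorem ctl_eq (m : TM) :
    (ctl RP m : ℤ) = ∑ i ∈ range 64, (W (nrm m.N) i + 2 ^ 82) * 2 ^ (128 * i) := by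
  unfold ctl
  rw [frc_eq]
  generalize nrm m.N = n
  have e : ctl1 n PS RP + ((2 ^ 82 * ones 64 : ℕ) : ℤ) =
      ∑ i ∈ range 64, (W n i + 2 ^ 82) * 2 ^ (128 * i) := by
    unfold RP
    rw [ctl1_map, ones_eq]
    simp only [lrange]
    rw [swap (cc n) (fun p i => rw (i / 8) (p.1 - p.2) * rw (i % 8) p.2) (fun i => 2 ^ (128 * i))]
    simp only [add_mul, sum_add_distrib, W, Nat.cast_mul, Nat.cast_sum, Nat.cast_pow,
      Nat.cast_ofNat, mul_sum]
  rw [e]
  refine Int.toNat_of_nonneg (sum_nonneg fun i _ => mul_nonneg ?_ (by positivity))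
  have := (abs_le.1 (W_abs n i)).1
  linarith

/-- Bernstein weights -/
noncomputable def Bw (u : ℝ) (a : ℕ) : ℝ :=
  (Nat.choose 7 a : ℝ) * ((1 + u) / 2) ^ a * ((1 - u) / 2) ^ (7 - a)

theorem Bw_nonneg {u : ℝ} (hu : |u| ≤ 1) (a : ℕ) : 0 ≤ Bw u a := by
  have h := abs_le.1 hu
  have h1 : 0 ≤ (1 + u) / 2 := by linarith [h.1]
  have h2 : 0 ≤ (1 - u) / 2 := by linarith [h.2]
  unfold Bw
  positivity

theorem Bw_sum (u : ℝ) : ∑ a ∈ range 8, Bw u a = 1 := by
  simp only [sum_range_succ, sum_range_zero, Bw]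
  norm_num [Nat.choose]
  ring

theorem Bw_rw (u : ℝ) (j : ℕ) (hj : j < 8) :
    ∑ a ∈ range 8, Bw u a * (rw a j : ℝ) = 105 * u ^ j := by
  simp only [sum_range_succ, sum_range_zero, Bw]
  interval_cases j <;> norm_num [Nat.choose, rw, RW] <;> ring

theorem sum64 (F G : ℕ → ℝ) :
    ∑ i ∈ range 64, F (i / 8) * G (i % 8) = (∑ a ∈ range 8, F a) * ∑ b ∈ range 8, G b := by
  simp only [sum_range_succ, sum_range_zero]
  norm_num
  ring

theorem PS_lt : ∀ p ∈ PS, p.1 - p.2 < 8 ∧ p.2 < 8 := by decide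

theorem conv (u v : ℝ) (n : ℕ) :
    ∑ i ∈ range 64, (W n i : ℝ) * (Bw u (i / 8) * Bw v (i % 8)) =
      11025 * (PS.map fun p => (cc n p : ℝ) * (u ^ (p.1 - p.2) * v ^ p.2)).sum := by
  have e : ∀ i, (W n i : ℝ) = (PS.map fun p => (cc n p : ℝ) *
      ((rw (i / 8) (p.1 - p.2) : ℝ) * (rw (i % 8) p.2 : ℝ))).sum := by
    intro i
    unfold W
    rw [Int.cast_list_sum, List.map_map]
    congr 1
    refine List.map_congr_left fun p _ => ?_
    simp
  simp only [e]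
  rw [← swap (fun p => (cc n p : ℝ)) (fun p i => (rw (i / 8) (p.1 - p.2) : ℝ) * (rw (i % 8) p.2 : ℝ))
    (fun i => Bw u (i / 8) * Bw v (i % 8)), ← List.sum_map_mul_left]
  congr 1
  refine List.map_congr_left fun p hp => ?_
  have h := sum64 (fun a => Bw u a * (rw a (p.1 - p.2) : ℝ)) (fun b => Bw v b * (rw b p.2 : ℝ))
  rw [Bw_rw u _ (PS_lt p hp).1, Bw_rw v _ (PS_lt p hp).2] at h
  have h2 : ∑ i ∈ range 64, (rw (i / 8) (p.1 - p.2) : ℝ) * (rw (i % 8) p.2 : ℝ) *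
      (Bw u (i / 8) * Bw v (i % 8)) = 105 * u ^ (p.1 - p.2) * (105 * v ^ p.2) := by
    rw [← h]
    exact sum_congr rfl fun i _ => by ring
  rw [h2]
  ring

theorem lsub {α : Type} (f g : α → ℝ) (A : ℝ) (l : List α) :
    (l.map f).sum - A * (l.map g).sum = (l.map fun p => f p - A * g p).sum := by
  induction l with
  | nil => simp
  | cons p l ih => simp only [List.map_cons, List.sum_cons, ← ih]; ring

theorem close {r E : ℕ} {u v : ℝ} {R : TM → ℝ → Prop} (hu : |u| ≤ 1) (hv : |v| ≤ 1)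
    (hR : RepOk r u v R) {m : TM} {t : ℝ} (hm : R m (2 ^ 840 * t)) (ho : okM r E m = true) :
    |2 ^ 40 * t - (PS.map fun p => (cc (nrm m.N) p : ℝ) * (u ^ (p.1 - p.2) * v ^ p.2)).sum| ≤
      (E : ℝ) + 36 := by
  unfold okM at ho
  rw [Bool.and_eq_true, decide_eq_true_eq, decide_eq_true_eq] at ho
  have h1 := hR.ext m _ hm ho.1
  have h2 : (terr r m : ℝ) ≤ E * 2 ^ 800 := by
    have := (Nat.cast_le (α := ℝ)).2 ho.2
    rwa [Nat.cast_mul, Nat.cast_pow, Nat.cast_ofNat] at this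
  generalize nrm m.N = n at h1 ⊢
  have e : (2 : ℝ) ^ 840 = 2 ^ 800 * 2 ^ 40 := pow_add 2 800 40
  have h3 := lsum_abs (fun p : ℕ × ℕ => (dig n (8 * p.1 + p.2) : ℝ) * (u ^ (p.1 - p.2) * v ^ p.2) -
      2 ^ 800 * ((cc n p : ℝ) * (u ^ (p.1 - p.2) * v ^ p.2))) (2 ^ 800) PS fun p => by
    have h := cc_dig n p
    have h4 : (0 : ℝ) ≤ (dig n (8 * p.1 + p.2) : ℝ) - 2 ^ 800 * (cc n p : ℝ) := by
      have := (Int.cast_le (R := ℝ)).2 h.1
      rwa [Int.cast_zero, Int.cast_sub, Int.cast_mul, Int.cast_pow, Int.cast_ofNat] at this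
    have h5 : (dig n (8 * p.1 + p.2) : ℝ) - 2 ^ 800 * (cc n p : ℝ) ≤ 2 ^ 800 := by
      have := (Int.cast_le (R := ℝ)).2 h.2
      rwa [Int.cast_sub, Int.cast_mul, Int.cast_pow, Int.cast_ofNat] at this
    have h6 : |u ^ (p.1 - p.2) * v ^ p.2| ≤ 1 := by
      rw [abs_mul, abs_pow, abs_pow]
      exact mul_le_one₀ (pow_le_one₀ (abs_nonneg _) hu) (by positivity)
        (pow_le_one₀ (abs_nonneg _) hv)
    rw [← mul_assoc (2 ^ 800 : ℝ), ← sub_mul, abs_mul, abs_of_nonneg h4]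
    exact (mul_le_of_le_one_right h4 h6).trans h5
  rw [← lsub, PS_len] at h3
  rw [e] at h1
  have hA : (0 : ℝ) < 2 ^ 800 := pow_pos two_pos _
  generalize (2 : ℝ) ^ 800 = A at h1 h2 h3 hA
  generalize (PS.map fun p => (dig n (8 * p.1 + p.2) : ℝ) * (u ^ (p.1 - p.2) * v ^ p.2)).sum = X
    at h1 h3
  generalize (PS.map fun p => (cc n p : ℝ) * (u ^ (p.1 - p.2) * v ^ p.2)).sum = Y at h3 ⊢
  refine le_of_mul_le_mul_left ?_ hA
  have e2 : A * |2 ^ 40 * t - Y| = |(A * 2 ^ 40 * t - X) + (X - A * Y)| := by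
    rw [← abs_of_pos hA, ← abs_mul, abs_of_pos hA]
    congr 1
    ring
  rw [e2]
  have h7 := abs_add_le (A * 2 ^ 40 * t - X) (X - A * Y)
  push_cast at h3
  linarith

end Ctlm

open Ctlm in
theorem ctlS : StmtCtl := by
  intro r E L S hL hok hS
  refine ⟨fun f i => W (nrm (L.getD f (cst 0)).N) i, fun f i => W_abs _ _, by simpa using hL,
    fun f hf => ?_, fun y hy c T hT => ?_⟩
  · have hf' : f < L.length := by omega
    rw [List.getD_eq_getElem _ _ (by simpa using hf'), List.getElem_map, ctl_eq]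
    simp only [List.getD_eq_getElem _ _ hf']
  · obtain ⟨u, v, R, hu, hv, hR, hF⟩ := hS y hy
    have hl : y.length = 26 := by rw [← hF.length_eq, hL]
    set P : ℕ → ℝ := fun f => (PS.map fun p =>
      (cc (nrm (L.getD f (cst 0)).N) p : ℝ) * (u ^ (p.1 - p.2) * v ^ p.2)).sum with hP
    have hc : ∀ f ∈ range 26, |2 ^ 40 * y.getD f 0 - P f| ≤ (E : ℝ) + 36 := by
      intro f hf
      have hf1 : f < L.length := by rw [hL]; exact mem_range.1 hf
      have hf2 : f < y.length := by rw [hl]; exact mem_range.1 hf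
      have h1 := List.Forall₂.get hF hf1 hf2
      have h2 := List.all_eq_true.1 hok _ (List.getElem_mem hf1)
      simp only [hP]
      rw [List.getD_eq_getElem _ _ hf1, List.getD_eq_getElem _ _ hf2]
      exact close hu hv hR h1 h2
    have h1 : ∑ f ∈ range 26, (c f : ℝ) * (11025 * P f) ≤ T := by
      have e : ∑ f ∈ range 26, (c f : ℝ) * (11025 * P f) =
          ∑ i ∈ range 64, ((∑ f ∈ range 26, c f * W (nrm (L.getD f (cst 0)).N) i : ℤ) : ℝ) *
            (Bw u (i / 8) * Bw v (i % 8)) := by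
        simp only [hP, ← conv, Int.cast_sum, Int.cast_mul, sum_mul, mul_sum, mul_assoc]
        rw [sum_comm]
      rw [e]
      calc _ ≤ ∑ i ∈ range 64, (T : ℝ) * (Bw u (i / 8) * Bw v (i % 8)) :=
            sum_le_sum fun i hi => mul_le_mul_of_nonneg_right
              (Int.cast_le.2 (hT i (mem_range.1 hi)))
              (mul_nonneg (Bw_nonneg hu _) (Bw_nonneg hv _))
        _ = T := by rw [← mul_sum, sum64 (Bw u) (Bw v), Bw_sum, Bw_sum]; ring
    have h2 : ∑ f ∈ range 26, (c f : ℝ) * (11025 * 2 ^ 40 * y.getD f 0) ≤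
        ∑ f ∈ range 26, ((c f : ℝ) * (11025 * P f) + |(c f : ℝ)| * (11025 * (E + 36))) := by
      refine sum_le_sum fun f hf => ?_
      have h3 : (c f : ℝ) * (2 ^ 40 * y.getD f 0 - P f) ≤ |(c f : ℝ)| * (E + 36) :=
        (le_abs_self _).trans (by
          rw [abs_mul]
          exact mul_le_mul_of_nonneg_left (hc f hf) (abs_nonneg _))
      linarith
    rw [sum_add_distrib, ← sum_mul] at h2
    linarith

end Vale.Agent.P154.AF.Ck
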