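import Vale.Agent.P154.AF.SpecB

namespace Vale.Agent.P154.AF.Ck

noncomputable def mn (x y : ℕ × ℕ) : ℕ × ℕ :=
  Bool.rec y x (Nat.ble (Nat.add x.1 y.2) (Nat.add y.1 x.2))

def fd (c i : ℕ) : ℕ := Nat.mod (Nat.shiftRight c (Nat.mul 64 i)) 18446744073709551616

def tN (g : GB) (A b n : ℕ) : ℕ × ℕ :=
  (Nat.shiftLeft (Nat.mul b n) 138,
    Nat.add (Nat.shiftLeft (Nat.mul A (g.gu n)) 42) (Nat.shiftLeft n 201))

def tP (B C D b n : ℕ) : ℕ × ℕ :=
  (Nat.add (Nat.add C (Nat.mul B n)) (Nat.shiftLeft (Nat.mul b n) 138),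
    Nat.add D (Nat.shiftLeft n 201))

noncomputable def lP (g : GB) (T b lo hi y : ℕ) : ℕ × ℕ :=
  mn (tP (Nat.mul T g.dn) (Nat.shiftLeft (Nat.mul T (g.cc y)) 10) (Nat.mul (Nat.mul T g.dn) y) b lo)
    (tP (Nat.mul T g.dn) (Nat.shiftLeft (Nat.mul T (g.cc y)) 10) (Nat.mul (Nat.mul T g.dn) y) b hi)

noncomputable def lowF (g : GB) (a b lo hi y : ℕ) : ℕ × ℕ :=
  Bool.rec (mn (tN g (Nat.sub 9223372036854775808 a) b lo) (tN g (Nat.sub 9223372036854775808 a) b hi))
    (lP g (Nat.mul (Nat.sub a 9223372036854775808) (g.gl y)) b lo hi y)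
    (Nat.ble 9223372036854775808 a)

noncomputable def mi (a : ℕ) : ℕ := Bool.rec 4294967296 a (Nat.ble a 4294967296)

noncomputable def ptF (z i : ℕ) : ℕ := mi (Nat.mod (Nat.shiftRight z (Nat.mul 40 i)) 1099511627776)

def ad (x y : ℕ × ℕ) : ℕ × ℕ := (Nat.add x.1 y.1, Nat.add x.2 y.2)

noncomputable def smF (g : GB) (c ys : ℕ) (lo hi : ℕ → ℕ) (n : ℕ) : ℕ × ℕ :=
  Nat.rec (0, 0) (fun i s => ad s (lowF g (fd c i) (fd c (Nat.add 12 i)) (lo i) (hi i) (ptF ys i))) n

def finF (en c : ℕ) (s : ℕ × ℕ) : Bool :=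
  Nat.ble (Nat.succ (Nat.add (Nat.shiftLeft (fd c 25) 170) s.2))
    (Nat.add (Nat.add (Nat.shiftLeft (Nat.mul (Nat.sub (fd c 24) 9223372036854775808) en) 160) s.1)
      (Nat.shiftLeft 1 233))

noncomputable def refF (g : GB) (en c ys : ℕ) (lo hi : ℕ → ℕ) : Bool :=
  Bool.rec false (finF en c (smF g c ys lo hi 12)) (Nat.ble 9223372036854775808 (fd c 24))

noncomputable def tl (pool : List ℕ) (i : ℕ) : List ℕ :=
  Nat.rec pool (fun _ l => List.rec [] (fun _ t _ => t) l) i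

noncomputable def refI (g : GB) (en : ℕ) (pool : List ℕ) (i ys : ℕ) (lo hi : ℕ → ℕ) : Bool :=
  List.rec false (fun c _ _ => refF g en c ys lo hi) (tl pool i)

noncomputable def st (f : ℕ → ℕ) (t x : ℕ) : ℕ → ℕ := fun i => Bool.rec (f i) x (Nat.beq i t)

noncomputable def an (a b : Bool) : Bool := Bool.rec false b a

noncomputable def chkD (g : GB) (en : ℕ) (pool : List ℕ) (ct : Ct) : (ℕ → ℕ) → (ℕ → ℕ) → Bool :=
  Ct.rec (motive := fun _ => (ℕ → ℕ) → (ℕ → ℕ) → Bool)
    (fun i ys lo hi => refI g en pool i ys lo hi)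
    (fun t x i ys _ r lo hi => an (Nat.ble x 4294967296)
      (an (refI g en pool i ys lo (st hi t x)) (r (st lo t x) hi)))
    (fun t x i ys _ r lo hi => an (Nat.ble x 4294967296)
      (an (refI g en pool i ys (st lo t x) hi) (r lo (st hi t x))))
    (fun t x _ _ l r lo hi => an (Nat.ble x 4294967296)
      (an (l lo (st hi t x)) (r (st lo t x) hi))) ct

/-- fast version of `chkC` on the full box -/
noncomputable def chkCF (g : GB) (en : ℕ) (pool : List ℕ) (ct : Ct) : Bool :=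
  chkD g en pool ct (fun _ => 0) (fun _ => 4294967296)

def tayF (a : ℕ) : ℕ :=
  Nat.add (Nat.mul (Nat.add (Nat.mul (Nat.add (Nat.mul (Nat.add (Nat.mul (Nat.add a
    (Nat.shiftLeft 5 48)) a) (Nat.shiftLeft 20 96)) a) (Nat.shiftLeft 60 144)) a)
    (Nat.shiftLeft 120 192)) a) (Nat.shiftLeft 120 240)

def glA (a : ℕ) : ℕ := Nat.div (Nat.shiftLeft (Nat.pow (Nat.shiftLeft 4320 288) 64) 128)
  (Nat.pow (Nat.add (Nat.mul (Nat.shiftLeft 36 48) (tayF a)) (Nat.mul 7 (Nat.pow a 6))) 64)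

def guA (a : ℕ) : ℕ := Nat.add (Nat.div (Nat.shiftLeft (Nat.pow (Nat.shiftLeft 120 240) 64) 128)
  (Nat.pow (tayF a) 64)) 1

def gPoiF (dn : ℕ) : GB := ⟨dn, fun y => glA (Nat.mul dn (Nat.sub 4294967296 y)),
  fun n => guA (Nat.mul dn (Nat.sub 4294967296 n)), fun _ => 4294967296⟩

def gRegF (d : ℕ) : GB := ⟨Nat.mul d 1024,
  fun y => Nat.shiftRight (Nat.shiftLeft (Nat.pow y (Nat.sub d 1)) 128) (Nat.mul 32 (Nat.sub d 1)),
  fun n => Nat.add (Nat.shiftRight (Nat.shiftLeft (Nat.pow n d) 128) (Nat.mul 32 d)) 1, fun y => y⟩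

namespace FCtm

def vl (x : ℕ × ℕ) : ℤ := (x.1 : ℤ) - x.2

theorem shl (a b : ℕ) : Nat.shiftLeft a b = a * 2 ^ b := Nat.shiftLeft_eq a b

theorem shr (a b : ℕ) : Nat.shiftRight a b = a / 2 ^ b := Nat.shiftRight_eq_div_pow a b

theorem vl_mn (x y : ℕ × ℕ) : vl (mn x y) = min (vl x) (vl y) := by
  unfold mn vl
  cases h : Nat.ble (Nat.add x.1 y.2) (Nat.add y.1 x.2)
  · have : ¬ x.1 + y.2 ≤ y.1 + x.2 := fun h' => by
      have := Nat.ble_eq_true_of_le h'
      simp only [Nat.add_eq] at h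
      rw [h] at this
      exact absurd this (by simp)
    show (y.1 : ℤ) - y.2 = _
    omega
  · have : x.1 + y.2 ≤ y.1 + x.2 := Nat.le_of_ble_eq_true h
    show (x.1 : ℤ) - x.2 = _
    omega

theorem fd_eq (c i : ℕ) : fld c i = (fd c i : ℤ) - 9223372036854775808 := by
  have e : fd c i = (c >>> (64 * i)) % 2 ^ 64 := by
    rw [show (2 : ℕ) ^ 64 = 18446744073709551616 by norm_num]; rfl
  rw [fld, e]
  norm_num

theorem p201 : (2 : ℤ) ^ 201 = 9223372036854775808 * 2 ^ 138 := by norm_num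

theorem vl_tN (g : GB) (A b n : ℕ) : vl (tN g A b n) =
    -(A : ℤ) * g.gu n * 2 ^ 42 + ((b : ℤ) - 9223372036854775808) * n * 2 ^ 138 := by
  unfold vl tN
  rw [shl, shl, shl]
  show ((b * n * 2 ^ 138 : ℕ) : ℤ) - ((A * g.gu n * 2 ^ 42 + n * 2 ^ 201 : ℕ) : ℤ) = _
  simp only [Nat.cast_add, Nat.cast_mul, Nat.cast_pow, Nat.cast_ofNat, p201]
  generalize (2 : ℤ) ^ 138 = u
  generalize (2 : ℤ) ^ 42 = v
  ring

theorem vl_tP (T dn cc y b n : ℕ) : vl (tP (Nat.mul T dn) (Nat.shiftLeft (Nat.mul T cc) 10)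
    (Nat.mul (Nat.mul T dn) y) b n) = (T : ℤ) * (cc * 2 ^ 10 + dn * ((n : ℤ) - y)) +
      ((b : ℤ) - 9223372036854775808) * n * 2 ^ 138 := by
  unfold vl tP
  rw [shl, shl, shl]
  show ((T * cc * 2 ^ 10 + T * dn * n + b * n * 2 ^ 138 : ℕ) : ℤ) -
    ((T * dn * y + n * 2 ^ 201 : ℕ) : ℤ) = _
  simp only [Nat.cast_add, Nat.cast_mul, Nat.cast_pow, Nat.cast_ofNat, p201]
  generalize (2 : ℤ) ^ 138 = u
  generalize (2 : ℤ) ^ 10 = v
  ring

theorem vl_low (g : GB) (a b lo hi y : ℕ) : vl (lowF g a b lo hi y) =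
    low g ((a : ℤ) - 9223372036854775808) ((b : ℤ) - 9223372036854775808) lo hi y := by
  unfold lowF low
  cases h : Nat.ble 9223372036854775808 a
  · have h1 : ¬ 9223372036854775808 ≤ a := fun h' => by
      rw [Nat.ble_eq_true_of_le h'] at h
      exact absurd h (by simp)
    have h2 : (a : ℤ) - 9223372036854775808 < 0 := by omega
    have h3 : ((9223372036854775808 - a : ℕ) : ℤ) = 9223372036854775808 - a := by omega
    rw [if_pos h2]
    show vl (mn _ _) = _
    rw [vl_mn, vl_tN, vl_tN, Nat.sub_eq, h3, neg_sub]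
  · have h1 : 9223372036854775808 ≤ a := Nat.le_of_ble_eq_true h
    have h2 : ¬ (a : ℤ) - 9223372036854775808 < 0 := by omega
    have h3 : ((a - 9223372036854775808 : ℕ) : ℤ) = a - 9223372036854775808 := by omega
    rw [if_neg h2, frc_eq]
    show vl (mn _ _) = _
    rw [vl_mn, vl_tP, vl_tP, Nat.sub_eq, Nat.mul_eq, Nat.cast_mul, h3]

theorem pt_eq (z i : ℕ) : ptF z i = pt z i := by
  have e : Nat.mod (Nat.shiftRight z (Nat.mul 40 i)) 1099511627776 = (z >>> (40 * i)) % 2 ^ 40 := by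
    rw [show (2 : ℕ) ^ 40 = 1099511627776 by norm_num]; rfl
  rw [ptF, pt, e, show (2 : ℕ) ^ 32 = 4294967296 by norm_num]
  generalize (z >>> (40 * i)) % 2 ^ 40 = a
  unfold mi
  cases h : Nat.ble a 4294967296
  · have h1 : ¬ a ≤ 4294967296 := fun h' => by
      rw [Nat.ble_eq_true_of_le h'] at h
      exact absurd h (by simp)
    show 4294967296 = _
    omega
  · have h1 : a ≤ 4294967296 := Nat.le_of_ble_eq_true h
    show a = _
    omega

theorem vl_sm (g : GB) (c ys : ℕ) (lo hi : ℕ → ℕ) (n : ℕ) : vl (smF g c ys lo hi n) =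
    ((List.range n).map fun i => low g (fld c i) (fld c (12 + i)) (lo i) (hi i) (pt ys i)).sum := by
  induction n with
  | zero => rfl
  | succ n ih =>
    rw [List.range_succ, List.map_append, List.sum_append, ← ih, List.map_singleton,
      List.sum_singleton, fd_eq, fd_eq, ← vl_low, ← pt_eq]
    show vl (ad (smF g c ys lo hi n) _) = _
    simp only [vl, ad, Nat.add_eq, Nat.cast_add]
    ring

def Ag (f : ℕ → ℕ) (l : List ℕ) : Prop := l.length = 12 ∧ ∀ i < 12, f i = l.getD i 0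

theorem ref_of (g : GB) (en c ys : ℕ) {f h : ℕ → ℕ} {lo hi : List ℕ} (hf : Ag f lo) (hh : Ag h hi)
    (H : refF g en c ys f h = true) : ref g en c ys lo hi = true := by
  unfold refF at H
  cases hb : Nat.ble 9223372036854775808 (fd c 24)
  · rw [hb] at H; exact absurd H (by simp)
  · rw [hb] at H
    have h1 : 9223372036854775808 ≤ fd c 24 := Nat.le_of_ble_eq_true hb
    have h2 := Nat.le_of_ble_eq_true H
    have h3 : ((fd c 24 - 9223372036854775808 : ℕ) : ℤ) = fd c 24 - 9223372036854775808 := by omega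
    have e := vl_sm g c ys f h 12
    have e2 : ((List.range 12).map fun i =>
        low g (fld c i) (fld c (12 + i)) (f i) (h i) (pt ys i)) = (List.range 12).map fun i =>
        low g (fld c i) (fld c (12 + i)) (lo.getD i 0) (hi.getD i 0) (pt ys i) :=
      List.map_congr_left fun i hi => by
        rw [hf.2 i (List.mem_range.1 hi), hh.2 i (List.mem_range.1 hi)]
    rw [ref, Bool.and_eq_true, decide_eq_true_eq, decide_eq_true_eq, ← e2, ← e, fd_eq, fd_eq]
    refine ⟨by omega, ?_⟩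
    generalize smF g c ys f h 12 = s at h2
    have h4 := Int.ofNat_le.2 h2
    simp only [shl, Nat.add_eq, Nat.mul_eq, Nat.sub_eq, Nat.cast_add, Nat.cast_mul, Nat.succ_eq_add_one,
      Nat.cast_pow, Nat.cast_ofNat, Nat.cast_one, h3] at h4
    have p : (2 : ℤ) ^ 233 = 9223372036854775808 * 2 ^ 170 := by norm_num
    rw [p] at h4
    unfold vl
    generalize (2 : ℤ) ^ 170 = u at *
    generalize (2 : ℤ) ^ 160 = v at *
    linarith

theorem tl_eq (pool : List ℕ) (i : ℕ) : tl pool i = pool.drop i := by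
  induction i with
  | zero => rfl
  | succ i ih =>
    rw [← List.tail_drop, ← ih]
    show List.rec (motive := fun _ => List ℕ) [] (fun _ t _ => t) (tl pool i) = _
    cases tl pool i <;> rfl

theorem refI_of (g : GB) (en : ℕ) (pool : List ℕ) (i ys : ℕ) {f h : ℕ → ℕ} {lo hi : List ℕ}
    (hf : Ag f lo) (hh : Ag h hi) (H : refI g en pool i ys f h = true) :
    i < pool.length ∧ ref g en (pool.getD i 0) ys lo hi = true := by
  unfold refI at H
  rw [tl_eq] at H
  by_cases hi : i < pool.length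
  · rw [List.drop_eq_getElem_cons hi] at H
    rw [List.getD_eq_getElem _ _ hi]
    exact ⟨hi, ref_of g en _ ys hf hh H⟩
  · rw [List.drop_eq_nil_of_le (by omega)] at H
    exact absurd H (by simp)

theorem ag_st {f : ℕ → ℕ} {l : List ℕ} (h : Ag f l) (t x : ℕ) : Ag (st f t x) (l.set t x) := by
  refine ⟨by rw [List.length_set, h.1], fun i hi => ?_⟩
  have h1 : i < l.length := by rw [h.1]; exact hi
  have h2 := h.2 i hi
  rw [List.getD_eq_getElem _ _ h1] at h2
  rw [List.getD_eq_getElem _ _ (by rw [List.length_set]; exact h1), List.getElem_set]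
  unfold st
  by_cases e : t = i
  · subst e
    rw [Nat.beq_refl, if_pos rfl]
  · rw [if_neg e, ← h2]
    cases hb : Nat.beq i t
    · rfl
    · exact absurd (Nat.eq_of_beq_eq_true hb).symm e

theorem an_eq (a b : Bool) : an a b = (a && b) := by cases a <;> rfl

theorem p32 : (2 : ℕ) ^ 32 = 4294967296 := by norm_num

theorem chkD_of (g : GB) (en : ℕ) (pool : List ℕ) (ct : Ct) : ∀ (f h : ℕ → ℕ) (lo hi : List ℕ),
    Ag f lo → Ag h hi → chkD g en pool ct f h = true → chkC g en pool ct lo hi = true := by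
  induction ct with
  | lf i ys =>
    intro f h lo hi hf hh H
    have := refI_of g en pool i ys hf hh H
    simp only [chkC, frc_eq, Bool.and_eq_true, decide_eq_true_eq]
    exact this
  | cl t x i ys r ih =>
    intro f h lo hi hf hh H
    have H' : an (Nat.ble x 4294967296) (an (refI g en pool i ys f (st h t x))
      (chkD g en pool r (st f t x) h)) = true := H
    simp only [an_eq, Bool.and_eq_true] at H'
    have := refI_of g en pool i ys hf (ag_st hh t x) H'.2.1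
    simp only [chkC, frc_eq, fL_eq, Bool.and_eq_true, decide_eq_true_eq, p32]
    exact ⟨⟨this.1, Nat.le_of_ble_eq_true H'.1⟩, this.2, ih _ _ _ _ (ag_st hf t x) hh H'.2.2⟩
  | ch t x i ys r ih =>
    intro f h lo hi hf hh H
    have H' : an (Nat.ble x 4294967296) (an (refI g en pool i ys (st f t x) h)
      (chkD g en pool r f (st h t x))) = true := H
    simp only [an_eq, Bool.and_eq_true] at H'
    have := refI_of g en pool i ys (ag_st hf t x) hh H'.2.1
    simp only [chkC, frc_eq, fL_eq, Bool.and_eq_true, decide_eq_true_eq, p32]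
    exact ⟨⟨this.1, Nat.le_of_ble_eq_true H'.1⟩, this.2, ih _ _ _ _ hf (ag_st hh t x) H'.2.2⟩
  | sp t x l r ihl ihr =>
    intro f h lo hi hf hh H
    have H' : an (Nat.ble x 4294967296) (an (chkD g en pool l f (st h t x))
      (chkD g en pool r (st f t x) h)) = true := H
    simp only [an_eq, Bool.and_eq_true] at H'
    simp only [chkC, fL_eq, Bool.and_eq_true, decide_eq_true_eq, p32]
    exact ⟨Nat.le_of_ble_eq_true H'.1, ihl _ _ _ _ hf (ag_st hh t x) H'.2.1,
      ihr _ _ _ _ (ag_st hf t x) hh H'.2.2⟩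

theorem tay_eq (a : ℕ) : tayF a = tay a := by
  simp only [tayF, tay, shl, Nat.add_eq, Nat.mul_eq]
  ring

end FCtm

open FCtm

theorem chkCF_sound {g : GB} {en : ℕ} {pool : List ℕ} {ct : Ct} (h : chkCF g en pool ct = true) :
    chkC g en pool ct (List.replicate 12 0) (List.replicate 12 (2 ^ 32)) = true := by
  refine chkD_of g en pool ct _ _ _ _ ⟨by simp, fun i hi => ?_⟩ ⟨by simp, fun i hi => ?_⟩ h
  · rw [List.getD_eq_getElem _ _ (by simpa using hi), List.getElem_replicate]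
  · rw [List.getD_eq_getElem _ _ (by simpa using hi), List.getElem_replicate, p32]

theorem FCtm.glA_eq (a : ℕ) :
    glA a = 2 ^ 128 * (4320 * 2 ^ 288) ^ 64 / (36 * 2 ^ 48 * tay a + 7 * a ^ 6) ^ 64 := by
  rw [glA, tay_eq, shl, shl, shl, mul_comm _ (2 ^ 128)]
  rfl

theorem FCtm.guA_eq (a : ℕ) : guA a = 2 ^ 128 * (120 * 2 ^ 240) ^ 64 / tay a ^ 64 + 1 := by
  rw [guA, tay_eq, shl, shl, mul_comm _ (2 ^ 128)]
  rfl

theorem gPoiF_eq (dn : ℕ) : gPoiF dn = gPoi dn := by
  unfold gPoiF gPoi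
  rw [GB.mk.injEq, p32]
  refine ⟨rfl, funext fun y => ?_, funext fun y => ?_, rfl⟩
  · rw [frc_eq, FCtm.glA_eq, Nat.mul_eq, Nat.sub_eq]
  · rw [frc_eq, FCtm.guA_eq, Nat.mul_eq, Nat.sub_eq]

theorem gRegF_eq (d : ℕ) : gRegF d = gReg d := by
  unfold gRegF gReg
  congr 1
  · funext y
    rw [shr, shl]
    rfl
  · funext y
    rw [shr, shl]
    rfl

end Vale.Agent.P154.AF.Ck
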