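import Vale.Agent.P154.AF.FCell

namespace Vale.Agent.P154.AF.Ck

namespace FNg

def f0 (n : ℕ) (k : ℕ → Bool) : Bool := Nat.casesOn n (k 0) fun m => k (Nat.succ m)

theorem f0_eq (n : ℕ) (k : ℕ → Bool) : f0 n k = k n := by cases n <;> rfl

/-- passes `n` to `k` in a form with a well spread hash -/
def fh (n : ℕ) (k : ℕ → Bool) : Bool :=
  f0 (Nat.mod n 18446744073709551557) fun h => f0 (Nat.add n h) fun b => k (Nat.sub b h)

theorem fh_eq (n : ℕ) (k : ℕ → Bool) : fh n k = k n := by simp [fh, f0_eq]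

noncomputable def n0H (E : ℕ) (pool : List ℕ) (o mk : ℕ) (Tb : List ℕ) : Bool :=
  frc (11025 * (E + 36)) fun e =>
  frc (3 * Tb.getD 0 0) fun a0 =>
  frc (3 * Tb.getD 1 0) fun a1 =>
  frc (3 * Tb.getD 2 0) fun a2 =>
  frc (3 * Tb.getD 3 0) fun a3 =>
  frc (3 * Tb.getD 4 0) fun a4 =>
  frc (3 * Tb.getD 5 0) fun a5 =>
  frc (3 * Tb.getD 6 0) fun a6 =>
  frc (3 * Tb.getD 7 0) fun a7 =>
  frc (3 * Tb.getD 8 0) fun a8 =>
  frc (3 * Tb.getD 9 0) fun a9 =>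
  frc (3 * Tb.getD 10 0) fun a10 =>
  frc (3 * Tb.getD 11 0) fun a11 =>
  frc (Tb.getD 12 0) fun a12 =>
  frc (Tb.getD 13 0) fun a13 =>
  frc (Tb.getD 14 0) fun a14 =>
  frc (Tb.getD 15 0) fun a15 =>
  frc (Tb.getD 16 0) fun a16 =>
  frc (Tb.getD 17 0) fun a17 =>
  frc (Tb.getD 18 0) fun a18 =>
  frc (Tb.getD 19 0) fun a19 =>
  frc (Tb.getD 20 0) fun a20 =>
  frc (Tb.getD 21 0) fun a21 =>
  frc (Tb.getD 22 0) fun a22 =>
  frc (Tb.getD 23 0) fun a23 =>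
  frc (18 * Tb.getD 24 0) fun a24 =>
  frc (6 * Tb.getD 25 0) fun b => frc (18446744073709551616 * b) fun A0 =>
  frc (9223372036854775808 * (a0 + a1 + a2 + a3 + a4 + a5 + a6 + a7 + a8 + a9 + a10 + a11 + a12 + a13 + a14 + a15 + a16 + a17 + a18 + a19 + a20 + a21 + a22 + a23 + a24)) fun B0 =>
  allF (fun c => fh c (n1 e o mk A0 b B0 a0 a1 a2 a3 a4 a5 a6 a7 a8 a9 a10 a11 a12 a13 a14 a15 a16 a17 a18 a19 a20 a21 a22 a23 a24)) pool

theorem n0H_eq (E : ℕ) (pool : List ℕ) (o mk : ℕ) (Tb : List ℕ) :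
    n0H E pool o mk Tb = n0 E pool o mk Tb := by
  unfold n0H n0
  simp only [frc_eq, fh_eq]

end FNg

noncomputable def chkH (ln E : ℕ) (pool : List ℕ) (t : KT) (s0 s1 x0 x1 : ℕ) : Bool :=
  chkG (cellF ln) (FNg.n0H E pool) E t s0 s1 x0 x1

theorem chkH_eq (ln E : ℕ) (pool : List ℕ) (t : KT) (s0 s1 x0 x1 : ℕ) :
    chkH ln E pool t s0 s1 x0 x1 = chkP ln E pool t s0 s1 x0 x1 :=
  chkG_eq _ _ ln E pool (cellF_eq ln)
    (fun o mk Tb => (FNg.n0H_eq E pool o mk Tb).trans (n0_eq E pool o mk Tb)) t s0 s1 x0 x1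

end Vale.Agent.P154.AF.Ck
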