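import Vale.Agent.P154.AF.FCtl

namespace Vale.Agent.P154.AF.Ck

/-- `fL (L.map ctlF)` fused with the test `okM` -/
noncomputable def leafF (r E : ℕ) (L : List TM) : (List ℕ → Bool) → Bool :=
  List.rec (fun k => k []) (fun m _ ih k =>
    and (okM r E m) (frc (ctlF m) fun b => ih fun l => k (b :: l))) L

theorem leafF_eq (r E : ℕ) (L : List TM) (k : List ℕ → Bool) :
    leafF r E L k = (L.all (okM r E) && k (L.map (ctl RP))) := by
  induction L generalizing k with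
  | nil => rfl
  | cons m L ih =>
    have e : leafF r E (m :: L) k =
      (okM r E m && frc (ctlF m) fun b => leafF r E L fun l => k (b :: l)) := rfl
    rw [e, frc_eq, ih, ctlF_eq, List.all_cons, List.map_cons, Bool.and_assoc]

/-- forced `cat` -/
noncomputable def catF (s : ℕ) (a : List ℕ) : List ℕ → (List ℕ → Bool) → Bool :=
  List.rec (fun _ k => k []) (fun x _ ih b k => List.casesOn b (k []) fun y b' =>
    frc (Nat.add x (Nat.shiftLeft y s)) fun z => ih b' fun l => k (z :: l)) a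

theorem catF_eq (n : ℕ) (a b : List ℕ) (k : List ℕ → Bool) :
    catF (128 * n) a b k = k (cat n a b) := by
  induction a generalizing b k with
  | nil => rfl
  | cons x a ih =>
    cases b with
    | nil => rfl
    | cons y b =>
      have e : catF (128 * n) (x :: a) (y :: b) k =
        frc (x + y <<< (128 * n)) fun z => catF (128 * n) a b fun l => k (z :: l) := rfl
      rw [e, frc_eq, ih]
      rfl

noncomputable def tabsF (cl : ℕ → ℕ → ℕ → ℕ → ℕ → (List TM → Bool) → Bool) (E : ℕ) (t : KT) :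
    ℕ → ℕ → ℕ → ℕ → (ℕ → List ℕ → Bool) → Bool :=
  KT.rec (fun r s0 s1 x0 x1 k => cl r s0 s1 x0 x1 fun L => and (Nat.ble 1 r) (leafF r E L (k 64)))
    (fun _ _ l r s0 s1 x0 x1 k => frc (Nat.div (Nat.add s0 s1) 2) fun m => l s0 m x0 x1 fun n a =>
      r m s1 x0 x1 fun n' b => frc (Nat.add n n') fun z => frc (Nat.mul 128 n) fun s =>
        catF s a b (k z))
    (fun _ _ l r s0 s1 x0 x1 k => frc (Nat.div (Nat.add x0 x1) 2) fun m => l s0 s1 x0 m fun n a =>
      r s0 s1 m x1 fun n' b => frc (Nat.add n n') fun z => frc (Nat.mul 128 n) fun s =>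
        catF s a b (k z)) t

theorem tabsF_eq (cl : ℕ → ℕ → ℕ → ℕ → ℕ → (List TM → Bool) → Bool) (ln E : ℕ)
    (h : ∀ r s0 s1 x0 x1 k, cl r s0 s1 x0 x1 k = cell ln r s0 s1 x0 x1 k) (t : KT) :
    ∀ s0 s1 x0 x1 k, tabsF cl E t s0 s1 x0 x1 k = tabs ln E RP t s0 s1 x0 x1 k := by
  induction t with
  | lf r =>
    intro s0 s1 x0 x1 k
    have e : tabsF cl E (.lf r) s0 s1 x0 x1 k =
      cl r s0 s1 x0 x1 fun L => (Nat.ble 1 r && leafF r E L (k 64)) := rfl
    rw [e, h, tabs]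
    congr 1
    funext L
    rw [leafF_eq, fL_eq]
    congr 1
    rw [Bool.eq_iff_iff, Nat.ble_eq, decide_eq_true_eq]
  | hs l r ihl ihr =>
    intro s0 s1 x0 x1 k
    have e : tabsF cl E (.hs l r) s0 s1 x0 x1 k = frc ((s0 + s1) / 2) fun m =>
      tabsF cl E l s0 m x0 x1 fun n a => tabsF cl E r m s1 x0 x1 fun n' b =>
        frc (n + n') fun z => frc (128 * n) fun s => catF s a b (k z) := rfl
    simp only [e, tabs, frc_eq, fL_eq, ihl, ihr, catF_eq]
  | hx l r ihl ihr =>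
    intro s0 s1 x0 x1 k
    have e : tabsF cl E (.hx l r) s0 s1 x0 x1 k = frc ((x0 + x1) / 2) fun m =>
      tabsF cl E l s0 s1 x0 m fun n a => tabsF cl E r s0 s1 m x1 fun n' b =>
        frc (n + n') fun z => frc (128 * n) fun s => catF s a b (k z) := rfl
    simp only [e, tabs, frc_eq, fL_eq, ihl, ihr, catF_eq]

/-- generic fast checker: `cl` a form of `cell ln`, `ng` a form of `pool.all (neg ..)` -/
noncomputable def chkG (cl : ℕ → ℕ → ℕ → ℕ → ℕ → (List TM → Bool) → Bool)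
    (ng : ℕ → ℕ → List ℕ → Bool) (E : ℕ) (t : KT) (s0 s1 x0 x1 : ℕ) : Bool :=
  tabsF cl E t s0 s1 x0 x1 fun n Tb => frc (ones n) fun o => frc (2 ^ 127 * o) fun mk => ng o mk Tb

theorem chkG_eq (cl : ℕ → ℕ → ℕ → ℕ → ℕ → (List TM → Bool) → Bool) (ng : ℕ → ℕ → List ℕ → Bool)
    (ln E : ℕ) (pool : List ℕ) (h : ∀ r s0 s1 x0 x1 k, cl r s0 s1 x0 x1 k = cell ln r s0 s1 x0 x1 k)
    (h' : ∀ o mk Tb, ng o mk Tb = pool.all (neg E o mk Tb)) (t : KT) (s0 s1 x0 x1 : ℕ) :
    chkG cl ng E t s0 s1 x0 x1 = chkP ln E pool t s0 s1 x0 x1 := by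
  simp only [chkG, chkP, fLZ_eq, tabsF_eq cl ln E h, h']

/-- fast checker with the original `cell` and `neg` -/
noncomputable def chkF (ln E : ℕ) (pool : List ℕ) (t : KT) (s0 s1 x0 x1 : ℕ) : Bool :=
  chkG (cell ln) (fun o mk Tb => pool.all (neg E o mk Tb)) E t s0 s1 x0 x1

theorem chkF_eq (ln E : ℕ) (pool : List ℕ) (t : KT) (s0 s1 x0 x1 : ℕ) :
    chkF ln E pool t s0 s1 x0 x1 = chkP ln E pool t s0 s1 x0 x1 :=
  chkG_eq _ _ ln E pool (fun _ _ _ _ _ _ => rfl) (fun _ _ _ => rfl) t s0 s1 x0 x1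

end Vale.Agent.P154.AF.Ck
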