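import Vale.Agent.P154.AF.SpecB

namespace Vale.Agent.P154.AF.Ck

open Finset

namespace Gm

lemma up (u v : ℕ) (hv : 0 < v) : (u : ℝ) / v ≤ ((u / v + 1 : ℕ) : ℝ) := by
  rw [div_le_iff₀ (by exact_mod_cast hv)]
  exact_mod_cast (Nat.lt_div_mul_add hv).le.trans_eq (by ring)

lemma up2 {r : ℝ} (A B k : ℕ) (hB : 0 < B) (h : r ≤ ((A : ℝ) / B) ^ k) :
    r ≤ ((2 ^ 128 * A ^ k / B ^ k + 1 : ℕ) : ℝ) / 2 ^ 128 := by
  rw [le_div_iff₀ (by positivity)]
  refine le_trans ?_ (up _ _ (pow_pos hB k))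
  rw [Nat.cast_mul, Nat.cast_pow, Nat.cast_pow, Nat.cast_pow, Nat.cast_ofNat, mul_div_assoc,
    ← div_pow, mul_comm]
  exact mul_le_mul_of_nonneg_left h (by positivity)

lemma lo2 (A B k : ℕ) :
    ((2 ^ 128 * A ^ k / B ^ k : ℕ) : ℝ) / 2 ^ 128 ≤ ((A : ℝ) / B) ^ k := by
  rw [div_le_iff₀ (by positivity)]
  refine Nat.cast_div_le.trans (le_of_eq ?_)
  rw [Nat.cast_mul, Nat.cast_pow, Nat.cast_pow, Nat.cast_pow, Nat.cast_ofNat, mul_div_assoc,
    ← div_pow, mul_comm]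

lemma tan {g t c F : ℝ} (g0 : 0 ≤ g) (h : g ≤ t) (F0 : 0 ≤ F) (k : t * c ≤ F) : g * c ≤ F := by
  rcases le_total c 0 with hc | hc
  · exact (mul_nonpos_of_nonneg_of_nonpos g0 hc).trans F0
  · exact (mul_le_mul_of_nonneg_right h hc).trans k

lemma tay_pos (a : ℕ) : 0 < tay a := by unfold tay; positivity

lemma tay_eq (a : ℕ) : (tay a : ℝ) / ((120 * 2 ^ 240 : ℕ) : ℝ) =
    ∑ i ∈ range 6, ((a : ℝ) / 2 ^ 48) ^ i / i.factorial := by
  simp only [tay, sum_range_succ, sum_range_zero, Nat.factorial]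
  push_cast
  field_simp
  ring

lemma fin (a : ℕ) : (tay a : ℝ) / ((120 * 2 ^ 240 : ℕ) : ℝ) +
    ((a : ℝ) / 2 ^ 48) ^ 6 * ((6 : ℕ) + 1) / ((Nat.factorial 6 : ℕ) * (6 : ℕ)) =
    ((36 * 2 ^ 48 * tay a + 7 * a ^ 6 : ℕ) : ℝ) / ((4320 * 2 ^ 288 : ℕ) : ℝ) := by
  have e : ((4320 * 2 ^ 288 : ℕ) : ℝ) = 4320 * (2 ^ 48) ^ 6 := by
    rw [Nat.cast_mul, Nat.cast_pow, Nat.cast_ofNat, Nat.cast_ofNat, ← pow_mul]
  have e2 : ((120 * 2 ^ 240 : ℕ) : ℝ) = 120 * (2 ^ 48) ^ 5 := by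
    rw [Nat.cast_mul, Nat.cast_pow, Nat.cast_ofNat, Nat.cast_ofNat, ← pow_mul]
  have e3 : ((36 * 2 ^ 48 * tay a + 7 * a ^ 6 : ℕ) : ℝ) = 36 * 2 ^ 48 * tay a + 7 * a ^ 6 := by
    push_cast; ring
  rw [e, e2, e3]
  have : (0 : ℝ) < 2 ^ 48 := by positivity
  generalize (2 : ℝ) ^ 48 = u at this
  simp only [Nat.factorial]
  push_cast
  field_simp
  ring

lemma ex64 (dn n : ℕ) (hn : n ≤ 2 ^ 32) : Real.exp (-((dn : ℝ) / 2 ^ 10 * (1 - n / 2 ^ 32))) =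
    (Real.exp (((dn * (2 ^ 32 - n) : ℕ) : ℝ) / 2 ^ 48))⁻¹ ^ 64 := by
  rw [← Real.exp_neg, ← Real.exp_nat_mul, Nat.cast_mul, Nat.cast_sub hn]
  congr 1
  push_cast
  ring

end Gm

open Gm in
theorem gS : StmtG := by
  refine ⟨fun d hd => ⟨(convexOn_pow d).subset Set.Icc_subset_Ici_self (convex_Icc _ _),
    fun n _ => ?_, fun y _ N hN => ?_⟩, fun dn hdn => ⟨⟨convex_Icc _ _, ?_⟩, fun n hn => ?_,
    fun y hy N _ => ?_⟩⟩
  · have := up2 (r := ((n : ℝ) / 2 ^ 32) ^ d) n (2 ^ 32) d (by positivity) (by norm_num)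
    rwa [← pow_mul, mul_comm (2 ^ 128)] at this
  · have h1 := lo2 y (2 ^ 32) (d - 1)
    rw [← pow_mul, mul_comm (2 ^ 128)] at h1
    refine tan (by positivity) h1 (pow_nonneg hN.1 _) ?_
    have t0 : (0 : ℝ) ≤ y / 2 ^ 32 := by positivity
    have h2 := pow_add_mul_le_add_pow t0 (b := N - y / 2 ^ 32) (by linarith [hN.1]) d
    rw [add_sub_cancel] at h2
    refine le_of_eq_of_le ?_ h2
    obtain ⟨e, rfl⟩ : ∃ e, d = e + 1 := ⟨d - 1, by omega⟩
    simp only [gReg, Nat.add_sub_cancel]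
    push_cast
    ring
  · intro x _ y _ a b ha hb hab
    have := convexOn_exp.2 (Set.mem_univ (-((dn : ℝ) / 2 ^ 10 * (1 - x))))
      (Set.mem_univ (-((dn : ℝ) / 2 ^ 10 * (1 - y)))) ha hb hab
    simp only [smul_eq_mul] at this ⊢
    refine le_of_eq_of_le (congrArg _ ?_) this
    linear_combination ((dn : ℝ) / 2 ^ 10) * hab
  · simp only [gPoi, frc_eq]
    refine up2 _ _ 64 (tay_pos _) ?_
    rw [ex64 dn n hn]
    refine pow_le_pow_left₀ (by positivity) ?_ _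
    rw [← inv_div (tay _ : ℝ)]
    have := tay_pos (dn * (2 ^ 32 - n))
    refine inv_anti₀ (by positivity) ?_
    rw [tay_eq]
    exact Real.sum_le_exp_of_nonneg (by positivity) 6
  · simp only [gPoi, frc_eq]
    refine tan (t := Real.exp (-((dn : ℝ) / 2 ^ 10 * (1 - y / 2 ^ 32)))) (by positivity)
      ((lo2 _ _ 64).trans ?_) (Real.exp_pos _).le ?_
    · rw [ex64 dn y hy]
      refine pow_le_pow_left₀ (by positivity) ?_ _
      rw [← inv_div]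
      refine inv_anti₀ (Real.exp_pos _) ?_
      have a1 : dn * (2 ^ 32 - y) ≤ 2 ^ 48 :=
        (Nat.mul_le_mul hdn (Nat.sub_le _ _)).trans (by norm_num)
      generalize dn * (2 ^ 32 - y) = a at a1
      refine (Real.exp_bound' (by positivity) ((div_le_one (by positivity)).2 (by exact_mod_cast a1))
        (n := 6) (by norm_num)).trans (le_of_eq ?_)
      rw [← tay_eq]
      exact fin a
    · calc _ ≤ Real.exp (-((dn : ℝ) / 2 ^ 10 * (1 - y / 2 ^ 32))) *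
            Real.exp ((dn : ℝ) / 2 ^ 10 * (N - y / 2 ^ 32)) := by
            refine mul_le_mul_of_nonneg_left (le_of_eq_of_le ?_ (Real.add_one_le_exp _))
              (Real.exp_pos _).le
            push_cast
            ring
        _ = _ := by rw [← Real.exp_add]; congr 1; ring

end Vale.Agent.P154.AF.Ck
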