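import Vale.Agent.P154.AF.SpecB

namespace Vale.Agent.P154.AF

open Finset Ck

namespace Symm

theorem rt12 {x : ℝ} (h : 0 ≤ x) : rt x ^ 12 = x := by
  unfold rt
  rw [← Real.rpow_natCast, ← Real.rpow_mul h]; norm_num

theorem rt0 {x : ℝ} (h : 0 ≤ x) : 0 ≤ rt x := Real.rpow_nonneg h _

theorem Ph_hom {k : ℕ × ℕ × ℕ} (h : Ad k) (c : ℝ) (w : Fin 3 → ℝ) :
    Ph k (fun i => c * w i) = c ^ 12 * Ph k w := by
  have p : ∀ n, ps n (fun i => c * w i) = c ^ n * ps n w := fun n => by unfold ps; ring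
  unfold Ph
  rw [p, p, p, ← h]; ring

theorem ph_sc {k : ℕ × ℕ × ℕ} (h : Ad k) {c : ℝ} (hc : 0 ≤ c) {a b : Fin 3 → ℝ} (hb : ∀ i, 0 ≤ b i)
    (e : ∀ i, a i = c * b i) : ph k a = c * Ph k (fun i => rt (b i)) / 6 := by
  unfold ph
  have : (fun i => rt (a i)) = fun i => rt c * rt (b i) := funext fun i => by
    rw [e]; exact Real.mul_rpow hc (hb i)
  rw [this, Ph_hom h, rt12 hc]

theorem ph_perm (k : ℕ × ℕ × ℕ) (a : Fin 3 → ℝ) (e : Equiv.Perm (Fin 3)) :
    ph k (fun i => a (e i)) = ph k a := by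
  have p : ∀ n, ps n (fun i => rt (a (e i))) = ps n fun i => rt (a i) := fun n => by
    have := Equiv.sum_comp e fun i => rt (a i) ^ n
    simpa only [Fin.sum_univ_three, ps] using this
  have q := Equiv.prod_comp e fun i => rt (a i)
  simp only [Fin.prod_univ_three] at q
  unfold ph Ph
  simp only [p, q]

theorem ad (i : ℕ) (h : i < 12) : Ad (kk i) := by
  interval_cases i <;> rfl

theorem lsum (f : ℕ → ℝ) (n : ℕ) : ((List.range n).map f).sum = ∑ i ∈ range n, f i := by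
  induction n with
  | zero => rfl
  | succ n ih => rw [List.sum_range_succ, sum_range_succ, ih]

theorem sorted (ln c : ℕ) (hl : ln ≤ 2 ^ 19)
    (h : ∀ σ ξ, InB 0 4340 0 3867 σ ξ → ∑ f ∈ range 26, (cof c f : ℝ) * (FL ln σ ξ).getD f 0 ≤ 0)
    (a : Fin 3 → ℝ) (ha : a ∈ Sx 3) (h1 : a 1 ≤ a 0) (h2 : a 2 ≤ a 1) :
    ∑ i ∈ range 12, ((fld c i : ℝ) * ph (kk i) a + (fld c (12 + i) : ℝ) * ph (kk i) (chx (lamOf ln) a)) +
      (fld c 24 : ℝ) * chi a ≤ fld c 25 := by
  obtain ⟨n, hs⟩ := ha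
  rw [Fin.sum_univ_three] at hs
  push_cast at hs
  have n0 := n 0
  have n1 := n 1
  have n2 := n 2
  have a0 : 0 < a 0 := by linarith
  have s0 : 0 ≤ (a 1 + a 2) / a 0 := by positivity
  have x0 : 0 ≤ a 2 / (a 1 + a 2) := by positivity
  have s2 : (a 1 + a 2) / a 0 ≤ 2 := by rw [div_le_iff₀ a0]; linarith
  have x2 : a 2 / (a 1 + a 2) ≤ 1 / 2 := div_le_of_le_mul₀ (by positivity) (by norm_num) (by linarith)
  have eσ := rt12 s0
  have eξ := rt12 x0
  have pσ := rt0 s0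
  have pξ := rt0 x0
  set σ := rt ((a 1 + a 2) / a 0)
  set ξ := rt (a 2 / (a 1 + a 2))
  have bσ : σ ≤ 4340 / 4096 :=
    le_of_pow_le_pow_left₀ (n := 12) (by norm_num) (by norm_num) (by rw [eσ]; linarith [show (2 : ℝ) ≤ (4340 / 4096) ^ 12 by norm_num])
  have bξ : ξ ≤ 3867 / 4096 :=
    le_of_pow_le_pow_left₀ (n := 12) (by norm_num) (by norm_num) (by rw [eξ]; linarith [show (1 / 2 : ℝ) ≤ (3867 / 4096) ^ 12 by norm_num])
  have H := h σ ξ ⟨by push_cast; positivity, by push_cast; linarith, by push_cast; positivity,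
    by push_cast; linarith⟩
  have k2 : (a 1 + a 2) * (a 2 / (a 1 + a 2)) = a 2 := by
    rcases (add_nonneg n1 n2).eq_or_lt with z | z
    · rw [← z]; linarith
    · field_simp
  have v : ∀ i, a i = a 0 * av σ ξ i := fun i => by
    fin_cases i
    · simp [av]
    · simp only [av, eσ, eξ]
      simp only [Fin.mk_one, Matrix.cons_val_one, Matrix.cons_val_zero]
      rw [← mul_assoc, mul_div_cancel₀ _ a0.ne']; linarith
    · simp only [av, eσ, eξ]
      simp only [Fin.reduceFinMk, Matrix.cons_val]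
      rw [← mul_assoc, mul_div_cancel₀ _ a0.ne']; linarith
  have v0 : ∀ i, 0 ≤ av σ ξ i := fun i => nonneg_of_mul_nonneg_right (v i ▸ n i) a0 |> fun h => by
    have := n i
    rw [v i] at this
    exact (mul_nonneg_iff_of_pos_left a0).1 this
  have m : a 0 * (1 + σ ^ 12) = 3 := by rw [eσ]; field_simp; linarith
  have m0 : 0 < 1 + σ ^ 12 := by positivity
  have l1 : -1 / 2 ≤ lamOf ln := by
    unfold lamOf
    have : (ln : ℝ) ≤ 2 ^ 19 := by exact_mod_cast hl
    rw [le_div_iff₀ (by positivity)]; linarith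
  have l2 : lamOf ln ≤ 0 := by
    unfold lamOf
    exact div_nonpos_of_nonpos_of_nonneg (by simp) (by positivity)
  have w : ∀ i, chx (lamOf ln) a i =
      a 0 / 3 * ((1 - lamOf ln) * (1 + σ ^ 12) + 3 * lamOf ln * av σ ξ i) := fun i => by
    unfold chx
    rw [v i]
    linear_combination (-(1 - lamOf ln) / 3) * m
  have w0 : ∀ i, 0 ≤ (1 - lamOf ln) * (1 + σ ^ 12) + 3 * lamOf ln * av σ ξ i := fun i => by
    refine (mul_nonneg_iff_of_pos_left (show 0 < a 0 / 3 by positivity)).1 ?_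
    rw [← w]
    unfold chx
    have : a i ≤ 3 := by fin_cases i <;> simp <;> linarith
    nlinarith [n i]
  rw [sum_range_succ, sum_range_succ, show 24 = 12 + 12 from rfl, sum_range_add, ← sum_add_distrib] at H
  have e1 : ∀ i ∈ range 12, (cof c i : ℝ) * (FL ln σ ξ).getD i 0 +
      (cof c (12 + i) : ℝ) * (FL ln σ ξ).getD (12 + i) 0 = 6 * (1 + σ ^ 12) ^ 2 *
      ((fld c i : ℝ) * ph (kk i) a + (fld c (12 + i) : ℝ) * ph (kk i) (chx (lamOf ln) a)) := by
    intro i hi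
    have hi := mem_range.1 hi
    have f1 : (FL ln σ ξ).getD i 0 = (1 + σ ^ 12) * Ph (kk i) fun i => rt (av σ ξ i) := by
      interval_cases i <;> rfl
    have f2 : (FL ln σ ξ).getD (12 + i) 0 = (1 + σ ^ 12) * Ph (kk i) fun i =>
        rt ((1 - lamOf ln) * (1 + σ ^ 12) + 3 * lamOf ln * av σ ξ i) := by
      interval_cases i <;> rfl
    have c1 : cof c i = 3 * fld c i := if_pos hi
    have c2 : cof c (12 + i) = fld c (12 + i) := by
      unfold cof; rw [if_neg (by omega), if_pos (by omega)]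
    rw [f1, f2, c1, c2, ph_sc (ad i hi) a0.le v0 v, ph_sc (ad i hi) (by positivity) w0 w]
    push_cast
    generalize Ph (kk i) (fun i => rt (av σ ξ i)) = P
    generalize Ph (kk i) (fun i => rt ((1 - lamOf ln) * (1 + σ ^ 12) + 3 * lamOf ln * av σ ξ i)) = Q
    linear_combination (-((fld c i : ℝ) * P * (1 + σ ^ 12)) -
      (fld c (12 + i) : ℝ) * Q * (1 + σ ^ 12) / 3) * m
  rw [sum_congr rfl e1, ← mul_sum] at H
  have f3 : (FL ln σ ξ).getD (12 + 12) 0 = 1 + av σ ξ 1 ^ 2 + av σ ξ 2 ^ 2 := rfl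
  have f4 : (FL ln σ ξ).getD (12 + 12 + 1) 0 = (1 + σ ^ 12) ^ 2 := rfl
  have c3 : cof c (12 + 12) = 18 * fld c 24 := rfl
  have c4 : cof c (12 + 12 + 1) = -6 * (fld c 24 + fld c 25) := rfl
  rw [f3, f4, c3, c4] at H
  have e2 : 6 * (1 + σ ^ 12) ^ 2 * chi a =
      18 * (1 + av σ ξ 1 ^ 2 + av σ ξ 2 ^ 2) - 6 * (1 + σ ^ 12) ^ 2 := by
    have : chi a = (a 0 ^ 2 + a 1 ^ 2 + a 2 ^ 2) / 3 - 1 := by
      unfold chi; rw [Fin.sum_univ_three]; push_cast; linear_combination (-2 / 3) * hs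
    rw [this, v 1, v 2]
    linear_combination (2 * (1 + av σ ξ 1 ^ 2 + av σ ξ 2 ^ 2) * (a 0 * (1 + σ ^ 12) + 3)) * m
  push_cast at H
  refine le_of_mul_le_mul_left (a := 6 * (1 + σ ^ 12) ^ 2) ?_ (by positivity)
  linear_combination H + (fld c 24 : ℝ) * e2

end Symm

open Symm in
theorem symS : StmtSym := by
  intro ln pool hl hP c hc a ha
  set e : Equiv.Perm (Fin 3) := Fin.revPerm.trans (Tuple.sort a)
  have mo := Tuple.monotone_sort a
  have H := sorted ln c hl (hP c hc) (fun i => a (e i))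
    ⟨fun i => ha.1 _, (Equiv.sum_comp e a).trans ha.2⟩ (mo (show (1 : Fin 3) ≤ 2 by decide))
    (mo (show (0 : Fin 3) ≤ 1 by decide))
  have e1 : chi (fun i => a (e i)) = chi a := by
    unfold chi; rw [Equiv.sum_comp e fun i => (a i - 1) ^ 2]
  have e2 : ∀ k, ph k (chx (lamOf ln) fun i => a (e i)) = ph k (chx (lamOf ln) a) := fun k =>
    ph_perm k (chx (lamOf ln) a) e
  simp only [ph_perm, e1, e2] at H
  rw [lsum]
  exact H

end Vale.Agent.P154.AF
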