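import Vale.Agent.P154.AF.Glue
import Vale.Agent.P154.AF.Sym
import Vale.Agent.P154.AF.Ct
import Vale.Agent.P154.AF.G
import Vale.Agent.P154.C3
import Vale.Agent.P154.C4
import Vale.Agent.P154.KS

namespace Vale.Agent.P154.AF

open Filter Topology Tr Ck
open scoped ENNReal

theorem big_poi {ln dn en : ℕ} {pool : List ℕ} {ct : Ct} (hl : ln ≤ 2 ^ 19) (hd : dn ≤ 2 ^ 16)
    (hp : PW ln pool 0 4340 0 3867)
    (hc : chkC (gPoi dn) en pool ct (List.replicate 12 0) (List.replicate 12 (2 ^ 32)) = true) :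
    Big (lamOf ln) (fun s => Real.exp (-((dn : ℝ) / 2 ^ 10 * (1 - s)))) (en / 2 ^ 10) :=
  ctS _ _ _ en pool ct (gS.2 dn hd) (symS ln pool hl hp) hc

theorem big_reg {ln d en : ℕ} {pool : List ℕ} {ct : Ct} (hl : ln ≤ 2 ^ 19) (hd : 1 ≤ d)
    (hp : PW ln pool 0 4340 0 3867)
    (hc : chkC (gReg d) en pool ct (List.replicate 12 0) (List.replicate 12 (2 ^ 32)) = true) :
    Big (lamOf ln) (fun s => s ^ d) (en / 2 ^ 10) :=
  ctS _ _ _ en pool ct (gS.1 d hd) (symS ln pool hl hp) hc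

/-- region handled by the small-information argument -/
def Reg (lam A : ℝ) : Prop :=
  A ≤ 0.16 ∨ (-0.4 ≤ lam ∧ A ≤ 0.27) ∨ (-0.35 ≤ lam ∧ A ≤ 0.36) ∨ -0.3 ≤ lam

def SmallP : Prop := ∀ lam d A : ℝ, -1 / 2 ≤ lam → lam ≤ 0 → d * lam ^ 2 = 1 →
  Tendsto (fun n => E (V 3 lam (offPoi d) n) chi) atTop (𝓝 A) → Reg lam A →
  Tendsto (adv 3 lam (offPoi d)) atTop (𝓝 0)

def SmallR : Prop := ∀ (d : ℕ) (lam A : ℝ), 4 ≤ d → -1 / 2 ≤ lam → lam ≤ 0 → d * lam ^ 2 = 1 →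
  Tendsto (fun n => E (V 3 lam (offReg d) n) chi) atTop (𝓝 A) →
  (Reg lam A ∨ (d = 4 ∧ A ≤ 0.21)) → Tendsto (adv 3 lam (offReg d)) atTop (𝓝 0)

/-- every critical Poisson point with `-a / 2 ^ 20 ≤ lam ≤ -b / 2 ^ 20` lies in the small region -/
def CP (a b : ℕ) : Prop := ∀ lam d A : ℝ, lamOf a ≤ lam → lam ≤ lamOf b → d * lam ^ 2 = 1 →
  Tendsto (fun n => E (V 3 lam (offPoi d) n) chi) atTop (𝓝 A) → Reg lam A

/-- the critical point of the `d`-ary tree lies in the small region -/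
def CR (d : ℕ) : Prop := ∀ lam A : ℝ, lam ≤ 0 → d * lam ^ 2 = 1 →
  Tendsto (fun n => E (V 3 lam (offReg d) n) chi) atTop (𝓝 A) → Reg lam A ∨ (d = 4 ∧ A ≤ 0.21)

theorem CP.app {a b c : ℕ} (h : CP a b) (k : CP b c) : CP a c := fun lam d A h0 h1 hd hl =>
  (le_total lam (lamOf b)).elim (fun e => h lam d A h0 e hd hl) fun e => k lam d A e h1 hd hl

lemma lam_ge {a : ℕ} (h : a ≤ 2 ^ 19) : -1 / 2 ≤ lamOf a := by
  have : (a : ℝ) ≤ 2 ^ 19 := by exact_mod_cast h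
  unfold lamOf
  linarith

/-- side condition: `a, b, dn, en` numerals, close it by `norm_num` or `decide` -/
theorem cp_run {a dn en : ℕ} (b : ℕ)
    (hB : Big (lamOf a) (fun s => Real.exp (-((dn : ℝ) / 2 ^ 10 * (1 - s)))) (en / 2 ^ 10))
    (h : a ≤ 2 ^ 19 ∧ 0 < b ∧ 2 ^ 50 ≤ dn * b ^ 2 ∧
      (en ≤ 163 ∨ (a ≤ 419430 ∧ en ≤ 276) ∨ (a ≤ 367001 ∧ en ≤ 368))) : CP a b := by
  obtain ⟨h1, h2, h3, h4⟩ := h
  intro lam d A a0 a1 hd hl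
  have b0 : (0 : ℝ) < b := by exact_mod_cast h2
  have b1 : (2 : ℝ) ^ 50 ≤ dn * b ^ 2 := by exact_mod_cast h3
  have k := run_poi (lam1 := lamOf b) hB (lam_ge h1) (by unfold lamOf; linarith)
    (by unfold lamOf; nlinarith) a0 a1 hd hl
  unfold lamOf at a0
  rcases h4 with e | ⟨e, f⟩ | ⟨e, f⟩
  · have : (en : ℝ) ≤ 163 := by exact_mod_cast e
    exact .inl (by linarith)
  · have : (a : ℝ) ≤ 419430 := by exact_mod_cast e
    have : (en : ℝ) ≤ 276 := by exact_mod_cast f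
    exact .inr (.inl ⟨by linarith, by linarith⟩)
  · have : (a : ℝ) ≤ 367001 := by exact_mod_cast e
    have : (en : ℝ) ≤ 368 := by exact_mod_cast f
    exact .inr (.inr (.inl ⟨by linarith, by linarith⟩))

/-- side condition: `a, d, en` numerals, close it by `norm_num` or `decide` -/
theorem cr_run {a d en : ℕ} (hB : Big (lamOf a) (fun s => s ^ d) (en / 2 ^ 10))
    (h : a ≤ 2 ^ 19 ∧ 4 ≤ d ∧ 2 ^ 40 ≤ d * a ^ 2 ∧
      (en ≤ 163 ∨ (7 ≤ d ∧ en ≤ 276) ∨ (9 ≤ d ∧ en ≤ 368) ∨ (d = 4 ∧ en ≤ 215))) : CR d := by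
  obtain ⟨h1, h2, h3, h4⟩ := h
  intro lam A a1 hd hl
  have b0 : (0 : ℝ) ≤ a := by positivity
  have b1 : (2 : ℝ) ^ 40 ≤ d * a ^ 2 := by exact_mod_cast h3
  have k := run_reg hB (lam_ge h1) (by unfold lamOf; linarith) (by omega)
    (by unfold lamOf; nlinarith) a1 hd hl
  have m : ∀ (n : ℕ) (c : ℝ), n ≤ d → 0 < c → 1 ≤ n * c ^ 2 → -c ≤ lam := fun n c hn c0 hc => by
    have : (n : ℝ) ≤ d := by exact_mod_cast hn
    have n0 : (0 : ℝ) ≤ n := by positivity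
    by_contra j
    have j := not_le.1 j
    have l : c ^ 2 < lam ^ 2 := by nlinarith
    have : (n : ℝ) * lam ^ 2 ≤ d * lam ^ 2 := by gcongr
    rcases n0.eq_or_lt with z | z
    · rw [← z] at hc
      linarith
    · nlinarith
  rcases h4 with e | ⟨e, f⟩ | ⟨e, f⟩ | ⟨e, f⟩
  · have : (en : ℝ) ≤ 163 := by exact_mod_cast e
    exact .inl (.inl (by linarith))
  · have : (en : ℝ) ≤ 276 := by exact_mod_cast f
    exact .inl (.inr (.inl ⟨m 7 _ e (by norm_num) (by norm_num), by linarith⟩))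
  · have : (en : ℝ) ≤ 368 := by exact_mod_cast f
    exact .inl (.inr (.inr (.inl ⟨m 9 _ e (by norm_num) (by norm_num), by linarith⟩)))
  · have : (en : ℝ) ≤ 215 := by exact_mod_cast f
    exact .inr ⟨e, by linarith⟩

theorem af_poi (hs : SmallP) {b : ℕ} (hb : b ≤ 314572) (h : CP (2 ^ 19) b) (lam d : ℝ)
    (h0 : -1 / 2 ≤ lam) (h1 : lam < 0) (hd : 0 < d) (hl : d * lam ^ 2 ≤ 1) :
    Tendsto (adv 3 lam (offPoi d)) atTop (𝓝 0) := by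
  refine glue_poi (fun lam d A h0 h1 hd hl => hs lam d A h0 h1.le hd hl ?_) lam d h0 h1 hd hl
  rcases le_total lam (lamOf b) with e | e
  · exact h lam d A (by unfold lamOf; push_cast; linarith) e hd hl
  · have : (b : ℝ) ≤ 314572 := by exact_mod_cast hb
    unfold lamOf at e
    exact .inr (.inr (.inr (by linarith)))

theorem af_reg (hs : SmallR) (h : ∀ d, 4 ≤ d → d ≤ 11 → CR d) (lam : ℝ) (d : ℕ)
    (h0 : -1 / 2 ≤ lam) (h1 : lam < 0) (hd : 2 ≤ d) (hl : d * lam ^ 2 ≤ 1) :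
    Tendsto (adv 3 lam (offReg d)) atTop (𝓝 0) := by
  refine glue_reg (fun d lam A d4 h0 h1 hd hl => hs d lam A d4 h0 h1.le hd hl ?_) lam d h0 h1 hd hl
  rcases le_or_gt d 11 with e | e
  · exact h d d4 e lam A h1.le hd hl
  · have : (12 : ℝ) ≤ d := by exact_mod_cast e
    refine .inl (.inr (.inr (.inr ?_)))
    by_contra j
    have j := not_le.1 j
    have l : (0.3 : ℝ) ^ 2 < lam ^ 2 := by nlinarith
    nlinarith

theorem cr_all (h4 : CR 4) (h5 : CR 5) (h6 : CR 6) (h7 : CR 7) (h8 : CR 8) (h9 : CR 9)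
    (h10 : CR 10) (h11 : CR 11) : ∀ d, 4 ≤ d → d ≤ 11 → CR d := fun d a b => by
  interval_cases d <;> assumption

theorem full_of (hR : ∀ (lam : ℝ) (d : ℕ), -1 / 2 ≤ lam → lam < 0 → 2 ≤ d → d * lam ^ 2 ≤ 1 →
      Tendsto (adv 3 lam (offReg d)) atTop (𝓝 0))
    (hP : ∀ lam d : ℝ, -1 / 2 ≤ lam → lam < 0 → 0 < d → d * lam ^ 2 ≤ 1 →
      Tendsto (adv 3 lam (offPoi d)) atTop (𝓝 0)) :
    ∀ (q : ℕ) (lam : ℝ), ((q = 3 ∧ -1 / 2 ≤ lam) ∨ (q = 4 ∧ 0 ≤ lam)) → lam ≤ 1 →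
      (∀ d : ℕ, 2 ≤ d →
        ((d : ℝ) * lam ^ 2 ≤ 1 → Tendsto (adv q lam (offReg d)) atTop (𝓝 0)) ∧
        (1 < (d : ℝ) * lam ^ 2 → ∃ c : ℝ≥0∞, 0 < c ∧ ∀ n, c ≤ adv q lam (offReg d) n)) ∧
      (∀ d : ℝ, 0 < d →
        (d * lam ^ 2 ≤ 1 → Tendsto (adv q lam (offPoi d)) atTop (𝓝 0)) ∧
        (1 < d * lam ^ 2 → ∃ c : ℝ≥0∞, 0 < c ∧ ∀ n, c ≤ adv q lam (offPoi d) n)) := by
  intro q lam hq h1
  rcases le_or_gt 0 lam with h0 | h0
  · have hC : 2 ≤ q ∧ Nonempty (Cert q) := by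
      rcases hq with ⟨rfl, -⟩ | ⟨rfl, -⟩
      · exact ⟨by norm_num, cert3⟩
      · exact ⟨by norm_num, cert4⟩
    obtain ⟨h2, ⟨C⟩⟩ := hC
    have hP : ∀ i j, 0 ≤ chan q lam i j := fun i j => by
      have := sub_nonneg.2 h1
      unfold chan
      split_ifs <;> positivity
    refine ⟨fun d hd => ?_, fun d hd => ?_⟩
    · obtain ⟨k1, k2, k3, k4⟩ := offs.1 d hd
      exact ⟨fun hl => tree q h2 C lam h0 h1 _ d k1 k2 k3 k4 hl,
        fun hl => KS.ks h2 hP k1 k2 k3 (KS.reg2 d) hl⟩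
    · obtain ⟨k1, k2, k3, k4⟩ := offs.2 d hd
      exact ⟨fun hl => tree q h2 C lam h0 h1 _ d k1 k2 k3 k4 hl,
        fun hl => KS.ks h2 hP k1 k2 k3 (KS.poi2 d) hl⟩
  · obtain ⟨rfl, h2⟩ | ⟨-, h2⟩ := hq
    · have hN := Sysm.chan_nn h2 h1
      refine ⟨fun d hd => ?_, fun d hd => ?_⟩
      · obtain ⟨k1, k2, k3, -⟩ := offs.1 d hd
        exact ⟨hR lam d h2 h0 hd, fun hl => KS.ks (by norm_num) hN k1 k2 k3 (KS.reg2 d) hl⟩
      · obtain ⟨k1, k2, k3, -⟩ := offs.2 d hd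
        exact ⟨hP lam d h2 h0 hd, fun hl => KS.ks (by norm_num) hN k1 k2 k3 (KS.poi2 d) hl⟩
    · exact absurd h2 (not_le.2 h0)

end Vale.Agent.P154.AF
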