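import Vale.Agent.P154.AF.SpecA

namespace Vale.Agent.P154.AF

open Filter Topology Tr

abbrev Fn := (Fin 3 → ℝ) → ℝ

/-- one-step lower bound for the product with a post-channel vector -/
def Low (ρ : ℝ) (f g φ ψ : Fn) (κ : ℝ) : Prop :=
  ∀ b ∈ Sx 3, (∀ i, b i ≤ 1 + ρ) → ∀ a ∈ Sx 3,
    6 * (f a + g b + φ a * chi b + chi a * ψ b - κ * (chi a * chi b)) ≤
      ∑ σ : Equiv.Perm (Fin 3), hom f (fun i => b i * a (σ i))

def NC (f : Fn) : Prop := Cvx f ∧ ∀ a ∈ Sx 3, 0 ≤ f a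

/-- differences of convex functions -/
def DC : Submodule ℝ Fn := Submodule.span ℝ {f | NC f}

structure CertS (ρ' ρ η α2 α3 α4 : ℝ) where
  P : Fn
  Q : Fn
  φ : Fn
  ψ : Fn
  φ1 : Fn
  F1 : Fn
  S1 : Fn
  k0 : ℝ
  m0 : ℝ
  m1 : ℝ
  k1 : ℝ
  k2 : ℝ
  g1 : ℝ
  g2 : ℝ
  dP : P ∈ DC
  dQ : Q ∈ DC
  dφ : φ ∈ DC
  dψ : ψ ∈ DC
  dφ1 : φ1 ∈ DC
  dF1 : F1 ∈ DC
  dS1 : S1 ∈ DC
  P1 : P (fun _ => 1) = 0
  φ0 : φ (fun _ => 1) = 0
  F0 : F1 (fun _ => 1) = 0
  h0 : 0 ≤ k0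
  hm0 : 0 ≤ m0
  hm1 : 0 ≤ m1
  h1 : 0 ≤ k1
  h2 : 0 ≤ k2
  I0 : Low ρ (fun a => -chi a) (fun a => -m1 * chi a) 0 0 k0
  I00 : Low ρ (fun a => -chi a) (fun a => -m0 * chi a) 0 0 0
  IP : Low ρ P Q φ ψ 0
  I1 : Low ρ φ φ1 0 0 k1
  I2 : Low ρ F1 S1 0 0 k2
  C1 : ∀ lam, -ρ ≤ lam → lam ≤ -ρ' → ∀ x ∈ Sx 3, lam ^ 2 * P x ≤ Q (chx lam x)
  C2 : ∀ lam, -ρ ≤ lam → lam ≤ -ρ' → ∀ x ∈ Sx 3,
    lam ^ 2 * (g1 * chi x + F1 x) ≤ φ1 (chx lam x) + S1 (chx lam x)
  C3 : ∀ lam, -ρ ≤ lam → lam ≤ -ρ' → ∀ x ∈ Sx 3,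
    lam ^ 2 * (g2 * chi x + F1 x) ≤ ψ (chx lam x) + S1 (chx lam x)
  N1 : k2 * (η * (m1 + k0 * m0 * η * α3) * α2) +
    k1 * (η * (m1 + k0 * m0 * η * α4) * α3) < g1
  N2 : k2 * (η * (m1 + k0 * m0 * η * α3) * α2) ≤ g2

noncomputable def b2 (k : ℕ) : ℝ := k * (k - 1) / 2
noncomputable def b3 (k : ℕ) : ℝ := k * (k - 1) * (k - 2) / 6
noncomputable def b4 (k : ℕ) : ℝ := k * (k - 1) * (k - 2) * (k - 3) / 24

/-- factorial moments of the offspring law -/
structure Mo (α2 α3 α4 : ℝ) (off : ℕ → ℝ) (d c2 c3 c4 : ℝ) : Prop where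
  o : Off off
  m1 : HasSum (fun k : ℕ => off k * k) d
  m2 : HasSum (fun k => off k * b2 k) c2
  m3 : HasSum (fun k => off k * b3 k) c3
  m4 : HasSum (fun k => off k * b4 k) c4
  p2 : 0 < c2
  l2 : c2 ≤ d ^ 2 * α2
  p3 : 0 ≤ c3
  l3 : c3 ≤ c2 * d * α3
  l4 : c4 ≤ c3 * d * α4
  q3 : 0 ≤ α3
  q4 : 0 ≤ α4

namespace Smm

theorem cvxS : Convex ℝ (Sx 3) := by
  intro x hx y hy a b ha hb hab
  refine ⟨fun i => add_nonneg (mul_nonneg ha (hx.1 i)) (mul_nonneg hb (hy.1 i)), ?_⟩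
  simp only [Pi.add_apply, Pi.smul_apply, smul_eq_mul, Finset.sum_add_distrib, ← Finset.mul_sum,
    hx.2, hy.2]
  rw [← add_mul, hab, one_mul]

theorem nc_add {f g : Fn} (hf : NC f) (hg : NC g) : NC (f + g) :=
  ⟨⟨hf.1.1.add hg.1.1, hf.1.2.add hg.1.2⟩, fun a ha => add_nonneg (hf.2 a ha) (hg.2 a ha)⟩

theorem nc_sq {f : Fn} (hf : NC f) : NC (f ^ 2) :=
  ⟨⟨hf.1.1.pow 2, hf.1.2.pow hf.2 2⟩, fun a _ => sq_nonneg (f a)⟩

theorem dc_mul {f g : Fn} (hf : f ∈ DC) (hg : g ∈ DC) : f * g ∈ DC := by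
  have h : DC * DC ≤ DC := by
    unfold DC
    rw [Submodule.span_mul_span, Submodule.span_le]
    rintro _ ⟨x, hx, y, hy, rfl⟩
    have e : x * y = (1 / 2 : ℝ) • ((x + y) ^ 2 - x ^ 2 - y ^ 2) := by
      funext a
      simp only [Pi.mul_apply, Pi.smul_apply, Pi.sub_apply, Pi.pow_apply, Pi.add_apply, smul_eq_mul]
      ring
    show x * y ∈ Submodule.span ℝ {f | NC f}
    rw [e]
    exact Submodule.smul_mem _ _ (Submodule.sub_mem _ (Submodule.sub_mem _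
      (Submodule.subset_span (nc_sq (nc_add hx hy))) (Submodule.subset_span (nc_sq hx)))
      (Submodule.subset_span (nc_sq hy)))
  exact h (Submodule.mul_mem_mul hf hg)

theorem dc_one : (1 : Fn) ∈ DC :=
  Submodule.subset_span ⟨⟨continuous_const, convexOn_const 1 cvxS⟩, fun _ _ => zero_le_one⟩

theorem dc_pow {f : Fn} (hf : f ∈ DC) (n : ℕ) : f ^ n ∈ DC := by
  induction n with
  | zero => simpa using dc_one
  | succ n ih => rw [pow_succ]; exact dc_mul ih hf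

theorem dc_co (i : Fin 3) : (fun a : Fin 3 → ℝ => a i) ∈ DC :=
  Submodule.subset_span ⟨⟨continuous_apply i, cvxS, fun x _ y _ a b _ _ _ => le_of_eq (by simp)⟩,
    fun a ha => ha.1 i⟩

theorem dc_cont {f : Fn} (hf : f ∈ DC) : Continuous f := by
  induction hf using Submodule.span_induction with
  | mem x hx => exact hx.1.1
  | zero => exact continuous_const
  | add x y _ _ hx hy => exact hx.add hy
  | smul c x _ hx => exact hx.const_smul c

theorem h3 : 2 ≤ 3 := by norm_num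

variable {O O' : Type} {v : O → Fin 3 → ℝ} {w : O' → Fin 3 → ℝ}

theorem E_add (h : IsSys v) {f g : Fn} (hf : Bd f) (hg : Bd g) :
    E v (fun a => f a + g a) = E v f + E v g := by
  have := (h.hasSum' h3 hf).add (h.hasSum' h3 hg)
  rw [← this.tsum_eq]
  unfold E
  congr 1
  funext o
  rw [hom_eq]
  ring

theorem E_smul (c : ℝ) (f : Fn) : E v (fun a => c * f a) = c * E v f := by
  unfold E
  rw [← tsum_mul_left]
  congr 1
  funext o
  rw [hom_eq, hom_eq]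
  ring

theorem E_neg (f : Fn) : E v (fun a => -f a) = -E v f := by
  simpa using E_smul (v := v) (-1) f

theorem E_zero : E v (0 : Fn) = 0 := by simp [E, hom]

theorem conv {O : ℕ → Type} {v : ∀ n, O n → Fin 3 → ℝ} (hs : ∀ n, IsSys (v n))
    (ha : ∀ f, Cvx f → Antitone fun n => E (v n) f) {f : Fn} (hf : f ∈ DC) :
    ∃ L, Tendsto (fun n => E (v n) f) atTop (𝓝 L) := by
  induction hf using Submodule.span_induction with
  | mem x hx =>
    exact ⟨_, tendsto_atTop_ciInf (ha x hx.1)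
      ⟨0, by rintro _ ⟨n, rfl⟩; exact (hs n).E_nonneg h3 hx.2⟩⟩
  | zero => exact ⟨0, by simp [E_zero]⟩
  | add x y hx hy ix iy =>
    obtain ⟨a, ia⟩ := ix
    obtain ⟨b, ib⟩ := iy
    refine ⟨a + b, (ia.add ib).congr fun n => ?_⟩
    exact (E_add (hs n) (bd_of_cont (dc_cont hx)) (bd_of_cont (dc_cont hy))).symm
  | smul c x _ ix =>
    obtain ⟨a, ia⟩ := ix
    exact ⟨c * a, (ia.const_mul c).congr fun n => (E_smul c x).symm⟩

theorem step {ρ : ℝ} {f g φ ψ : Fn} {κ : ℝ} (L : Low ρ f g φ ψ κ) (h : IsSys v) (h' : IsSys w)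
    (hB : ∀ o i, nr (v o) i ≤ 1 + ρ) (bf : Bd f) (bg : Bd g) (bφ : Bd φ) (bψ : Bd ψ) :
    E w f + E v g + E w φ * E v chi + E w chi * E v ψ - κ * (E w chi * E v chi) ≤
      E (pr v w) f := by
  have bχ : Bd (chi : Fn) := bd_of_cont cont_chi
  have h1 := (((((hasSum_mul h3 h h' bd_one bf).add (hasSum_mul h3 h h' bg bd_one)).add
    (hasSum_mul h3 h h' bχ bφ)).add (hasSum_mul h3 h h' bψ bχ)).sub
    ((hasSum_mul h3 h h' bχ bχ).mul_left κ)).mul_left 6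
  have h2 := hasSum_le (fun p => ?_) h1 (hasSum_avg h3 h h' bf)
  · rw [h.E_one h3, h'.E_one h3] at h2
    norm_num [Nat.factorial] at h2
    linarith
  · have := mul_le_mul_of_nonneg_left
      (L _ (nr_mem h3 (h.nn p.1)) (hB p.1) _ (nr_mem h3 (h'.nn p.2)))
      (mul_nonneg (mean_nonneg (h.nn p.1)) (mean_nonneg (h'.nn p.2)))
    refine le_trans (le_of_eq ?_) this
    ring

theorem chx_mem {lam : ℝ} (h0 : -1 / 2 ≤ lam) (h1 : lam ≤ 0) {a : Fin 3 → ℝ} (ha : a ∈ Sx 3) :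
    chx lam a ∈ Sx 3 := by
  refine ⟨fun i => ?_, ?_⟩
  · have := le_of_mem ha i
    have := ha.1 i
    simp only [chx]
    push_cast at *
    nlinarith
  · simp only [chx]
    rw [Finset.sum_add_distrib, ← Finset.mul_sum, ha.2]
    simp only [Finset.sum_const, Finset.card_univ, Fintype.card_fin, nsmul_eq_mul]
    ring

theorem ch_fac (h : IsSys v) (lam : ℝ) (o : O) :
    ch lam v o = fun i => mean (v o) * chx lam (nr (v o)) i := by
  funext i
  rw [ch_eq]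
  conv_lhs => rw [eq_mul_nr h3 (h.nn o) i]
  simp only [chx]
  ring

theorem ch_sys (h : IsSys v) {lam : ℝ} (h0 : -1 / 2 ≤ lam) (h1 : lam ≤ 0) : IsSys (ch lam v) where
  nn o i := by
    rw [ch_fac h]
    exact mul_nonneg (mean_nonneg (h.nn o)) ((chx_mem h0 h1 (nr_mem h3 (h.nn o))).1 i)
  hs i := by
    have := ((h.hs i).mul_left lam).add ((h.hasSum_mean h3).mul_left (1 - lam))
    simp only [mul_one, add_sub_cancel] at this
    simpa only [ch_eq] using this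
  sym σ := by
    obtain ⟨e, he⟩ := h.sym σ
    refine ⟨e, fun o i => ?_⟩
    rw [ch_eq, ch_eq, he]
    congr 2
    unfold mean
    simp only [he]
    rw [Equiv.sum_comp σ (v o)]

theorem E_ch' (h : IsSys v) {lam : ℝ} (h0 : -1 / 2 ≤ lam) (h1 : lam ≤ 0) (f : Fn) :
    E (ch lam v) f = E v (fun a => f (chx lam a)) := by
  unfold E
  congr 1
  funext o
  rw [ch_fac h, hom_smul, hom_of_mem h3 _ (chx_mem h0 h1 (nr_mem h3 (h.nn o))), hom_eq]

theorem ch_B (h : IsSys v) {lam ρ : ℝ} (h0 : -1 / 2 ≤ lam) (h1 : lam ≤ 0) (hρ : -ρ ≤ lam) (o : O)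
    (i : Fin 3) : nr (ch lam v o) i ≤ 1 + ρ := by
  have hm := chx_mem h0 h1 (nr_mem h3 (h.nn o))
  have e : mean (ch lam v o) = mean (v o) := by
    rw [ch_fac h, mean_smul, mean_of_mem h3 hm, mul_one]
  have hn := (nr_mem h3 (h.nn o)).1 i
  unfold nr
  split_ifs with hz
  · linarith
  · show ch lam v o i / mean (ch lam v o) ≤ _
    rw [e] at hz ⊢
    rw [ch_fac h]
    simp only [chx]
    rw [mul_div_cancel_left₀ _ hz]
    nlinarith

theorem chi_chx (lam : ℝ) (a : Fin 3 → ℝ) : chi (chx lam a) = lam ^ 2 * chi a := by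
  unfold chi
  rw [← mul_div_assoc, Finset.mul_sum]
  congr 1
  exact Finset.sum_congr rfl fun i _ => by simp only [chx]; ring

theorem chi2 (h : IsSys v) : E v chi ≤ 2 := by
  have := h.E_le h3 (bd_of_cont cont_chi) bd_one (1 / 2) 0 (fun a ha => by
    have h1 := ha.1 0
    have h2 := ha.1 1
    have h4 := ha.1 2
    have h5 := ha.2
    simp only [chi, Fin.sum_univ_three] at h5 ⊢
    push_cast at h5 ⊢
    nlinarith [mul_nonneg h1 h2, mul_nonneg h1 h4, mul_nonneg h2 h4])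
  rw [h.E_one h3] at this
  linarith

theorem bd0 : Bd (0 : Fn) := ⟨0, fun _ _ => by simp⟩

theorem b2s (k : ℕ) : b2 (k + 1) = b2 k + k := by simp only [b2]; push_cast; ring
theorem b3s (k : ℕ) : b3 (k + 1) = b3 k + b2 k := by simp only [b2, b3]; push_cast; ring
theorem b4s (k : ℕ) : b4 (k + 1) = b4 k + b3 k := by simp only [b3, b4]; push_cast; ring

theorem pows {ρ' ρ η α2 α3 α4 : ℝ} (C : CertS ρ' ρ η α2 α3 α4) (h : IsSys v) (hB : ∀ o i, nr (v o) i ≤ 1 + ρ) (k : ℕ) :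
    E (pw v k) chi ≤ C.m0 * k * E v chi ∧
    E (pw v k) chi ≤ C.m1 * k * E v chi + C.k0 * C.m0 * E v chi ^ 2 * b2 k ∧
    k * E v C.φ1 - C.k1 * E v chi * (C.m1 * E v chi * b2 k + C.k0 * C.m0 * E v chi ^ 2 * b3 k) ≤
      E (pw v k) C.φ ∧
    k * E v C.S1 - C.k2 * E v chi * (C.m1 * E v chi * b2 k + C.k0 * C.m0 * E v chi ^ 2 * b3 k) ≤
      E (pw v k) C.F1 ∧
    k * E v C.Q + E v chi * (E v C.φ1 * b2 k - C.k1 * E v chi *
        (C.m1 * E v chi * b3 k + C.k0 * C.m0 * E v chi ^ 2 * b4 k)) -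
      max (-E v C.ψ) 0 * (C.m1 * E v chi * b2 k + C.k0 * C.m0 * E v chi ^ 2 * b3 k) ≤
      E (pw v k) C.P := by
  have bd : ∀ {f : Fn}, f ∈ DC → Bd f := fun hf => bd_of_cont (dc_cont hf)
  have bn : Bd (fun a : Fin 3 → ℝ => -chi a) := bd_of_cont cont_chi.neg
  have u0 := h.E_nonneg h3 (f := chi) (fun a _ => chi_nonneg a)
  induction k with
  | zero =>
    simp only [E_pw_zero h3, C.P1, C.φ0, C.F0]
    simp [chi, b2, b3, b4]
  | succ k ih =>
    obtain ⟨i1, i2, i3, i4, i5⟩ := ih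
    have hk := h.pw k
    have s0 := hk.E_nonneg h3 (f := chi) (fun a _ => chi_nonneg a)
    have bm : ∀ c : ℝ, Bd (fun a : Fin 3 → ℝ => c * chi a) := fun c =>
      bd_of_cont (continuous_const.mul cont_chi)
    have t0 := step C.I0 h hk hB bn (bm _) bd0 bd0
    have t4 := step C.I00 h hk hB bn (bm _) bd0 bd0
    have t1 := step C.I1 h hk hB (bd C.dφ) (bd C.dφ1) bd0 bd0
    have t2 := step C.I2 h hk hB (bd C.dF1) (bd C.dS1) bd0 bd0
    have t3 := step C.IP h hk hB (bd C.dP) (bd C.dQ) (bd C.dφ) (bd C.dψ)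
    simp only [E_neg, E_zero, E_smul] at t0 t1 t2 t4
    simp only [pw_succ, E_comp, b2s, b3s, b4s]
    push_cast
    set u := E v chi
    set s := E (pw v k) chi
    have a2 := mul_le_mul_of_nonneg_left i1 (mul_nonneg C.h0 u0)
    have a3 := mul_le_mul_of_nonneg_left i2 (mul_nonneg C.h1 u0)
    have a4 := mul_le_mul_of_nonneg_left i2 (mul_nonneg C.h2 u0)
    have a5 := mul_le_mul_of_nonneg_left i3 u0
    have a6 := mul_le_mul_of_nonneg_left i2 (le_max_right (-E v C.ψ) 0)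
    have a7 := mul_le_mul_of_nonneg_left (le_max_left (-E v C.ψ) 0) s0
    refine ⟨by linarith, by linarith, by linarith, by linarith, by linarith⟩

theorem level {ρ' ρ η α2 α3 α4 : ℝ} (C : CertS ρ' ρ η α2 α3 α4) {off : ℕ → ℝ} {d c2 c3 c4 : ℝ} (M : Mo α2 α3 α4 off d c2 c3 c4)
    (h : IsSys v) (hB : ∀ o i, nr (v o) i ≤ 1 + ρ) :
    d * E v C.S1 - C.k2 * E v chi * (C.m1 * E v chi * c2 + C.k0 * C.m0 * E v chi ^ 2 * c3) ≤
      E (mx off v) C.F1 ∧
    d * E v C.Q + E v chi * (E v C.φ1 * c2 - C.k1 * E v chi *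
        (C.m1 * E v chi * c3 + C.k0 * C.m0 * E v chi ^ 2 * c4)) -
      max (-E v C.ψ) 0 * (C.m1 * E v chi * c2 + C.k0 * C.m0 * E v chi ^ 2 * c3) ≤
      E (mx off v) C.P := by
  have bd : ∀ {f : Fn}, f ∈ DC → Bd f := fun hf => bd_of_cont (dc_cont hf)
  have r := (M.m2.mul_left (C.m1 * E v chi)).add (M.m3.mul_left (C.k0 * C.m0 * E v chi ^ 2))
  have r' := (M.m3.mul_left (C.m1 * E v chi)).add (M.m4.mul_left (C.k0 * C.m0 * E v chi ^ 2))
  constructor
  · refine hasSum_le (fun k => ?_) ((M.m1.mul_right (E v C.S1)).sub (r.mul_left (C.k2 * E v chi)))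
      (hasSum_mx h3 h M.o.1 M.o.2 (bd C.dF1))
    refine le_trans (le_of_eq ?_) (mul_le_mul_of_nonneg_left (pows C h hB k).2.2.2.1 (M.o.1 k))
    ring
  · refine hasSum_le (fun k => ?_) (((M.m1.mul_right (E v C.Q)).add (((M.m2.mul_left (E v C.φ1)).sub
      (r'.mul_left (C.k1 * E v chi))).mul_left (E v chi))).sub (r.mul_left (max (-E v C.ψ) 0)))
      (hasSum_mx h3 h M.o.1 M.o.2 (bd C.dP))
    refine le_trans (le_of_eq ?_) (mul_le_mul_of_nonneg_left (pows C h hB k).2.2.2.2 (M.o.1 k))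
    ring

/-- the lower bound for one level, `t = lam ^ 2` -/
noncomputable def HH (m κ k1 k2 g1 g2 t c2 c3 c4 s D : ℝ) : ℝ :=
  t * s * (t * (g1 * s - k2 * (t * s) * (m * (t * s) * c2 + κ * (t * s) ^ 2 * c3) + D) * c2
    - k1 * (t * s) * (m * (t * s) * c3 + κ * (t * s) ^ 2 * c4)) -
  max (-(t * (g2 * s - k2 * (t * s) * (m * (t * s) * c2 + κ * (t * s) ^ 2 * c3) + D))) 0 *
    (m * (t * s) * c2 + κ * (t * s) ^ 2 * c3)

theorem chanE (h : IsSys v) {lam : ℝ} (h0 : -1 / 2 ≤ lam) (h1 : lam ≤ 0) {f p q : Fn} {g : ℝ}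
    (hf : f ∈ DC) (hp : p ∈ DC) (hq : q ∈ DC)
    (H : ∀ x ∈ Sx 3, lam ^ 2 * (g * chi x + f x) ≤ p (chx lam x) + q (chx lam x)) :
    lam ^ 2 * (g * E v chi + E v f) ≤ E (ch lam v) p + E (ch lam v) q := by
  have cx : Continuous (chx lam) := by unfold chx; fun_prop
  have b1 := bd_of_cont ((dc_cont hp).comp cx)
  have b2 := bd_of_cont ((dc_cont hq).comp cx)
  have b3 : Bd (fun a : Fin 3 → ℝ => g * chi a) := bd_of_cont (continuous_const.mul cont_chi)
  have b4 := bd_of_cont (dc_cont hf)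
  have := h.E_le h3 (f := fun a => g * chi a + f a) (g := fun a => p (chx lam a) + q (chx lam a))
    (bd_of_cont ((continuous_const.mul cont_chi).add (dc_cont hf)))
    (bd_of_cont (((dc_cont hp).comp cx).add ((dc_cont hq).comp cx))) (lam ^ 2) 0
    (fun a ha => by simpa using H a ha)
  rw [E_add h b3 b4, E_smul, add_zero] at this
  rw [E_ch' h h0 h1, E_ch' h h0 h1]
  exact this.trans (le_of_eq (E_add h b1 b2))

theorem level' {ρ' ρ η α2 α3 α4 : ℝ} (C : CertS ρ' ρ η α2 α3 α4) {off : ℕ → ℝ} {d c2 c3 c4 lam : ℝ}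
    (M : Mo α2 α3 α4 off d c2 c3 c4) (h : IsSys v) (h0 : -1 / 2 ≤ lam) (h1 : lam ≤ 0) (hρ : -ρ ≤ lam)
    (hρ' : lam ≤ -ρ') (hd : d * lam ^ 2 = 1) :
    HH C.m1 (C.k0 * C.m0) C.k1 C.k2 C.g1 C.g2 (lam ^ 2) c2 c3 c4 (E v chi)
      (E v C.F1 - E (mx off (ch lam v)) C.F1) ≤ E (mx off (ch lam v)) C.P - E v C.P := by
  have hc := ch_sys h h0 h1
  obtain ⟨l1, l2⟩ := level C M hc (ch_B h h0 h1 hρ)
  have e : E (ch lam v) chi = lam ^ 2 * E v chi := by
    rw [E_ch' h h0 h1]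
    simp only [chi_chx]
    exact E_smul _ _
  have c1 := chanE h h0 h1 (g := 0) C.dP C.dQ DC.zero_mem
    (fun x hx => by simpa using C.C1 lam hρ hρ' x hx)
  have c2' := chanE h h0 h1 C.dF1 C.dφ1 C.dS1 (C.C2 lam hρ hρ')
  have c3' := chanE h h0 h1 C.dF1 C.dψ C.dS1 (C.C3 lam hρ hρ')
  rw [E_zero] at c1
  rw [e] at l1 l2
  have s0 := h.E_nonneg h3 (f := chi) (fun a _ => chi_nonneg a)
  have t0 : 0 ≤ lam ^ 2 := sq_nonneg lam
  have d0 : 0 ≤ d := by
    by_contra hn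
    nlinarith
  unfold HH
  set t := lam ^ 2
  set s := E v chi
  set R := C.m1 * (t * s) * c2 + C.k0 * C.m0 * (t * s) ^ 2 * c3 with hR
  have R0 : 0 ≤ R := by
    have := C.h0
    have := C.hm0
    have := C.hm1
    have := M.p2
    have := M.p3
    positivity
  have l1' := mul_le_mul_of_nonneg_left l1 t0
  have e1 : t * (d * E (ch lam v) C.S1) = E (ch lam v) C.S1 := by
    rw [← mul_assoc, mul_comm t d, hd, one_mul]
  have m1 : t * (C.g1 * s - C.k2 * (t * s) * R + (E v C.F1 - E (mx off (ch lam v)) C.F1)) ≤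
      E (ch lam v) C.φ1 := by linarith
  have m2 : t * (C.g2 * s - C.k2 * (t * s) * R + (E v C.F1 - E (mx off (ch lam v)) C.F1)) ≤
      E (ch lam v) C.ψ := by linarith
  have q1 := mul_le_mul_of_nonneg_left c1 d0
  have e2 : d * (t * (0 * s + E v C.P)) = E v C.P := by
    rw [← mul_assoc, hd]
    ring
  have n1 := mul_le_mul_of_nonneg_left m1 (mul_nonneg (mul_nonneg t0 s0) M.p2.le)
  have n2 := mul_le_mul_of_nonneg_right (max_le_max_right 0 (neg_le_neg m2)) R0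
  linarith

theorem HH_pos {ρ' ρ η α2 α3 α4 : ℝ} (C : CertS ρ' ρ η α2 α3 α4) {off : ℕ → ℝ} {d c2 c3 c4 t s : ℝ}
    (M : Mo α2 α3 α4 off d c2 c3 c4) (ht : 0 ≤ t) (hd : d * t = 1) (s0 : 0 < s) (s1 : s ≤ η) :
    0 < HH C.m1 (C.k0 * C.m0) C.k1 C.k2 C.g1 C.g2 t c2 c3 c4 s 0 := by
  have k0 := C.h0
  have m0 := C.hm0
  have m1 := C.hm1
  have k1 := C.h1
  have k2 := C.h2
  have n1 := C.N1
  have n2 := C.N2
  have p2 := M.p2
  have p3 := M.p3
  have t0 : 0 < t := by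
    rcases ht.eq_or_lt with h | h
    · rw [← h] at hd
      simp at hd
    · exact h
  set κ := C.k0 * C.m0 with hκ
  have κ0 : 0 ≤ κ := by positivity
  have q3 := M.q3
  have q4 := M.q4
  have a2 : t ^ 2 * c2 ≤ α2 := by
    have := mul_le_mul_of_nonneg_left M.l2 (sq_nonneg t)
    have e : t ^ 2 * (d ^ 2 * α2) = (d * t) ^ 2 * α2 := by ring
    rw [e, hd] at this
    linarith
  have a3 : t * c3 ≤ c2 * α3 := by
    have := mul_le_mul_of_nonneg_left M.l3 ht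
    have e : t * (c2 * d * α3) = c2 * (d * t) * α3 := by ring
    rw [e, hd] at this
    linarith
  have a4 : t * c4 ≤ c3 * α4 := by
    have := mul_le_mul_of_nonneg_left M.l4 ht
    have e : t * (c3 * d * α4) = c3 * (d * t) * α4 := by ring
    rw [e, hd] at this
    linarith
  have η0 : 0 < η := by linarith
  have r1 : t * (C.m1 * (t * s) * c2 + κ * (t * s) ^ 2 * c3) ≤ η * (C.m1 + κ * η * α3) * α2 := by
    calc t * (C.m1 * (t * s) * c2 + κ * (t * s) ^ 2 * c3) =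
          C.m1 * s * (t ^ 2 * c2) + κ * s ^ 2 * t ^ 2 * (t * c3) := by ring
      _ ≤ C.m1 * s * (t ^ 2 * c2) + κ * s ^ 2 * t ^ 2 * (c2 * α3) := by gcongr
      _ = s * (C.m1 + κ * s * α3) * (t ^ 2 * c2) := by ring
      _ ≤ η * (C.m1 + κ * η * α3) * α2 := by gcongr
  have r2 : C.m1 * (t * s) * c3 + κ * (t * s) ^ 2 * c4 ≤ c2 * (η * (C.m1 + κ * η * α4) * α3) := by
    calc C.m1 * (t * s) * c3 + κ * (t * s) ^ 2 * c4 =
          C.m1 * s * (t * c3) + κ * s ^ 2 * t * (t * c4) := by ring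
      _ ≤ C.m1 * s * (t * c3) + κ * s ^ 2 * t * (c3 * α4) := by gcongr
      _ = s * (C.m1 + κ * s * α4) * (t * c3) := by ring
      _ ≤ η * (C.m1 + κ * η * α4) * (c2 * α3) := by gcongr
      _ = _ := by ring
  unfold HH
  set R := C.m1 * (t * s) * c2 + κ * (t * s) ^ 2 * c3
  set R' := C.m1 * (t * s) * c3 + κ * (t * s) ^ 2 * c4
  have x1 := mul_le_mul_of_nonneg_left r1 (mul_nonneg k2 s0.le)
  have x2 := mul_le_mul_of_nonneg_left n2 s0.le
  have z : max (-(t * (C.g2 * s - C.k2 * (t * s) * R + 0))) 0 = 0 := by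
    refine max_eq_right (neg_nonpos.2 (mul_nonneg ht ?_))
    linarith
  rw [z, zero_mul, sub_zero]
  refine mul_pos (mul_pos t0 s0) ?_
  have x3 := mul_le_mul_of_nonneg_left r2 (mul_nonneg k1 (mul_nonneg ht s0.le))
  have x4 := mul_le_mul_of_nonneg_left x1 (mul_nonneg ht p2.le)
  have x5 := mul_lt_mul_of_pos_left n1 (mul_pos (mul_pos t0 s0) p2)
  linarith

end Smm

open Smm in
/-- small regime -/
theorem small (hS : StmtSys) (hA : StmtAnti) {ρ' ρ η α2 α3 α4 : ℝ} (C : CertS ρ' ρ η α2 α3 α4) {lam d c2 c3 c4 A : ℝ}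
    {off : ℕ → ℝ} (h0 : -1 / 2 ≤ lam) (hρ : -ρ ≤ lam) (h1 : lam ≤ 0) (hρ' : lam ≤ -ρ')
    (hd : d * lam ^ 2 = 1)
    (M : Mo α2 α3 α4 off d c2 c3 c4) (hl : Tendsto (fun n => E (V 3 lam off n) chi) atTop (𝓝 A))
    (hη : A ≤ η) : Tendsto (adv 3 lam off) atTop (𝓝 0) := by
  have hs := hS lam off h0 (by linarith) M.o
  have ha := hA lam off h0 (by linarith) M.o
  obtain ⟨LP, hP⟩ := conv hs ha C.dP
  obtain ⟨LF, hF⟩ := conv hs ha C.dF1
  have x0 : ∀ n, 0 ≤ E (V 3 lam off n) chi := fun n =>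
    (hs n).E_nonneg h3 (f := chi) (fun a _ => chi_nonneg a)
  have A0 : 0 ≤ A := ge_of_tendsto' hl x0
  have hD := hF.sub ((tendsto_add_atTop_iff_nat 1).2 hF)
  have hQ := ((tendsto_add_atTop_iff_nat 1).2 hP).sub hP
  rw [sub_self] at hD hQ
  have hc : Continuous fun p : ℝ × ℝ => HH C.m1 (C.k0 * C.m0) C.k1 C.k2 C.g1 C.g2 (lam ^ 2) c2 c3 c4 p.1 p.2 := by
    unfold HH
    fun_prop
  have hH := (hc.tendsto (A, 0)).comp (hl.prodMk_nhds hD)
  have key := le_of_tendsto_of_tendsto' hH hQ (fun n => level' C M (hs n) h0 h1 hρ hρ' hd)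
  have hz : A = 0 := by
    by_contra hn
    have := HH_pos C M (sq_nonneg lam) hd (lt_of_le_of_ne A0 (Ne.symm hn)) hη
    exact absurd key (not_le.2 this)
  rw [hz] at hl
  rw [ENNReal.tendsto_nhds_zero]
  intro ε hε
  rcases eq_or_ne ε ⊤ with rfl | hne
  · exact Eventually.of_forall fun _ => le_top
  have he : 0 < ε.toReal := ENNReal.toReal_pos hε.ne' hne
  have h5 := (hl.const_mul (ε.toReal / 2)⁻¹).eventually
    (gt_mem_nhds (show (ε.toReal / 2)⁻¹ * 0 < ε.toReal / 2 by simpa using half_pos he))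
  filter_upwards [h5] with n hn
  refine (adv_le h3 (hs n) (half_pos he)).trans ?_
  rw [← ENNReal.ofReal_toReal hne]
  refine ENNReal.ofReal_le_ofReal ?_
  rw [ENNReal.toReal_ofReal he.le]
  linarith

theorem mo_reg (d : ℕ) (hd : 2 ≤ d) :
    Mo (1 / 2) (1 / 3) (1 / 4) (offReg d) d (b2 d) (b3 d) (b4 d) := by
  have hs : ∀ g : ℕ → ℝ, HasSum (fun k => offReg d k * g k) (g d) := fun g => by
    simpa [offReg] using hasSum_single (f := fun k : ℕ => offReg d k * g k) d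
      (fun k hk => by simp [offReg, hk])
  have h2 : (2 : ℝ) ≤ d := by exact_mod_cast hd
  have e2 : 0 < b2 d := by
    unfold b2
    nlinarith
  have e3 : b3 d = b2 d * (d - 2) / 3 := by simp only [b2, b3]; ring
  have e4 : b4 d = b3 d * (d - 3) / 4 := by simp only [b4, b3]; ring
  have p3 : 0 ≤ b3 d := by
    rw [e3]
    have := sub_nonneg.2 h2
    positivity
  refine ⟨⟨fun k => by unfold offReg; split_ifs <;> norm_num, by simpa using hs fun _ => 1⟩,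
    hs fun k => k, hs b2, hs b3, hs b4, e2, ?_, p3, ?_, ?_, by norm_num, by norm_num⟩
  · unfold b2
    nlinarith
  · rw [e3]
    nlinarith
  · rw [e4]
    nlinarith

theorem mo_reg4 : Mo (3 / 8) (1 / 6) (1 / 16) (offReg 4) (4 : ℕ) (b2 4) (b3 4) (b4 4) := by
  have M := mo_reg 4 (by norm_num)
  exact ⟨M.o, M.m1, M.m2, M.m3, M.m4, M.p2, by norm_num [b2], M.p3, by norm_num [b2, b3],
    by norm_num [b3, b4], by norm_num, by norm_num⟩

theorem hsc {f g : ℕ → ℝ} {a : ℝ} (h : HasSum f a) (e : ∀ k, g k = f k) : HasSum g a :=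
  (funext e : g = f) ▸ h

theorem poi_desc (d : ℝ) (j : ℕ) :
    HasSum (fun k : ℕ => offPoi d k * (k.descFactorial j : ℝ)) (d ^ j) := by
  have h := (NormedSpace.expSeries_div_hasSum_exp d).mul_left (Real.exp (-d) * d ^ j)
  rw [← Real.exp_eq_exp_ℝ, mul_right_comm, ← Real.exp_add, neg_add_cancel, Real.exp_zero,
    one_mul] at h
  rw [← hasSum_nat_add_iff' j, Finset.sum_eq_zero (fun k hk => by
    rw [Nat.descFactorial_eq_zero_iff_lt.2 (Finset.mem_range.1 hk)]; simp), sub_zero]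
  refine hsc h fun k => ?_
  unfold offPoi
  have e := Nat.factorial_mul_descFactorial (Nat.le_add_left j k)
  rw [Nat.add_sub_cancel] at e
  rw [← e]
  have : ((k + j).descFactorial j : ℝ) ≠ 0 := by
    rw [Nat.cast_ne_zero, Ne, Nat.descFactorial_eq_zero_iff_lt]
    omega
  push_cast
  field_simp
  ring

theorem mo_poi (d : ℝ) (hd : 0 < d) :
    Mo (1 / 2) (1 / 3) (1 / 4) (offPoi d) d (d ^ 2 / 2) (d ^ 3 / 6) (d ^ 4 / 24) := by
  have c : ∀ j k : ℕ, (k.descFactorial j : ℝ) = ∏ i ∈ Finset.range j, ((k : ℝ) - i) := fun j k => by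
    rw [← descPochhammer_eval_eq_descFactorial ℝ, descPochhammer_eval_eq_prod_range]
  refine ⟨⟨fun k => by unfold offPoi; positivity, by simpa using poi_desc d 0⟩,
    by simpa using poi_desc d 1, ?_, ?_, ?_, by positivity, le_of_eq (by ring), by positivity,
    le_of_eq (by ring), le_of_eq (by ring), by norm_num, by norm_num⟩
  · refine hsc ((poi_desc d 2).div_const 2) fun k => ?_
    simp only [c, b2, Finset.prod_range_succ, Finset.prod_range_zero]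
    push_cast
    ring
  · refine hsc ((poi_desc d 3).div_const 6) fun k => ?_
    simp only [c, b3, Finset.prod_range_succ, Finset.prod_range_zero]
    push_cast
    ring
  · refine hsc ((poi_desc d 4).div_const 24) fun k => ?_
    simp only [c, b4, Finset.prod_range_succ, Finset.prod_range_zero]
    push_cast
    ring

end Vale.Agent.P154.AF
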