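import Vale.Agent.P154.AF.E8
import Vale.Agent.P154.AF.Sm

namespace Vale.Agent.P154.AF

theorem F8_eq (a : Fin 3 → ℝ) (ha : a ∈ Sx 3) : bas true E8 (emb3 a) =
    E8.map (mono ⟨3, ∑ i, a i ^ 2, ∑ i, a i ^ 3, ∑ i, a i ^ 4⟩) := by
  rw [bas, gens3, ha.2]; norm_num

noncomputable def env8 : Env 3 where
  s := s8
  R := R3
  J := 10
  i0 := 0
  i2 := 1
  tab := tab8
  F := fun a => bas true E8 (emb3 a)
  lamf := lam3
  hq := by norm_num
  hJ := by norm_num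
  hD := by decide
  hsort := sort3 E8
  hL := fun τ hτ => by
    have := List.all_eq_true.1 tab8_ok τ hτ
    rw [Bool.and_eq_true, beq_iff_eq] at this
    obtain ⟨h1, h2, h3⟩ := tab3_sound this.1 this.2
    exact ⟨h1.trans (by norm_num), h2, h3⟩
  h0 := fun a ha => by rw [F8_eq a ha]; simp [dz, ei, dot, E8, mono, s8]
  h2 := fun a ha => by rw [F8_eq a ha]; simp [dz, ei, dot, E8, mono, s8]

theorem cm23 (a : Fin 3 → ℝ) (ha : a ∈ Sx 3) : cm 2 a = (∑ i, a i ^ 2) / 3 - 1 ∧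
    cm 3 a = (∑ i, a i ^ 3) / 3 - (∑ i, a i ^ 2) + 2 := by
  have h := ha.2
  simp only [cm, Fin.sum_univ_three] at h ⊢
  push_cast at h ⊢
  constructor
  · linear_combination (-2 / 3) * h
  · linear_combination h

noncomputable def ft (i j : ℕ) : Fn := fun a => cm 2 a ^ i * cm 3 a ^ j

noncomputable def fs : List Fn :=
  [ft 1 0, ft 0 1, ft 2 0, ft 1 1, ft 0 2, ft 3 0, ft 2 1, ft 1 2, ft 4 0]

def Rl (p : List ℤ × ℕ) (f : Fn) : Prop :=
  p.2 ≤ 6 ∧ (∀ a ∈ Sx 3, dz p.1 (env8.F a) = 3 ^ 8 * f a) ∧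
    (∀ lam a, f (chx lam a) = lam ^ 2 * (lam ^ p.2 * f a)) ∧ f ∈ DC ∧ f (fun _ => 1) = 0

theorem dc_cm (k : ℕ) : (cm k : Fn) ∈ DC := by
  have h : ∀ i : Fin 3, ((fun a : Fin 3 → ℝ => a i) - 1) ^ k ∈ DC := fun i =>
    Smm.dc_pow (DC.sub_mem (Smm.dc_co i) Smm.dc_one) k
  have e : (cm k : Fn) = (1 / 3 : ℝ) • (((fun a : Fin 3 → ℝ => a 0) - 1) ^ k +
      ((fun a : Fin 3 → ℝ => a 1) - 1) ^ k + ((fun a : Fin 3 → ℝ => a 2) - 1) ^ k) := by
    funext a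
    simp only [cm, Fin.sum_univ_three, Pi.smul_apply, Pi.add_apply, Pi.pow_apply, Pi.sub_apply,
      Pi.one_apply, smul_eq_mul]
    push_cast
    ring
  rw [e]
  exact DC.smul_mem _ (DC.add_mem (DC.add_mem (h 0) (h 1)) (h 2))

theorem rl_ft (v : List ℤ) (d i j : ℕ) (hd : d ≤ 6) (e : 2 * i + 3 * j = 2 + d)
    (h : ∀ s2 s3 s4 : ℝ, dz v (E8.map (mono ⟨3, s2, s3, s4⟩)) =
      3 ^ 8 * ((s2 / 3 - 1) ^ i * (s3 / 3 - s2 + 2) ^ j)) : Rl (v, d) (ft i j) := by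
  refine ⟨hd, fun a ha => ?_, fun lam a => ?_, Smm.dc_mul (Smm.dc_pow (dc_cm 2) i)
    (Smm.dc_pow (dc_cm 3) j), ?_⟩
  · show dz v (bas true E8 (emb3 a)) = _
    rw [F8_eq a ha, h, ft, (cm23 a ha).1, (cm23 a ha).2]
  · have h2 : cm 2 (chx lam a) = _ := cm_chan 2 lam a
    have h3 : cm 3 (chx lam a) = _ := cm_chan 3 lam a
    simp only [ft, h2, h3, mul_pow, ← pow_mul]
    rw [← mul_assoc (lam ^ 2), ← pow_add, ← e, pow_add]
    ring
  · have : i ≠ 0 ∨ j ≠ 0 := by omega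
    rcases this with h | h <;> simp [ft, cm, h]

theorem rl_all : List.Forall₂ Rl VD fs := by
  unfold VD fs
  repeat' apply List.Forall₂.cons
  on_goal 10 => exact List.Forall₂.nil
  all_goals
    refine rl_ft _ _ _ _ (by norm_num) (by norm_num) fun s2 s3 s4 => ?_
    simp [dz, dot, E8, mono]
    ring

def lin : List ℤ → List (List ℤ × ℕ) → List ℤ
  | c :: cs, p :: ps => vadd (· + ·) (p.1.map fun b => c * b) (lin cs ps)
  | _, _ => []

def chM : List ℤ → List (List ℤ × ℕ) → Mat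
  | c :: cs, p :: ps => madd (outer (c * (-1) ^ p.2) (ei p.2) p.1) (chM cs ps)
  | _, _ => List.replicate 7 []

noncomputable def polL : List ℤ → List Fn → Fn
  | c :: cs, f :: l => (c : ℝ) • f + polL cs l
  | _, _ => 0

theorem pol_gen {ps : List (List ℤ × ℕ)} {l : List Fn} (h : List.Forall₂ Rl ps l) (c : List ℤ) :
    (∀ a ∈ Sx 3, dz (lin c ps) (env8.F a) = 3 ^ 8 * polL c l a) ∧
    (∀ lam, ∀ a ∈ Sx 3, lam ^ 2 * bil (chM c ps) (bas (sZ 6).m (sZ 6).E ⟨1, -lam, 0, 0⟩) (env8.F a) =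
      3 ^ 8 * polL c l (chx lam a)) ∧ polL c l ∈ DC ∧ polL c l (fun _ => 1) = 0 := by
  induction h generalizing c with
  | nil => cases c <;> simp [lin, chM, polL, bil_rep, dz, dot, -List.reduceReplicate]
  | cons h _ ih =>
    cases c with
    | nil => simp [lin, chM, polL, bil_rep, dz, dot, -List.reduceReplicate]
    | cons c cs =>
      obtain ⟨h1, h2, h3, h4, h5⟩ := h
      obtain ⟨i1, i2, i3, i4⟩ := ih cs
      refine ⟨fun a ha => ?_, fun lam a ha => ?_, DC.add_mem (DC.smul_mem _ h4) i3, ?_⟩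
      · simp only [lin, polL, dz_vadd, dz_map, h2 a ha, i1 a ha, Pi.add_apply, Pi.smul_apply,
          smul_eq_mul]
        ring
      · simp only [chM, polL, bil_madd, bil_outer, dz_sZ _ _ h1, h2 a ha, mul_add, i2 lam a ha,
          Pi.add_apply, Pi.smul_apply, smul_eq_mul, h3]
        push_cast
        rw [neg_pow lam]
        rename_i p f _ _ _
        have e : ((-1 : ℝ) ^ p.2) * (-1) ^ p.2 = 1 := by rw [← mul_pow]; simp
        linear_combination (lam ^ 2 * c * lam ^ p.2 * 3 ^ 8 * f a) * e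
      · simp [polL, h5, i4]

noncomputable def pol (c : List ℤ) : Fn := polL c fs

theorem pol_dz (c : List ℤ) : ∀ a ∈ Sx 3, dz (lin c VD) (env8.F a) = 3 ^ 8 * pol c a :=
  (pol_gen rl_all c).1
theorem pol_dc (c : List ℤ) : pol c ∈ DC := (pol_gen rl_all c).2.2.1
theorem pol_one (c : List ℤ) : pol c (fun _ => 1) = 0 := (pol_gen rl_all c).2.2.2
theorem pol_nil : pol [] = 0 := rfl
theorem pol_A (c : ℤ) (a : Fin 3 → ℝ) : pol [c] a = c * chi a := by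
  simp [pol, polL, fs, ft, cm, chi]

def RB (p r : ℕ) : Q :=
  ⟨⟨1, 1, 1, 0⟩, ⟨r, 3 * p + r, 3 * p + r, 0⟩, ⟨3 * p + 2 * r, 3 * p + 2 * r, 6 * p + 2 * r, 0⟩,
    ⟨0, 0, 0, 0⟩⟩

theorem sortB {p r : ℕ} (hp : 0 < p) {ρ : ℝ} (hρ : ρ * (2 * p + r) = p) (a : Fin 3 → ℝ)
    (ha : a ∈ Sx 3) (hb : ∀ i, a i ≤ 1 + ρ) :
    ∃ x, cone (RB p r) x ∧ bas true E8 x = env8.F a := by
  obtain ⟨σ, hσ⟩ := sort_ex a
  have h01 : a (σ 0) ≤ a (σ 1) := hσ (by decide : (0 : Fin 3) ≤ 1)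
  have h12 : a (σ 1) ≤ a (σ 2) := hσ (by decide : (1 : Fin 3) ≤ 2)
  have hs := ha.2
  rw [← Equiv.sum_comp σ a, Fin.sum_univ_three] at hs
  push_cast at hs
  have p0 : (0 : ℝ) < p := by exact_mod_cast hp
  have r0 : (0 : ℝ) ≤ r := by positivity
  have h2 := mul_le_mul_of_nonneg_right (hb (σ 2)) (show (0 : ℝ) ≤ 2 * p + r by positivity)
  refine ⟨⟨a (σ 0), a (σ 1), a (σ 2), 0⟩, ⟨⟨((3 * p + r) - (2 * p + r) * a (σ 2)) / p,
    (a (σ 1) - a (σ 0)) / (3 * p), (a (σ 2) - a (σ 1)) / (3 * p), 0⟩,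
    ⟨div_nonneg (by nlinarith) p0.le, div_nonneg (by linarith) (by positivity),
      div_nonneg (by linarith) (by positivity), le_rfl⟩, ?_⟩, ?_⟩
  · have e : a (σ 0) = 3 - a (σ 1) - a (σ 2) := by linarith
    simp only [pt, RB, W4.mk.injEq, e]
    push_cast
    refine ⟨?_, ?_, ?_, ?_⟩
    · field_simp; ring
    · field_simp; ring
    · field_simp; ring
    · ring
  · show _ = bas true E8 (emb3 a)
    unfold bas
    congr 2
    rw [gens3, ← Equiv.sum_comp σ a, ← Equiv.sum_comp σ fun i => a i ^ 2,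
      ← Equiv.sum_comp σ fun i => a i ^ 3, ← Equiv.sum_comp σ fun i => a i ^ 4]
    simp only [gens, cond_true, Fin.sum_univ_three, W4.mk.injEq]
    refine ⟨?_, ?_, ?_, ?_⟩ <;> ring

/-- data of a one-step bound -/
structure LD where
  f : List ℤ
  g : List ℤ
  φ : List ℤ
  ψ : List ℤ
  κ : ℤ
  cs : List ℤ
  Sp : ℤ
  K : ℤ
  cc : ℤ

def LD.G (x : LD) : Mat :=
  madd (mkG0 (x.cs.zip tab8)) (madd (madd (outer (-x.K) (ei 0) (lin x.f VD))
    (outer (-x.K) (lin x.g VD) (ei 0))) (madd (madd (outer (-x.K) (lin [1] VD) (lin x.φ VD))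
    (outer (-x.K) (lin x.ψ VD) (lin [1] VD))) (outer (x.K * x.κ) (lin [1] VD) (lin [1] VD))))

def LD.H (x : LD) : Mat := mkH 3 8 10 x.Sp (lin x.f VD) (x.cs.zip tab8)

def LD.ok (x : LD) (G H : Mat) : Bool :=
  decide (x.G = G) && decide (x.H = H) && decide (0 < x.Sp) && decide (0 ≤ x.cc) &&
    decide (x.K * 3 ^ 8 = 6 * x.Sp)

theorem LD.low (x : LD) {G H : Mat} (h : x.ok G H = true) {p r : ℕ} (hp : 0 < p) {ρ : ℝ}
    (hρ : ρ * (2 * p + r) = p) {tG tH : Tr}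
    (hG : ((leaves tG (RB p r) R3 []).drop 0).all (leafOK s8 s8 G []) = true)
    (hH : ((leaves tH (rZ 3) R3 []).drop 0).all (leafOK (sZ 10) s8 H (mkCon 3 x.cc 0 1)) = true) :
    Low ρ (pol x.f) (pol x.g) (pol x.φ) (pol x.ψ) x.κ := by
  simp only [LD.ok, Bool.and_eq_true, decide_eq_true_eq] at h
  obtain ⟨⟨⟨⟨rfl, rfl⟩, h3⟩, h4⟩, h5⟩ := h
  intro b hb hB a ha
  have l1 := env8.lower x.cs x.Sp x.cc h4 (lin x.f VD) (pol x.f)
    (fun a ha => by rw [pol_dz _ a ha]; simp [env8, s8]) hH b hb a ha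
  obtain ⟨u, hu, e1⟩ := sortB hp hρ b hb hB
  obtain ⟨w, hw, e2⟩ := env8.hsort a ha
  have l2 := tree_sound hG hu hw (by simp [bil, dot])
  have e1' : bas s8.m s8.E u = env8.F b := e1
  have e2' : bas s8.m s8.E w = env8.F a := e2
  have z1 : dz (ei 0) (env8.F a) = 3 ^ 8 := by simpa [env8, s8] using env8.h0 a ha
  have z2 : dz (ei 0) (env8.F b) = 3 ^ 8 := by simpa [env8, s8] using env8.h0 b hb
  rw [e1', e2'] at l2
  simp only [LD.G, bil_madd, bil_outer, pol_dz _ a ha, pol_dz _ b hb, pol_A, z1, z2] at l2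
  have t1 : env8.tab = tab8 := rfl
  have t2 : (((3 : ℕ) : ℝ)) ^ env8.s.D = 3 ^ 8 := by simp [env8, s8]
  rw [t1, t2] at l1
  have h3' : (0 : ℝ) < x.Sp := by exact_mod_cast h3
  have h5' : (x.K : ℝ) = 6 * x.Sp / 3 ^ 8 := by
    rw [eq_div_iff (by norm_num)]
    exact_mod_cast h5
  push_cast at l2
  rw [h5'] at l2
  refine le_of_mul_le_mul_left ?_ (show (0 : ℝ) < x.Sp * 3 ^ 8 by positivity)
  linarith

theorem low0 {ρ : ℝ} {m k : ℤ} (h : Low ρ (pol [-10000]) (pol [-m]) (pol []) (pol []) k) :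
    Low ρ (fun a => -chi a) (fun a => -((m : ℝ) / 10000) * chi a) 0 0 (k / 10000) := by
  intro b hb hB a ha
  have := h b hb hB a ha
  have e : ∀ u, hom (pol [-10000]) u = 10000 * hom (fun a => -chi a) u := fun u => by
    simp only [hom, pol_A]
    push_cast
    ring
  simp only [e, ← Finset.mul_sum, pol_A, pol_nil, Pi.zero_apply] at this ⊢
  push_cast at this
  linarith

def rL (n z0 z1 : ℕ) : Q := ⟨⟨n, z0, 0, 0⟩, ⟨n, z1, 0, 0⟩, ⟨0, 0, 0, 0⟩, ⟨0, 0, 0, 0⟩⟩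

def mkC (q1 q2 p : List ℤ) (g : ℤ) : Mat :=
  madd (madd (chM q1 VD) (chM q2 VD))
    (madd (outer (-1) (ei 0) (lin p VD)) (outer (-g) (ei 0) (lin [1] VD)))

theorem chan_of {q1 q2 p : List ℤ} {g : ℤ} {n z0 z1 : ℕ} {t : Tr} {ρ' ρ : ℝ} (hn : 0 < n)
    (hz : z0 < z1) (h0 : ρ' * n = z0) (h1 : ρ * n = z1)
    (h : ((leaves t (rL n z0 z1) R3 []).drop 0).all (leafOK (sZ 6) s8 (mkC q1 q2 p g) []) = true) :
    ∀ lam, -ρ ≤ lam → lam ≤ -ρ' → ∀ x ∈ Sx 3,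
      lam ^ 2 * (g * chi x + pol p x) ≤ pol q1 (chx lam x) + pol q2 (chx lam x) := by
  intro lam l0 l1 a ha
  have n0 : (0 : ℝ) < n := by exact_mod_cast hn
  have hz' : (0 : ℝ) < z1 - z0 := sub_pos.2 (by exact_mod_cast hz)
  obtain ⟨w, hw, e2⟩ := env8.hsort a ha
  have hc : cone (rL n z0 z1) ⟨1, -lam, 0, 0⟩ := by
    refine ⟨⟨(ρ + lam) / (z1 - z0), (-lam - ρ') / (z1 - z0), 0, 0⟩, ⟨div_nonneg (by linarith) hz'.le,
      div_nonneg (by linarith) hz'.le, le_rfl, le_rfl⟩, ?_⟩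
    simp only [pt, rL, W4.mk.injEq]
    push_cast
    refine ⟨?_, ?_, by ring, by ring⟩
    · field_simp
      linear_combination h1 - h0
    · field_simp
      linear_combination (-ρ) * h0 + ρ' * h1
  have l2 := mul_nonneg (sq_nonneg lam) (tree_sound h hc hw (by simp [bil, dot]))
  have e2' : bas s8.m s8.E w = env8.F a := e2
  rw [e2'] at l2
  simp only [mkC, bil_madd, bil_outer, mul_add, (pol_gen rl_all _).2.1 lam a ha, pol_dz _ a ha, pol_A,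
    dz_sZ 6 0 (by norm_num)] at l2
  push_cast at l2
  unfold pol at *
  linarith

/-- data of a full certificate -/
structure CD where
  P : LD
  A : LD
  B : LD
  g1 : ℤ
  g2 : ℤ

theorem CD.cert (x : CD) {ρ' ρ η α2 α3 α4 : ℝ} {m0 m1 k0 : ℤ} (h0 : 0 ≤ k0) (hm0 : 0 ≤ m0)
    (hm1 : 0 ≤ m1) (h1 : 0 ≤ x.A.κ) (h2 : 0 ≤ x.B.κ)
    (I0 : Low ρ (pol [-10000]) (pol [-m1]) (pol []) (pol []) k0)
    (I00 : Low ρ (pol [-10000]) (pol [-m0]) (pol []) (pol []) (0 : ℤ))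
    (IP : Low ρ (pol x.P.f) (pol x.P.g) (pol x.A.f) (pol x.P.ψ) (0 : ℤ))
    (I1 : Low ρ (pol x.A.f) (pol x.A.g) (pol []) (pol []) x.A.κ)
    (I2 : Low ρ (pol x.B.f) (pol x.B.g) (pol []) (pol []) x.B.κ)
    (C1 : ∀ lam, -ρ ≤ lam → lam ≤ -ρ' → ∀ a ∈ Sx 3, lam ^ 2 * ((0 : ℤ) * chi a + pol x.P.f a) ≤
      pol x.P.g (chx lam a) + pol [] (chx lam a))
    (C2 : ∀ lam, -ρ ≤ lam → lam ≤ -ρ' → ∀ a ∈ Sx 3, lam ^ 2 * (x.g1 * chi a + pol x.B.f a) ≤
      pol x.A.g (chx lam a) + pol x.B.g (chx lam a))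
    (C3 : ∀ lam, -ρ ≤ lam → lam ≤ -ρ' → ∀ a ∈ Sx 3, lam ^ 2 * (x.g2 * chi a + pol x.B.f a) ≤
      pol x.P.ψ (chx lam a) + pol x.B.g (chx lam a))
    (N1 : x.B.κ * (η * (m1 / 10000 + k0 / 10000 * (m0 / 10000) * η * α3) * α2) +
      x.A.κ * (η * (m1 / 10000 + k0 / 10000 * (m0 / 10000) * η * α4) * α3) < x.g1)
    (N2 : x.B.κ * (η * (m1 / 10000 + k0 / 10000 * (m0 / 10000) * η * α3) * α2) ≤ x.g2) :
    Nonempty (CertS ρ' ρ η α2 α3 α4) :=
  ⟨{ P := pol x.P.f, Q := pol x.P.g, φ := pol x.A.f, ψ := pol x.P.ψ, φ1 := pol x.A.g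
     F1 := pol x.B.f, S1 := pol x.B.g, k0 := k0 / 10000, m0 := m0 / 10000, m1 := m1 / 10000
     k1 := x.A.κ, k2 := x.B.κ, g1 := x.g1, g2 := x.g2
     dP := pol_dc _, dQ := pol_dc _, dφ := pol_dc _, dψ := pol_dc _, dφ1 := pol_dc _
     dF1 := pol_dc _, dS1 := pol_dc _, P1 := pol_one _, φ0 := pol_one _, F0 := pol_one _
     h0 := div_nonneg (by exact_mod_cast h0) (by norm_num)
     hm0 := div_nonneg (by exact_mod_cast hm0) (by norm_num)
     hm1 := div_nonneg (by exact_mod_cast hm1) (by norm_num)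
     h1 := by exact_mod_cast h1
     h2 := by exact_mod_cast h2
     I0 := low0 I0
     I00 := by simpa using low0 I00
     IP := by simpa using IP
     I1 := I1
     I2 := I2
     C1 := by simpa [pol_nil] using C1
     C2 := C2
     C3 := C3
     N1 := N1
     N2 := N2 }⟩

end Vale.Agent.P154.AF
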