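import Vale.Agent.P154.AF.BW

namespace Vale.Agent.P154.AF

open Filter Topology Tr

namespace Idm

/-- the monomial -/
noncomputable def mo (k : ℕ × ℕ × ℕ) (u : Fin 3 → ℝ) : ℝ :=
  rt (u 0) ^ (k.1 + k.2.1) * rt (u 1) ^ (k.1 + k.2.2) * rt (u 2) ^ k.1

lemma rt_nn {x : ℝ} (hx : 0 ≤ x) : 0 ≤ rt x := Real.rpow_nonneg hx _

lemma rt_mul {x y : ℝ} (hx : 0 ≤ x) (hy : 0 ≤ y) : rt (x * y) = rt x * rt y := Real.mul_rpow hx hy

lemma rt_pow {x : ℝ} (hx : 0 ≤ x) : rt x ^ 12 = x := by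
  rw [rt, ← Real.rpow_natCast, ← Real.rpow_mul hx]; norm_num

lemma mo_nn (k : ℕ × ℕ × ℕ) {u : Fin 3 → ℝ} (hu : ∀ i, 0 ≤ u i) : 0 ≤ mo k u :=
  mul_nonneg (mul_nonneg (pow_nonneg (rt_nn (hu _)) _) (pow_nonneg (rt_nn (hu _)) _))
    (pow_nonneg (rt_nn (hu _)) _)

lemma mo_mul (k : ℕ × ℕ × ℕ) {u w : Fin 3 → ℝ} (hu : ∀ i, 0 ≤ u i) (hw : ∀ i, 0 ≤ w i) :
    mo k (fun i => u i * w i) = mo k u * mo k w := by
  simp only [mo, rt_mul (hu _) (hw _), mul_pow]; ring

lemma ph_smul {k : ℕ × ℕ × ℕ} (hk : Ad k) {c : ℝ} (hc : 0 ≤ c) {a : Fin 3 → ℝ} (ha : ∀ i, 0 ≤ a i) :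
    ph k (fun i => c * a i) = c * ph k a := by
  have e : c = rt c ^ (3 * k.1 + k.2.1 + k.2.2) := by rw [hk, rt_pow hc]
  conv_rhs => rw [e]
  simp only [ph, Ph, ps, rt_mul hc (ha _), mul_pow]
  ring

lemma hom_ph {k : ℕ × ℕ × ℕ} (hk : Ad k) {u : Fin 3 → ℝ} (hu : ∀ i, 0 ≤ u i) :
    hom (ph k) u = ph k u := by
  rw [hom_eq, ← ph_smul hk (mean_nonneg hu) (nr_mem (by norm_num) hu).1]
  congr 1
  funext i
  exact (eq_mul_nr (by norm_num) hu i).symm

lemma ph_eq (k : ℕ × ℕ × ℕ) (u : Fin 3 → ℝ) : 6 * ph k u =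
    mo k u + mo k (fun i => u (Equiv.swap 0 1 i)) + mo k (fun i => u (Equiv.swap 0 2 i)) +
      mo k (fun i => u (Equiv.swap 1 2 i)) + mo k (fun i => u (Equiv.addRight 1 i)) +
      mo k (fun i => u (Equiv.addRight 2 i)) := by
  have a1 : Equiv.swap (0 : Fin 3) 1 2 = 2 := by decide
  have a2 : Equiv.swap (0 : Fin 3) 2 1 = 1 := by decide
  have a3 : Equiv.swap (1 : Fin 3) 2 0 = 0 := by decide
  have b0 : Equiv.addRight (1 : Fin 3) 0 = 1 := by decide
  have b1 : Equiv.addRight (1 : Fin 3) 1 = 2 := by decide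
  have b2 : Equiv.addRight (1 : Fin 3) 2 = 0 := by decide
  have c0 : Equiv.addRight (2 : Fin 3) 0 = 2 := by decide
  have c1 : Equiv.addRight (2 : Fin 3) 1 = 0 := by decide
  have c2 : Equiv.addRight (2 : Fin 3) 2 = 1 := by decide
  simp only [ph, Ph, ps, mo, Equiv.swap_apply_left, Equiv.swap_apply_right, a1, a2, a3, b0, b1, b2,
    c0, c1, c2, mul_pow]
  ring

variable {O O' : Type} {v : O → Fin 3 → ℝ} {w : O' → Fin 3 → ℝ} {k : ℕ × ℕ × ℕ}

lemma key (hk : Ad k) (hb : Bd (ph k)) (h : IsSys v) : HasSum (fun o => mo k (v o)) (E v (ph k)) := by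
  have h1 := (h.hasSum (by norm_num) hb).mul_left 6
  simp only [hom_ph hk (h.nn _), ph_eq] at h1
  have n : ∀ o (σ : Equiv.Perm (Fin 3)), 0 ≤ mo k fun i => v o (σ i) := fun o σ =>
    mo_nn k fun i => h.nn o _
  have hs : Summable fun o => mo k (v o) := by
    refine Summable.of_nonneg_of_le (fun o => mo_nn k (h.nn o)) (fun o => ?_) h1.summable
    have := n o (Equiv.swap 0 1)
    have := n o (Equiv.swap 0 2)
    have := n o (Equiv.swap 1 2)
    have := n o (Equiv.addRight 1)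
    have := n o (Equiv.addRight 2)
    linarith
  have p : ∀ σ : Equiv.Perm (Fin 3), HasSum (fun o => mo k fun i => v o (σ i)) (∑' o, mo k (v o)) := by
    intro σ
    obtain ⟨e, he⟩ := h.sym σ
    have := (e.hasSum_iff (f := fun o => mo k (v o))).2 hs.hasSum
    simp only [← he]
    exact this
  have h2 := h1.unique (((((hs.hasSum.add (p _)).add (p _)).add (p _)).add (p _)).add (p _))
  have h3 : E v (ph k) = ∑' o, mo k (v o) := by linarith
  rw [h3]
  exact hs.hasSum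

lemma E_pr (hk : Ad k) (hb : Bd (ph k)) (h : IsSys v) (h' : IsSys w) :
    E (pr v w) (ph k) = E v (ph k) * E w (ph k) := by
  have a1 := key hk hb h
  have a2 := key hk hb h'
  have a3 := a1.mul a2 (summable_mul_of_summable_norm a1.summable.norm a2.summable.norm)
  have e : (fun p : O × O' => mo k (pr v w p)) = fun p => mo k (v p.1) * mo k (w p.2) :=
    funext fun p => mo_mul k (h.nn _) (h'.nn _)
  exact (key hk hb (h.pr h')).unique (e ▸ a3)

lemma E_pw (hk : Ad k) (hb : Bd (ph k)) (h : IsSys v) :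
    ∀ j, E (pw v j) (ph k) = E v (ph k) ^ j
  | 0 => by
    rw [E_pw_zero (by norm_num), pow_zero]
    simp only [ph, Ph, ps, rt, Real.one_rpow, one_pow, mul_one]
    norm_num
  | j + 1 => by
    rw [pw_succ, E_comp, E_pr hk hb h (h.pw j), E_pw hk hb h j, pow_succ']

lemma chx_mem {lam : ℝ} (h0 : -1 / 2 ≤ lam) (h1 : lam ≤ 1) {a : Fin 3 → ℝ} (ha : a ∈ Sx 3) :
    chx lam a ∈ Sx 3 := by
  refine ⟨fun i => ?_, ?_⟩
  · have b1 := ha.1 i
    have b2 : a i ≤ 3 := by exact_mod_cast le_of_mem ha i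
    unfold chx
    rcases le_total 0 lam with c | c <;> nlinarith
  · unfold chx
    rw [Finset.sum_add_distrib, ← Finset.mul_sum, ha.2]
    simp only [Finset.sum_const, Finset.card_univ, Fintype.card_fin, nsmul_eq_mul]
    ring

lemma E_ch' (h : IsSys v) {lam : ℝ} (h0 : -1 / 2 ≤ lam) (h1 : lam ≤ 1) (f : (Fin 3 → ℝ) → ℝ) :
    E (ch lam v) f = E v (fun a => f (chx lam a)) := by
  unfold E
  congr 1
  funext o
  have : ch lam v o = fun i => mean (v o) * chx lam (nr (v o)) i := by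
    funext i
    rw [ch_eq]
    conv_lhs => rw [eq_mul_nr (by norm_num) (h.nn o) i]
    unfold chx
    ring
  rw [this, hom_smul, hom_of_mem (by norm_num) _ (chx_mem h0 h1 (nr_mem (by norm_num) (h.nn o))),
    hom_eq]

end Idm

open Idm in
theorem idS (h : StmtSys) (hc : StmtConc) : StmtId := by
  intro lam off h0 h1 ho k hk n
  have hb : Bd (ph k) := ⟨1, fun a ha => by
    have := (hc.2 k hk).2.2 a ha
    rw [abs_of_nonneg this.1]; exact this.2⟩
  have hs := h lam off h0 h1 ho n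
  have hs' := BWm.ch_sys hs h0 h1
  refine (hasSum_mx (by norm_num) hs' ho.1 ho.2 hb).tsum_eq.symm.trans (tsum_congr fun j => ?_)
  rw [E_pw hk hb hs', E_ch' hs h0 h1]

end Vale.Agent.P154.AF
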