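import Vale.Agent.P154.AF.SpecA

namespace Vale.Agent.P154.AF

open Filter Topology Tr

namespace Limm

variable {O : Type} {v : O → Fin 3 → ℝ}

lemma E_neg (f : (Fin 3 → ℝ) → ℝ) : E v (fun a => -f a) = -E v f := by
  simp only [E, hom, mul_neg, tsum_neg]

lemma bd_neg {f : (Fin 3 → ℝ) → ℝ} (h : Cvx fun a => -f a) : Bd f :=
  bd_of_cont (h.1.neg.congr fun a => neg_neg (f a))

lemma chx_mem {lam : ℝ} (h0 : -1 / 2 ≤ lam) (h1 : lam ≤ 1) {a : Fin 3 → ℝ} (ha : a ∈ Sx 3) :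
    chx lam a ∈ Sx 3 := by
  refine ⟨fun i => ?_, ?_⟩
  · have h2 := ha.1 i
    have h3 : a i ≤ 3 := by exact_mod_cast le_of_mem ha i
    unfold chx
    rcases le_total 0 lam with h | h <;> nlinarith
  · have := ha.2
    simp only [chx, Fin.sum_univ_three] at this ⊢
    push_cast at this ⊢
    linear_combination lam * this

lemma hsum (h : IsSys v) (f g : (ℕ × ℕ × ℕ) → (Fin 3 → ℝ) → ℝ) (L : List ((ℕ × ℕ × ℕ) × ℝ × ℝ))
    (hL : ∀ x ∈ L, Bd (f x.1) ∧ Bd (g x.1)) :
    HasSum (fun o => mean (v o) * (L.map fun x => x.2.1 * f x.1 (nr (v o)) +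
      x.2.2 * g x.1 (nr (v o))).sum) (L.map fun x => x.2.1 * E v (f x.1) + x.2.2 * E v (g x.1)).sum := by
  induction L with
  | nil => simp
  | cons x L ih =>
    have h1 := hL x (by simp)
    have h2 := (((h.hasSum' (by norm_num) h1.1).mul_left x.2.1).add
      ((h.hasSum' (by norm_num) h1.2).mul_left x.2.2)).add (ih fun y hy => hL y (by simp [hy]))
    simp only [List.map_cons, List.sum_cons]
    refine h2.congr_fun fun o => ?_
    ring

lemma tsum (Z N : (ℕ × ℕ × ℕ) → ℝ) (z n : ℕ → (ℕ × ℕ × ℕ) → ℝ) (L : List ((ℕ × ℕ × ℕ) × ℝ × ℝ))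
    (hL : ∀ x ∈ L, Tendsto (fun m => z m x.1) atTop (𝓝 (Z x.1)) ∧
      Tendsto (fun m => n m x.1) atTop (𝓝 (N x.1))) :
    Tendsto (fun m => (L.map fun x => x.2.1 * z m x.1 + x.2.2 * n m x.1).sum) atTop
      (𝓝 (L.map fun x => x.2.1 * Z x.1 + x.2.2 * N x.1).sum) := by
  induction L with
  | nil => simp
  | cons x L ih =>
    have h1 := hL x (by simp)
    simp only [List.map_cons, List.sum_cons]
    exact ((h1.1.const_mul _).add (h1.2.const_mul _)).add (ih fun y hy => hL y (by simp [hy]))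

end Limm

open Limm in
theorem limS (h : StmtSys) (ha : StmtAnti) (hc : StmtConc) (hi : StmtId) : StmtLim := by
  intro lam off G h0 h1 hoff hG hs
  have hS := h lam off h0 h1 hoff
  have cv : ∀ f, Cvx f → ∃ l, Tendsto (fun n => E (V 3 lam off n) f) atTop (𝓝 l) := fun f hf => by
    obtain ⟨C, hC⟩ := bd_of_cont hf.1
    refine ⟨_, tendsto_atTop_ciInf (ha lam off h0 h1 hoff f hf) ⟨-C, ?_⟩⟩
    rintro _ ⟨n, rfl⟩
    simpa using (hS n).E_le (by norm_num) bd_one (bd_of_cont hf.1) 0 (-C)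
      fun a ha => by linarith [(abs_le.1 (hC a ha)).1]
  have cv' : ∀ f : (Fin 3 → ℝ) → ℝ, Cvx (fun a => -f a) →
      ∃ l, Tendsto (fun n => E (V 3 lam off n) f) atTop (𝓝 l) := fun f hf => by
    obtain ⟨l, hl⟩ := cv _ hf
    exact ⟨-l, by simpa [E_neg] using hl.neg⟩
  have hZ : ∀ k, ∃ l, Ad k → Tendsto (fun n => E (V 3 lam off n) (ph k)) atTop (𝓝 l) := fun k => by
    by_cases c : Ad k
    · exact (cv' _ (hc.2 k c).1).imp fun _ h _ => h
    · exact ⟨0, fun d => absurd d c⟩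
  have hN : ∀ k, ∃ l, Ad k →
      Tendsto (fun n => E (V 3 lam off n) fun a => ph k (chx lam a)) atTop (𝓝 l) := fun k => by
    by_cases c : Ad k
    · exact (cv' _ ((hc.2 k c).2.1 lam h0 h1)).imp fun _ h _ => h
    · exact ⟨0, fun d => absurd d c⟩
  choose Z hZ using hZ
  choose N hN using hN
  obtain ⟨A, hA⟩ := cv chi hc.1
  refine ⟨Z, N, A, ⟨fun k hk => ⟨?_, ?_, ?_⟩, fun L μ γ hL hle => ?_⟩, hA⟩
  · refine tendsto_nhds_unique ((hZ k hk).comp (tendsto_add_atTop_nat 1))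
      (((hG.tendsto _).comp (hN k hk)).congr fun n => ?_)
    simp only [Function.comp, hi lam off h0 h1 hoff k hk n, hs]
  · exact ge_of_tendsto' (hN k hk) fun n => (hS n).E_nonneg (by norm_num)
      fun a ha => ((hc.2 k hk).2.2 _ (chx_mem h0 h1 ha)).1
  · refine le_of_tendsto' (hN k hk) fun n => ?_
    have := (hS n).E_le (by norm_num) (bd_neg ((hc.2 k hk).2.1 lam h0 h1)) bd_one 1 0
      fun a ha => by linarith [((hc.2 k hk).2.2 _ (chx_mem h0 h1 ha)).2]
    rw [(hS n).E_one (by norm_num)] at this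
    linarith
  · refine le_of_tendsto' ((Limm.tsum Z N (fun m k => E (V 3 lam off m) (ph k))
      (fun m k => E (V 3 lam off m) fun a => ph k (chx lam a)) L fun x hx =>
        ⟨hZ _ (hL x hx), hN _ (hL x hx)⟩).add (hA.const_mul μ)) fun n => ?_
    have a1 := (hsum (hS n) ph (fun k a => ph k (chx lam a)) L fun x hx =>
      ⟨bd_neg (hc.2 _ (hL x hx)).1, bd_neg ((hc.2 _ (hL x hx)).2.1 lam h0 h1)⟩).add
      (((hS n).hasSum' (by norm_num) (bd_of_cont cont_chi)).mul_left μ)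
    have a2 := ((hS n).hasSum_mean (by norm_num)).mul_right γ
    rw [one_mul] at a2
    refine hasSum_le (fun o => ?_) a1 a2
    have := mul_le_mul_of_nonneg_left (hle _ (nr_mem (by norm_num) ((hS n).nn o)))
      (mean_nonneg ((hS n).nn o))
    linarith

end Vale.Agent.P154.AF
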