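import Vale.Agent.P154.AF.Sys
import Vale.Agent.P154.AF.BW
import Vale.Agent.P154.AF.Conc
import Vale.Agent.P154.AF.Id
import Vale.Agent.P154.AF.Lim

namespace Vale.Agent.P154.AF

open Filter Topology Tr

namespace Gl

theorem anti : StmtAnti := antiS sysS
theorem cmp : StmtCmp := cmpS sysS
theorem lim : StmtLim := limS sysS anti concS (idS sysS concS)

noncomputable def tv (a : Fin 3 → ℝ) : ℝ := 1 / 2 * ∑ i, |a i / 3 - 1 / 3|

lemma tv_cvx : Cvx tv := by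
  refine ⟨by unfold tv; fun_prop, concS.1.2.1, fun x _ y _ a b ha hb hab => ?_⟩
  have k : ∀ i, |(a • x + b • y) i / 3 - 1 / 3| ≤ a * |x i / 3 - 1 / 3| + b * |y i / 3 - 1 / 3| :=
    fun i => by
      rw [show (a • x + b • y) i / 3 - 1 / 3 = a * (x i / 3 - 1 / 3) + b * (y i / 3 - 1 / 3) by
        simp only [Pi.add_apply, Pi.smul_apply, smul_eq_mul]
        linear_combination (1 / 3 : ℝ) * hab]
      refine (abs_add_le _ _).trans (le_of_eq ?_)
      rw [abs_mul, abs_mul, abs_of_nonneg ha, abs_of_nonneg hb]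
  have := Finset.sum_le_sum (s := Finset.univ) fun i _ => k i
  rw [Finset.sum_add_distrib, ← Finset.mul_sum, ← Finset.mul_sum] at this
  simp only [tv, smul_eq_mul]
  linarith

lemma adv_eq {lam : ℝ} {off : ℕ → ℝ} {n : ℕ} (h : IsSys (V 3 lam off n)) :
    adv 3 lam off n = ENNReal.ofReal (E (V 3 lam off n) tv) := by
  have s := h.hasSum (by norm_num) (bd_of_cont tv_cvx.1)
  rw [← s.tsum_eq, ENNReal.ofReal_tsum_of_nonneg _ s.summable]
  · refine tsum_congr fun o => congrArg _ ?_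
    simp only [hom, mean, tv, V, Nat.cast_ofNat]
    congr 2
    refine Finset.sum_congr rfl fun i _ => ?_
    rw [div_div, div_mul_cancel₀ _ (by norm_num)]
  · intro o
    have := mean_nonneg (h.nn o)
    rw [hom_eq]
    unfold tv
    positivity

lemma adv_zero {lam lam' : ℝ} {off off' : ℕ → ℝ} (h0 : -1 / 2 ≤ lam') (h1 : lam' ≤ lam)
    (h2 : lam ≤ 0) (o : Off off) (o' : Off off') (hs : St off off')
    (h : Tendsto (adv 3 lam' off') atTop (𝓝 0)) : Tendsto (adv 3 lam off) atTop (𝓝 0) := by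
  refine tendsto_of_tendsto_of_tendsto_of_le_of_le tendsto_const_nhds h (fun _ => zero_le)
    fun n => ?_
  rw [adv_eq (sysS lam off (by linarith) (by linarith) o n),
    adv_eq (sysS lam' off' h0 (by linarith) o' n)]
  exact ENNReal.ofReal_le_ofReal (cmp lam lam' off off' h0 h1 h2 o o' hs tv tv_cvx n)

lemma offP {d : ℝ} (hd : 0 < d) : Off (offPoi d) := ⟨(offs.2 d hd).1, (offs.2 d hd).2.1⟩
lemma offR {d : ℕ} (hd : 2 ≤ d) : Off (offReg d) := ⟨(offs.1 d hd).1, (offs.1 d hd).2.1⟩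

lemma run {lam lam0 η A : ℝ} {off off0 : ℕ → ℝ} {G : ℝ → ℝ} (hB : Big lam0 G η)
    (h0 : -1 / 2 ≤ lam0) (h1 : lam0 ≤ lam) (h2 : lam ≤ 0) (o : Off off) (o0 : Off off0)
    (hs : St off off0) (hG : Continuous G) (hg : ∀ s, ∑' j, off0 j * s ^ j = G s)
    (h : Tendsto (fun n => E (V 3 lam off n) chi) atTop (𝓝 A)) : A ≤ η := by
  obtain ⟨Z, N, A0, k1, k2⟩ := lim lam0 off0 G h0 (by linarith) o0 hG hg
  exact (le_of_tendsto_of_tendsto' h k2 fun n =>
    cmp lam lam0 off off0 h0 h1 h2 o o0 hs chi concS.1 n).trans (hB Z N A0 k1).le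

end Gl

open Gl

/-- a run for the Poisson law of mean `D` covers the critical points with `lam0 ≤ lam ≤ lam1` -/
theorem run_poi {lam0 lam1 D η : ℝ} (hB : Big lam0 (fun s => Real.exp (-(D * (1 - s)))) η)
    (h0 : -1 / 2 ≤ lam0) (h1 : lam1 < 0) (hD : 1 ≤ D * lam1 ^ 2) {lam d A : ℝ} (a0 : lam0 ≤ lam)
    (a1 : lam ≤ lam1) (hd : d * lam ^ 2 = 1)
    (h : Tendsto (fun n => E (V 3 lam (offPoi d) n) chi) atTop (𝓝 A)) : A ≤ η := by
  have l1 : 0 < lam1 ^ 2 := by nlinarith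
  have l2 : lam1 ^ 2 ≤ lam ^ 2 := by nlinarith
  have d0 : 0 < d := by
    by_contra k
    nlinarith [not_lt.1 k]
  have dD : d ≤ D := by
    by_contra k
    nlinarith [not_le.1 k, mul_le_mul_of_nonneg_left l2 d0.le]
  exact run hB h0 a0 (by linarith) (offP d0) (offP (by linarith)) (stS.2.1 d D d0 dD) (by fun_prop)
    (stS.2.2.2 D) h

/-- a run for the `d`-ary tree covers its critical point -/
theorem run_reg {lam0 η : ℝ} {d : ℕ} (hB : Big lam0 (fun s => s ^ d) η) (h0 : -1 / 2 ≤ lam0)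
    (h1 : lam0 ≤ 0) (h2 : 2 ≤ d) (hD : 1 ≤ d * lam0 ^ 2) {lam A : ℝ} (a1 : lam ≤ 0)
    (hd : d * lam ^ 2 = 1)
    (h : Tendsto (fun n => E (V 3 lam (offReg d) n) chi) atTop (𝓝 A)) : A ≤ η := by
  have d0 : (0 : ℝ) < d := by positivity
  have a0 : lam0 ≤ lam := by
    by_contra k
    have := not_le.1 k
    have : lam0 ^ 2 < lam ^ 2 := by nlinarith
    nlinarith
  exact run hB h0 a0 a1 (offR h2) (offR h2) (stS.1 d d le_rfl) (by fun_prop) (stS.2.2.1 d) h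

/-- from the critical curve to all parameters, Poisson offspring -/
theorem glue_poi (h : ∀ lam d A : ℝ, -1 / 2 ≤ lam → lam < 0 → d * lam ^ 2 = 1 →
      Tendsto (fun n => E (V 3 lam (offPoi d) n) chi) atTop (𝓝 A) →
      Tendsto (adv 3 lam (offPoi d)) atTop (𝓝 0))
    (lam d : ℝ) (h0 : -1 / 2 ≤ lam) (h1 : lam < 0) (hd : 0 < d) (hl : d * lam ^ 2 ≤ 1) :
    Tendsto (adv 3 lam (offPoi d)) atTop (𝓝 0) := by
  have l1 : 0 < lam ^ 2 := by nlinarith
  have o := offP (inv_pos.2 l1)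
  obtain ⟨-, -, A, -, k⟩ := lim lam _ _ h0 (by linarith) o (by fun_prop) (stS.2.2.2 (lam ^ 2)⁻¹)
  refine adv_zero h0 le_rfl h1.le (offP hd) o (stS.2.1 _ _ hd ?_)
    (h lam _ A h0 h1 (inv_mul_cancel₀ l1.ne') k)
  rwa [← one_div, le_div_iff₀ l1]

/-- from the critical curve to all parameters, regular trees -/
theorem glue_reg (h : ∀ (d : ℕ) (lam A : ℝ), 4 ≤ d → -1 / 2 ≤ lam → lam < 0 → d * lam ^ 2 = 1 →
      Tendsto (fun n => E (V 3 lam (offReg d) n) chi) atTop (𝓝 A) →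
      Tendsto (adv 3 lam (offReg d)) atTop (𝓝 0))
    (lam : ℝ) (d : ℕ) (h0 : -1 / 2 ≤ lam) (h1 : lam < 0) (hd : 2 ≤ d) (hl : d * lam ^ 2 ≤ 1) :
    Tendsto (adv 3 lam (offReg d)) atTop (𝓝 0) := by
  obtain ⟨e, e4, de, he⟩ : ∃ e : ℕ, 4 ≤ e ∧ d ≤ e ∧ e * lam ^ 2 ≤ 1 := by
    rcases le_total d 4 with k | k
    · exact ⟨4, le_rfl, k, by push_cast; nlinarith⟩
    · exact ⟨d, k, le_rfl, hl⟩
  have e0 : (4 : ℝ) ≤ e := by exact_mod_cast e4
  obtain ⟨r, r0, hr⟩ : ∃ r : ℝ, 0 < r ∧ e * r ^ 2 = 1 :=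
    ⟨Real.sqrt (e : ℝ)⁻¹, by positivity, by
      rw [Real.sq_sqrt (by positivity), mul_inv_cancel₀ (by linarith)]⟩
  have r1 : -1 / 2 ≤ -r := by
    by_contra k
    nlinarith [not_le.1 k]
  have r2 : -r ≤ lam := by
    by_contra k
    have := not_le.1 k
    have : r ^ 2 < lam ^ 2 := by nlinarith
    nlinarith
  have o := offR (show 2 ≤ e by omega)
  obtain ⟨-, -, A, -, k⟩ := lim (-r) _ _ r1 (by linarith) o (by fun_prop) (stS.2.2.1 e)
  exact adv_zero r1 r2 h1.le (offR hd) o (stS.1 d e de)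
    (h e (-r) A e4 r1 (by linarith) (by rw [neg_sq, hr]) k)

end Vale.Agent.P154.AF
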