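import Vale.Agent.P154.AF.SpecB

/-! P154: soundness of the packed sign test. -/

namespace Vale.Agent.P154.AF.Ck

open Finset

namespace Negm

theorem dgt (B : ℕ) (j : ℕ) : ∀ (n : ℕ) (D : ℕ → ℕ), (∀ i < n, D i < B) → j < n →
    (∑ i ∈ range n, D i * B ^ i) / B ^ j % B = D j := by
  induction j with
  | zero =>
    intro n D hD hj
    obtain ⟨n, rfl⟩ : ∃ m, n = m + 1 := ⟨n - 1, by omega⟩
    rw [sum_range_succ', pow_zero, Nat.div_one, mul_one]
    simp only [pow_succ, ← mul_assoc, ← sum_mul]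
    rw [Nat.mul_add_mod_of_lt (hD 0 hj)]
  | succ j ih =>
    intro n D hD hj
    obtain ⟨n, rfl⟩ : ∃ m, n = m + 1 := ⟨n - 1, by omega⟩
    have h0 := hD 0 (by omega)
    rw [sum_range_succ', pow_zero, mul_one, pow_succ' B j, ← Nat.div_div_eq_div_mul]
    simp only [pow_succ, ← mul_assoc, ← sum_mul]
    rw [add_comm, Nat.add_mul_div_right _ _ (by omega), Nat.div_eq_of_lt h0, zero_add]
    exact ih n (fun i => D (i + 1)) (fun i hi => hD _ (by omega)) (by omega)

theorem tb (n j : ℕ) (D : ℕ → ℕ) (hD : ∀ i < n, D i < 2 ^ 128) (hj : j < n) :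
    (∑ i ∈ range n, D i * (2 ^ 128) ^ i).testBit (127 + 128 * j) = (D j).testBit 127 := by
  rw [← dgt _ j n D hD hj, Nat.testBit_mod_two_pow, ← pow_mul, Nat.testBit_div_two_pow]
  simp

theorem ones_eq (n : ℕ) : ones n = ∑ i ∈ range n, (2 ^ 128) ^ i := by
  rw [Nat.geomSum_eq (by norm_num), ← pow_mul, ones]

theorem bit (n : ℕ) (D : ℕ → ℕ) (hD : ∀ i < n, D i < 2 ^ 128)
    (h : (∑ i ∈ range n, D i * (2 ^ 128) ^ i) &&& (2 ^ 127 * ones n) = 0) (j : ℕ) (hj : j < n) :
    D j < 2 ^ 127 := by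
  by_contra k
  have a := congrArg (fun x => x.testBit (127 + 128 * j)) h
  simp only [Nat.testBit_and, Nat.zero_testBit] at a
  rw [tb n j D hD hj, ones_eq, mul_sum, tb n j (fun _ => 2 ^ 127) (fun _ _ => by norm_num) hj,
    Nat.testBit_two_pow_self,
    Nat.testBit_of_two_pow_le_and_two_pow_add_one_gt (not_lt.1 k) (hD j hj)] at a
  simp at a

theorem acc_eq (cs : List ℤ) : ∀ (ts : List ℕ) (p m : ℕ), ∃ p' m' : ℕ,
    (∀ k : ℕ → ℕ → Bool, acc cs ts p m k = k p' m') ∧
    (p' : ℤ) - m' = p - m + ∑ f ∈ range cs.length, cs.getD f 0 * (ts.getD f 0 : ℕ) := by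
  induction cs with
  | nil => intro ts p m; exact ⟨p, m, fun k => by simp [acc], by simp⟩
  | cons c cs ih =>
    intro ts p m
    cases ts with
    | nil => exact ⟨p, m, fun k => by simp [acc], by simp⟩
    | cons t ts =>
      by_cases h : c < 0
      · obtain ⟨p', m', h1, h2⟩ := ih ts p (m + c.natAbs * t)
        refine ⟨p', m', fun k => by rw [acc, if_pos h, frc_eq, h1], ?_⟩
        rw [h2, List.length_cons, sum_range_succ']
        simp only [List.getD_cons_succ, List.getD_cons_zero]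
        push_cast
        rw [abs_of_neg h]
        ring
      · obtain ⟨p', m', h1, h2⟩ := ih ts (p + c.natAbs * t) m
        refine ⟨p', m', fun k => by rw [acc, if_neg h, frc_eq, h1], ?_⟩
        rw [h2, List.length_cons, sum_range_succ']
        simp only [List.getD_cons_succ, List.getD_cons_zero]
        push_cast
        rw [abs_of_nonneg (not_lt.1 h)]
        ring

theorem lsum {M : Type} [AddCommMonoid M] (n : ℕ) (g : ℕ → M) :
    ((List.range n).map g).sum = ∑ i ∈ range n, g i := by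
  induction n with
  | zero => simp
  | succ n ih => rw [List.range_succ, List.map_append, List.sum_append, ih, sum_range_succ]; simp

end Negm

open Negm

theorem negS : StmtNeg := by
  rintro E n Tb S c ⟨w, hw, -, hT, hS⟩ h y hy
  obtain ⟨p, m, h1, h2⟩ := acc_eq ((List.range 26).map (cof c)) Tb 0 0
  rw [neg, fLZ_eq, frc_eq, h1, fZ_eq, List.map_map, lsum, lsum] at h
  simp only [Bool.and_eq_true, decide_eq_true_eq, Nat.beq_eq, Function.comp] at h
  obtain ⟨a1, a2, a3⟩ := h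
  obtain ⟨sa, hsa⟩ : ∃ sa, sa = ∑ i ∈ range 26, (cof c i).natAbs := ⟨_, rfl⟩
  rw [← hsa] at a1 a2 a3
  obtain ⟨er, her⟩ : ∃ er, er = sa * (11025 * (E + 36)) := ⟨_, rfl⟩
  rw [← her] at a2 a3
  obtain ⟨t, ht⟩ : ∃ t : ℕ → ℤ, t = fun i => ∑ f ∈ range 26, cof c f * w f i := ⟨_, rfl⟩
  have tb : ∀ i, |t i| ≤ sa * 2 ^ 82 := fun i => by
    rw [ht, hsa]
    push_cast
    rw [sum_mul]
    refine (abs_sum_le_sum_abs _ _).trans (sum_le_sum fun f _ => ?_)
    rw [abs_mul]
    exact mul_le_mul_of_nonneg_left (hw f i) (abs_nonneg _)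
  have tb' : ∀ i, -2 ^ 126 < t i ∧ t i < 2 ^ 126 := fun i => by
    have := abs_le.1 (tb i)
    have : (sa : ℤ) < 2 ^ 44 := by exact_mod_cast a1
    constructor <;> omega
  have e2 : (er : ℤ) < 2 ^ 126 := by exact_mod_cast a2
  obtain ⟨D, hD⟩ : ∃ D : ℕ → ℕ, ∀ i, (D i : ℤ) = t i + er + (2 ^ 127 - 1) :=
    ⟨fun i => (t i + er + (2 ^ 127 - 1)).toNat, fun i =>
      Int.toNat_of_nonneg (by have := tb' i; omega)⟩
  have h3 : (p : ℤ) - m = ∑ f ∈ range 26, cof c f * ∑ i ∈ range n, (w f i + 2 ^ 82) * (2 ^ 128) ^ i := by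
    rw [h2, List.length_map, List.length_range]
    simp only [Nat.cast_zero, sub_zero, zero_add]
    refine sum_congr rfl fun f hf => ?_
    rw [hT f (mem_range.1 hf), List.getD_eq_getElem _ _ (by simpa using hf)]
    simp only [List.getElem_map, List.getElem_range, pow_mul]
  obtain ⟨H, hH⟩ : ∃ H : ℤ, H = 2 ^ 127 - 1 + er - (∑ i ∈ range 26, cof c i) * 2 ^ 82 := ⟨_, rfl⟩
  rw [← hH] at a3
  have h4 : ((∑ i ∈ range n, D i * (2 ^ 128) ^ i : ℕ) : ℤ) = p - m + H * ones n := by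
    rw [h3, ones_eq]
    simp only [Nat.cast_sum, Nat.cast_mul, Nat.cast_pow, Nat.cast_ofNat, mul_sum]
    rw [sum_comm, ← sum_add_distrib]
    refine sum_congr rfl fun i _ => ?_
    rw [hD, hH, ht]
    generalize ((2 : ℤ) ^ 128) ^ i = B
    simp only [← mul_assoc, ← sum_mul, mul_add, sum_add_distrib]
    ring
  have h5 : p + H.toNat * ones n - ((-H).toNat * ones n + m) = ∑ i ∈ range n, D i * (2 ^ 128) ^ i := by
    have e : (H.toNat : ℤ) * ones n - (-H).toNat * ones n = H * ones n := by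
      rw [← sub_mul, Int.toNat_sub_toNat_neg]
    generalize ∑ i ∈ range n, D i * (2 ^ 128) ^ i = Z at h4 ⊢
    apply Nat.sub_eq_of_eq_add
    zify
    linarith
  rw [h5] at a3
  have h6 := bit n D (fun i _ => by have := tb' i; have := hD i; omega) a3
  have h7 := hS y hy (cof c) (-er) fun i hi => by
    have a := h6 i hi
    have b := hD i
    rw [ht] at b
    simp only at b
    omega
  have h8 : ((-er : ℤ) : ℝ) + (∑ f ∈ range 26, |(cof c f : ℝ)|) * (11025 * (E + 36)) = 0 := by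
    have e : ∑ f ∈ range 26, |(cof c f : ℝ)| = (sa : ℝ) := by
      rw [hsa, Nat.cast_sum]
      exact sum_congr rfl fun f _ => by rw [Nat.cast_natAbs, Int.cast_abs]
    rw [e, Int.cast_neg, Int.cast_natCast, her]
    push_cast
    ring
  rw [h8] at h7
  have h9 : ∑ f ∈ range 26, (cof c f : ℝ) * (11025 * 2 ^ 40 * y.getD f 0) =
      11025 * 2 ^ 40 * ∑ f ∈ range 26, (cof c f : ℝ) * y.getD f 0 := by
    rw [mul_sum]
    exact sum_congr rfl fun f _ => by ring
  rw [h9] at h7
  exact nonpos_of_mul_nonpos_right h7 (by positivity)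

end Vale.Agent.P154.AF.Ck
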