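import Vale.Agent.P154.AF.SpecB

namespace Vale.Agent.P154.AF.Ck

open Finset

namespace Rootm

variable {r : ℕ} {u v : ℝ} {R : TM → ℝ → Prop}

theorem hor_eq {β : Type} (y : ℕ) (k : ℕ → β) : ∀ (l : List ℕ) (s h : ℕ),
    ∃ z, hor y k l s h = k z
  | [], _, h => ⟨h, rfl⟩
  | c :: l, s, h => by
    have e : hor y k (c :: l) s h = frc (Nat.add (red (Nat.mul y h)) (Nat.shiftLeft c s))
      (hor y k l (Nat.add s 64)) := rfl
    rw [e, frc_eq]
    exact hor_eq y k l _ _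

theorem hor_eq2 {β : Type} (y : ℕ) (k : ℕ → β) (g : ℕ → ℕ) (l : List ℕ) (s h : ℕ) :
    ∃ z, hor y (fun h => frc (g h) k) l s h = k z := by
  obtain ⟨z, e⟩ := hor_eq y (fun h => frc (g h) k) l s h
  exact ⟨g z, e.trans (frc_eq _ _)⟩

theorem hint_eq {β : Type} (S : ℕ) (B : TM) (k : ℕ → β) : ∃ cs, hint S B k = k cs := by
  unfold hint
  rw [frc_eq, frc_eq, frc_eq, frc_eq, frc_eq]
  exact hor_eq2 _ _ _ _ _ _

theorem LS_ok : ∀ t ∈ LS, ∃ a < 8, ∃ b < 8, t.1 = 864 * (8 * a + 9 * b) ∧ t.2.2 = a + b := by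
  decide +kernel

theorem stp (H : RepOk r u v R) {P : TM} {x : ℝ} (h : R P x) (z a b : ℕ) :
    ∃ y, R ⟨Nat.add P.N (Nat.shiftLeft z (864 * (8 * a + 9 * b))), Nat.add P.n1 z,
      Nat.add P.nr (Nat.mul z (Nat.pow r (a + b))), P.e⟩ y := by
  have m := H.add _ _ _ _ h (H.sm z _ _ (H.mon a b))
  simp only [add, sm, mon, Nat.add_eq, Nat.mul_eq, mul_one, mul_zero, add_zero] at m
  simp only [Nat.add_eq, Nat.mul_eq, Nat.pow_eq, Nat.shiftLeft_eq', Nat.shiftLeft_eq]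
  exact ⟨_, m⟩

theorem build_eq (H : RepOk r u v R) {β : Type} (k : TM → β) (n : ℕ) :
    ∀ (l : List (ℕ × ℕ × ℕ)) (P Q : TM) (x y : ℝ) (a b : ℕ),
    (∀ t ∈ l, ∃ a < 8, ∃ b < 8, t.1 = 864 * (8 * a + 9 * b) ∧ t.2.2 = a + b) → R P x → R Q y →
    P.e = 0 → Q.e = 0 → a = P.n1 + Q.n1 → b = P.nr + Q.nr →
    ∃ W w, R W w ∧ build r n k l P.N Q.N a b = k W
  | [], P, Q, x, y, a, b, _, hP, hQ, e1, e2, ha, hb => by
    refine ⟨_, _, H.sub _ _ _ _ hP hQ, ?_⟩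
    rw [sub, e1, e2, ha, hb]
    rfl
  | t :: l, P, Q, x, y, a, b, hl, hP, hQ, e1, e2, ha, hb => by
    obtain ⟨i, -, j, -, t1, t2⟩ := hl t List.mem_cons_self
    have hl' := fun s hs => hl s (List.mem_cons_of_mem _ hs)
    have e : ∀ d, d = Nat.land (Nat.shiftRight n t.2.1) (Nat.sub (Nat.pow 2 352) 1) →
        ∀ z1, z1 = Nat.sub (Nat.pow 2 351) d → ∀ z2, z2 = Nat.sub d (Nat.pow 2 351) →
        ∀ c, c = Nat.ble (Nat.pow 2 351) d →
        build r n k (t :: l) P.N Q.N a b = Bool.rec (motive := fun _ => β)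
        (build r n k l P.N (Nat.add Q.N (Nat.shiftLeft z1 t.1)) (Nat.add a z1)
          (Nat.add b (Nat.mul z1 (Nat.pow r t.2.2))))
        (build r n k l (Nat.add P.N (Nat.shiftLeft z2 t.1)) Q.N (Nat.add a z2)
          (Nat.add b (Nat.mul z2 (Nat.pow r t.2.2)))) c := by
      intro _ q1 _ q2 _ q3 _ q4
      rw [q4, q3, q2, q1]
      unfold build
      exact rfl
    obtain ⟨d, hd⟩ : ∃ d, d = Nat.land (Nat.shiftRight n t.2.1) (Nat.sub (Nat.pow 2 352) 1) :=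
      ⟨_, rfl⟩
    obtain ⟨z1, h1⟩ : ∃ z, z = Nat.sub (Nat.pow 2 351) d := ⟨_, rfl⟩
    obtain ⟨z2, h2⟩ : ∃ z, z = Nat.sub d (Nat.pow 2 351) := ⟨_, rfl⟩
    obtain ⟨c, h3⟩ : ∃ z, z = Nat.ble (Nat.pow 2 351) d := ⟨_, rfl⟩
    rw [e d hd z1 h1 z2 h2 c h3, t1, t2]
    clear e hd h1 h2 h3
    cases c
    · obtain ⟨w, hw⟩ := stp H hQ z1 i j
      exact build_eq H k n l P _ x w _ _ hl' hP hw e1 e2 (by rw [ha]; exact add_assoc _ _ _)
        (by rw [hb]; exact add_assoc _ _ _)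
    · obtain ⟨w, hw⟩ := stp H hP z2 i j
      exact build_eq H k n l _ Q w y _ _ hl' hw hQ e1 e2 (by rw [ha]; exact add_right_comm _ _ _)
        (by rw [hb]; exact add_right_comm _ _ _)

theorem p12_eq (H : RepOk r u v R) {β : Type} (k : TM → β) {a : TM} {x : ℝ} (h : R a x) :
    ∃ W, R W (x ^ 12) ∧ p12 a k = k W := by
  have b := H.mul _ _ _ _ h h
  have c := H.mul _ _ _ _ b h
  have d := H.mul _ _ _ _ c c
  have e := H.mul _ _ _ _ d d
  refine ⟨_, ?_, by rw [p12, fT_eq, fT_eq, fT_eq, fT_eq]⟩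
  convert e using 1
  ring

theorem lsum (hu : |u| ≤ 1) (hv : |v| ≤ 1) (f : ℕ × ℕ → ℤ) : ∀ l : List (ℕ × ℕ),
    |(l.map fun p => (f p : ℝ) * (u ^ (p.1 - p.2) * v ^ p.2)).sum| ≤
      ((l.map fun p => (f p).natAbs).sum : ℕ)
  | [] => by simp
  | p :: l => by
    have ih := lsum hu hv f l
    rw [List.map_cons, List.map_cons, List.sum_cons, List.sum_cons, Nat.cast_add]
    refine (abs_add_le _ _).trans (add_le_add ?_ ih)
    rw [abs_mul, abs_mul, abs_pow, abs_pow, Nat.cast_natAbs, Int.cast_abs]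
    exact mul_le_of_le_one_right (abs_nonneg _) (mul_le_one₀ (pow_le_one₀ (abs_nonneg _) hu)
      (by positivity) (pow_le_one₀ (abs_nonneg _) hv))

theorem SH_eq : SH = PS.map fun p => 864 * (8 * p.1 + p.2) := by decide +kernel

theorem nab (d H : ℕ) : ((d : ℤ) - H).natAbs = d - H + (H - d) := by omega

theorem bsum_eq (n : ℕ) : ∀ (l : List (ℕ × ℕ)) (a : ℕ),
    bsum n (l.map fun p => 864 * (8 * p.1 + p.2)) a =
      a + (l.map fun p => (dig n (8 * p.1 + p.2)).natAbs).sum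
  | [], a => rfl
  | p :: l, a => by
    have e : ∀ H, H = Nat.pow 2 863 → ∀ d, d = Nat.land (Nat.shiftRight n (864 * (8 * p.1 + p.2)))
        (Nat.sub (Nat.pow 2 864) 1) → bsum n ((p :: l).map fun p => 864 * (8 * p.1 + p.2)) a =
        bsum n (l.map fun p => 864 * (8 * p.1 + p.2)) (a + (d - H + (H - d))) := by
      intro _ q1 _ q2
      rw [q2, q1, List.map_cons]
      unfold bsum
      exact rfl
    have e2 : dg n (8 * p.1 + p.2) = Nat.land (Nat.shiftRight n (864 * (8 * p.1 + p.2)))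
        (Nat.sub (Nat.pow 2 864) 1) := by
      rw [Nat.land_eq, Nat.sub_eq, Nat.pow_eq, Nat.and_two_pow_sub_one_eq_mod]
      rfl
    have e3 : (2 : ℤ) ^ 863 = ((Nat.pow 2 863 : ℕ) : ℤ) := by
      rw [Nat.pow_eq, Nat.cast_pow, Nat.cast_ofNat]
    rw [e _ rfl _ e2, bsum_eq n l, List.map_cons, List.sum_cons, dig, e3, nab, add_assoc]

theorem bnd_le (hu : |u| ≤ 1) (hv : |v| ≤ 1) (H : RepOk r u v R) {m : TM} {x : ℝ} (h : R m x) :
    |x| ≤ bnd r m := by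
  unfold bnd
  cases c : Nat.ble (Nat.pow 2 863) m.n1
  · rw [cond_false, frc_eq, SH_eq, bsum_eq, Nat.cast_add]
    have c' : m.n1 < 2 ^ 863 := Nat.lt_of_not_le fun q =>
      Bool.false_ne_true (c.symm.trans (Nat.ble_eq_true_of_le q))
    have a := H.ext _ _ h c'
    have b := lsum hu hv (fun p => dig (nrm m.N) (8 * p.1 + p.2)) PS
    clear c c'
    generalize (PS.map fun p => (dig (nrm m.N) (8 * p.1 + p.2) : ℝ) *
      (u ^ (p.1 - p.2) * v ^ p.2)).sum = s at a b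
    have := abs_add_le (x - s) s
    rw [sub_add_cancel] at this
    linarith
  · rw [cond_true, Nat.add_eq, Nat.cast_add]
    exact H.abs _ _ h

theorem gap {L w z : ℝ} (hL : 0 < L) (hw : L ≤ w) (hz : L ≤ z) :
    12 * L ^ 11 * |z - w| ≤ |w ^ 12 - z ^ 12| := by
  rw [← geom_sum₂_mul w z 12, abs_mul, abs_sub_comm z w]
  refine mul_le_mul_of_nonneg_right (le_trans ?_ (le_abs_self _)) (abs_nonneg _)
  have : ∑ _i ∈ range 12, L ^ 11 ≤ ∑ i ∈ range 12, w ^ i * z ^ (12 - 1 - i) := by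
    refine sum_le_sum fun i hi => ?_
    have hi' := mem_range.1 hi
    rw [show L ^ 11 = L ^ i * L ^ (12 - 1 - i) by rw [← pow_add]; congr 1; omega]
    exact mul_le_mul (pow_le_pow_left₀ hL.le hw _) (pow_le_pow_left₀ hL.le hz _) (by positivity)
      (pow_nonneg (hL.le.trans hw) _)
  simpa using this

theorem rt_pow {y : ℝ} (hy : 0 ≤ y) : rt y ^ 12 = y := by
  unfold rt
  rw [← Real.rpow_natCast, ← Real.rpow_mul hy]
  norm_num

theorem rt_le {y : ℝ} (hy : 0 ≤ y) : rt y ≤ 1 + y := by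
  unfold rt
  rcases le_total y 1 with h | h
  · linarith [Real.rpow_le_one hy h (by norm_num : (0 : ℝ) ≤ 1 / 12)]
  · linarith [Real.rpow_le_self_of_one_le h (by norm_num : (1 : ℝ) / 12 ≤ 1)]

theorem fin {w y : ℝ} {bd b c L : ℕ} (hy : 0 ≤ y) (h1 : |w ^ 12 - y| ≤ bd) (h2 : |w - c| ≤ b)
    (hL : 0 < L) (hl : L ≤ c - b) (h3 : L ^ 12 + bd ≤ (c - b) ^ 12) :
    |rt y - w| ≤ ((bd / (12 * L ^ 11) + 1 : ℕ) : ℝ) := by
  have cb : b ≤ c := by omega
  have e : ((c - b : ℕ) : ℝ) = c - b := Nat.cast_sub cb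
  have hL' : (0 : ℝ) < L := by exact_mod_cast hL
  have hl' : (L : ℝ) ≤ c - b := by rw [← e]; exact_mod_cast hl
  have h3' : (L : ℝ) ^ 12 + bd ≤ ((c : ℝ) - b) ^ 12 := by rw [← e]; exact_mod_cast h3
  have w1 : (c : ℝ) - b ≤ w := by linarith [(abs_le.1 h2).1]
  have w2 := pow_le_pow_left₀ (hL'.le.trans hl') w1 12
  have z0 : 0 ≤ rt y := Real.rpow_nonneg hy _
  have z1 : (L : ℝ) ≤ rt y := by
    refine le_of_pow_le_pow_left₀ (n := 12) (by norm_num) z0 ?_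
    rw [rt_pow hy]
    linarith [(abs_le.1 h1).2]
  have g := gap hL' (hl'.trans w1) z1
  rw [rt_pow hy] at g
  have p : 0 < 12 * L ^ 11 := by positivity
  have q : (bd : ℝ) ≤ ((12 * L ^ 11 : ℕ) : ℝ) * ((bd / (12 * L ^ 11) + 1 : ℕ) : ℝ) := by
    exact_mod_cast (Nat.lt_mul_div_succ bd p).le
  have p' : (0 : ℝ) < 12 * (L : ℝ) ^ 11 := by positivity
  rw [Nat.cast_mul, Nat.cast_pow, Nat.cast_ofNat] at q
  exact le_of_mul_le_mul_left ((g.trans h1).trans q) p'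

end Rootm

def Rootm.K2 (r S : ℕ) (B T W : TM) (c : ℕ) (W12 : TM) : TM := fT (sub W12 B) fun D =>
  frc (bnd r D) fun bd => frc (c - (T.n1 + T.e)) fun L0 => frc (L0 - S / 128) fun L =>
  if 0 < L ∧ L ^ 12 + bd ≤ L0 ^ 12 then wid W (bd / (12 * L ^ 11) + 1)
  else wid (cst 0) (1 + B.n1 + B.e)

def Rootm.K1 (r S : ℕ) (B : TM) (c0 : ℕ) (T0 : TM) : TM := fT T0 fun T => frc c0 fun c =>
  fT (add (cst c) T) fun W => p12 W (Rootm.K2 r S B T W c)

open Rootm in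
theorem rootS : StmtRoot := by
  intro r u v R hu hv H S B y hB hy
  have e0 : root r S B = hint S B fun n => build r n (K1 r S B (Nat.sub (Nat.land
    (Nat.shiftRight n 512) (Nat.sub (Nat.pow 2 352) 1)) (Nat.pow 2 351))) LS 0 0 0 0 := by
    unfold root K1 K2
    rfl
  obtain ⟨n, e⟩ := hint_eq S B fun n => build r n (K1 r S B (Nat.sub (Nat.land
    (Nat.shiftRight n 512) (Nat.sub (Nat.pow 2 352) 1)) (Nat.pow 2 351))) LS 0 0 0 0
  rw [e0, e]
  clear e0 e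
  generalize Nat.sub (Nat.land (Nat.shiftRight n 512) (Nat.sub (Nat.pow 2 352) 1))
    (Nat.pow 2 351) = c
  obtain ⟨T, t, hT, e2⟩ := build_eq H (K1 r S B c) n LS (cst 0) (cst 0) _ _ 0 0 LS_ok (H.cst 0)
    (H.cst 0) rfl rfl rfl rfl
  have hW := H.add _ _ _ _ (H.cst c) hT
  obtain ⟨W12, h12, e3⟩ := p12_eq H (K2 r S B T (add (cst c) T) c) hW
  refine e2 ▸ ?_
  rw [K1, fT_eq, frc_eq, fT_eq, e3, K2, fT_eq, frc_eq, frc_eq, frc_eq]
  have a1 := bnd_le hu hv H (H.sub _ _ _ _ h12 hB)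
  have a2 : |(c : ℝ) + t - c| ≤ ((T.n1 + T.e : ℕ) : ℝ) := by
    rw [add_sub_cancel_left, Nat.cast_add]
    exact H.abs _ _ hT
  split_ifs with c
  · exact H.wid _ _ _ _ hW (fin hy a1 a2 c.1 (Nat.sub_le _ _) c.2)
  · refine H.wid _ _ _ _ (H.cst 0) ?_
    have a := H.abs _ _ hB
    have z0 : 0 ≤ rt y := Real.rpow_nonneg hy _
    rw [Nat.cast_zero, sub_zero, abs_of_nonneg z0]
    rw [abs_of_nonneg hy] at a
    push_cast
    linarith [rt_le hy]

end Vale.Agent.P154.AF.Ck
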