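import Vale.Agent.P154.AF.SpecB

namespace Vale.Agent.P154.AF.TMm

open Finset Vale.Agent.P154.AF.Ck

abbrev Tm := ℤ × ℕ × ℕ

def sv {α : Type} [CommSemiring α] (f : ℤ → α) (x y : α) (L : List Tm) : α :=
  (L.map fun t => f t.1 * (x ^ t.2.1 * y ^ t.2.2)).sum

def pm (L M : List Tm) : List Tm :=
  L.flatMap fun s => M.map fun t => (s.1 * t.1, s.2.1 + t.2.1, s.2.2 + t.2.2)

section
variable {α : Type} [CommSemiring α] (f : ℤ → α) (x y : α)

theorem sv_nil : sv f x y [] = 0 := rfl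

theorem sv_cons (t : Tm) (L : List Tm) :
    sv f x y (t :: L) = f t.1 * (x ^ t.2.1 * y ^ t.2.2) + sv f x y L := by simp [sv]

theorem sv_app (L M : List Tm) : sv f x y (L ++ M) = sv f x y L + sv f x y M := by simp [sv]

theorem sv_one (c : ℤ) (a b : ℕ) : sv f x y [(c, a, b)] = f c * (x ^ a * y ^ b) := by simp [sv]

theorem sv_pm (hf : ∀ a b, f (a * b) = f a * f b) (L M : List Tm) :
    sv f x y (pm L M) = sv f x y L * sv f x y M := by
  induction L with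
  | nil => simp [pm, sv]
  | cons s L ih =>
    have h : ∀ M : List Tm, sv f x y (M.map fun t => (s.1 * t.1, s.2.1 + t.2.1, s.2.2 + t.2.2)) =
        f s.1 * (x ^ s.2.1 * y ^ s.2.2) * sv f x y M := by
      intro M
      induction M with
      | nil => simp [sv]
      | cons t M ih2 => rw [List.map_cons, sv_cons, sv_cons, ih2, hf]; ring
    have e : pm (s :: L) M =
      (M.map fun t => (s.1 * t.1, s.2.1 + t.2.1, s.2.2 + t.2.2)) ++ pm L M := by simp [pm]
    rw [e, sv_app, h, ih, sv_cons]; ring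
end

def cf (L : List Tm) (p : ℕ) : ℤ := (L.map fun t => if 8 * t.2.1 + 9 * t.2.2 = p then t.1 else 0).sum

theorem cf_cons (t : Tm) (L : List Tm) (p : ℕ) :
    cf (t :: L) p = (if 8 * t.2.1 + 9 * t.2.2 = p then t.1 else 0) + cf L p := by simp [cf]

theorem cf_le (L : List Tm) (p : ℕ) : (cf L p).natAbs ≤ sv Int.natAbs 1 1 L := by
  induction L with
  | nil => simp [cf]
  | cons t L ih =>
    rw [cf_cons, sv_cons]
    simp only [one_pow, mul_one]
    split_ifs <;> omega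

theorem cf_mod (X : ℤ) (L : List Tm) :
    sv id (X ^ 8) (X ^ 9) L ≡ ∑ p ∈ range 64, cf L p * X ^ p [ZMOD X ^ 64] := by
  induction L with
  | nil => simp [cf, sv]
  | cons t L ih =>
    simp only [sv_cons, cf_cons, add_mul, sum_add_distrib]
    refine Int.ModEq.add ?_ ih
    simp only [ite_mul, zero_mul, sum_ite_eq, mem_range, id, ← pow_mul, ← pow_add]
    split_ifs with h
    · rfl
    · exact (Int.modEq_zero_iff_dvd).2 ((pow_dvd_pow X (by omega)).mul_left _)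

theorem one_abs {u v : ℝ} (hu : |u| ≤ 1) (hv : |v| ≤ 1) (c : ℤ) (a b : ℕ) :
    |(c : ℝ) * (u ^ a * v ^ b)| ≤ (c.natAbs : ℝ) := by
  rw [abs_mul, abs_mul, abs_pow, abs_pow, Nat.cast_natAbs, Int.cast_abs]
  have h1 := pow_le_one₀ (n := a) (abs_nonneg u) hu
  have h2 := pow_le_one₀ (n := b) (abs_nonneg v) hv
  exact mul_le_of_le_one_right (abs_nonneg _) (mul_le_one₀ h1 (by positivity) h2)

theorem abs0 {u v : ℝ} (hu : |u| ≤ 1) (hv : |v| ≤ 1) (L : List Tm) :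
    |sv (fun c => (c : ℝ)) u v L| ≤ ((sv Int.natAbs 1 1 L : ℕ) : ℝ) := by
  induction L with
  | nil => simp [sv]
  | cons t L ih =>
    rw [sv_cons, sv_cons]
    push_cast
    simp only [one_pow, mul_one]
    exact (abs_add_le _ _).trans (add_le_add (by simpa using one_abs hu hv t.1 t.2.1 t.2.2) ih)

theorem PS_lt : ∀ p ∈ PS, 8 * p.1 + p.2 < 64 := by decide

theorem hit (u v c : ℝ) (a b : ℕ) (h : a + b < 8) :
    (PS.map fun p => (if 8 * a + 9 * b = 8 * p.1 + p.2 then c else 0) *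
      (u ^ (p.1 - p.2) * v ^ p.2)).sum = c * (u ^ a * v ^ b) := by
  have ha : a < 8 := by omega
  have hb : b < 8 := by omega
  interval_cases a <;> interval_cases b <;> first | omega | simp [PS]

theorem tail {u v : ℝ} (hu : |u| ≤ 1) (hv : |v| ≤ 1) {r : ℕ} (hr : 1 ≤ r) (L : List Tm) :
    |sv (fun c => (c : ℝ)) u v L -
      (PS.map fun p => (cf L (8 * p.1 + p.2) : ℝ) * (u ^ (p.1 - p.2) * v ^ p.2)).sum| ≤
      ((sv Int.natAbs r r L : ℕ) : ℝ) / (r : ℝ) ^ 8 := by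
  have hr' : (1 : ℝ) ≤ r := by exact_mod_cast hr
  induction L with
  | nil => simp [sv, cf]
  | cons t L ih =>
    rw [sv_cons, sv_cons]
    simp only [cf_cons]
    push_cast
    simp only [add_mul, List.sum_map_add, add_div]
    rw [add_sub_add_comm]
    refine (abs_add_le _ _).trans (add_le_add ?_ ih)
    by_cases h : t.2.1 + t.2.2 < 8
    · rw [hit u v _ _ _ h, sub_self, abs_zero]; positivity
    · rw [List.sum_eq_zero, sub_zero]
      · refine (one_abs hu hv _ _ _).trans ?_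
        rw [le_div_iff₀ (by positivity), ← pow_add, Nat.cast_natAbs, Int.cast_abs]
        exact mul_le_mul_of_nonneg_left (pow_le_pow_right₀ hr' (by omega)) (abs_nonneg _)
      · intro z hz
        obtain ⟨p, hp, rfl⟩ := List.mem_map.1 hz
        have := PS_lt p hp
        rw [if_neg (by omega), zero_mul]

theorem digs (X : ℕ) (D : ℕ → ℕ) (hD : ∀ p, D p < X) (k : ℕ) :
    ∑ i ∈ range k, D i * X ^ i < X ^ k ∧
      ∀ p < k, (∑ i ∈ range k, D i * X ^ i) / X ^ p % X = D p := by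
  have hX : 0 < X := lt_of_le_of_lt (Nat.zero_le _) (hD 0)
  induction k with
  | zero => simp
  | succ k ih =>
    rw [sum_range_succ]
    refine ⟨?_, fun p hp => ?_⟩
    · have := Nat.mul_le_mul_right (X ^ k) (Nat.succ_le_of_lt (hD k))
      rw [pow_succ']
      nlinarith [ih.1]
    · rcases (Nat.lt_succ_iff.1 hp).lt_or_eq with h | rfl
      · obtain ⟨j, rfl⟩ := Nat.exists_eq_add_of_lt h
        rw [show D (p + j + 1) * X ^ (p + j + 1) = D (p + j + 1) * X ^ j * X * X ^ p by ring,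
          Nat.add_mul_div_right _ _ (by positivity), Nat.add_mul_mod_self_right]
        exact ih.2 p h
      · rw [Nat.add_mul_div_right _ _ (by positivity), Nat.div_eq_of_lt ih.1, zero_add,
          Nat.mod_eq_of_lt (hD p)]

theorem key (X H N : ℕ) (hX : X = 2 * H) (c : ℕ → ℤ) (hc : ∀ p, (c p).natAbs < H)
    (h : ∑ p ∈ range 64, c p * (X : ℤ) ^ p ≡ N [ZMOD (X : ℤ) ^ 64]) (p : ℕ) (hp : p < 64) :
    ((((N + H * ((X ^ 64 - 1) / (X - 1))) % X ^ 64) / X ^ p % X : ℕ) : ℤ) - H = c p := by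
  have h0 := hc 0
  have hd := digs X (fun p => (c p + H).toNat) (fun p => by have := hc p; omega) 64
  have e : ∀ p, (((c p + H).toNat : ℕ) : ℤ) = c p + H := fun p => by have := hc p; omega
  have h2 : (N + H * ((X ^ 64 - 1) / (X - 1))) % X ^ 64 =
      ∑ i ∈ range 64, (c i + H).toNat * X ^ i := by
    rw [← Nat.mod_eq_of_lt hd.1, ← Nat.geomSum_eq (by omega)]
    change _ ≡ _ [MOD _]
    rw [← Int.natCast_modEq_iff]
    push_cast
    simp only [e, add_mul, sum_add_distrib, ← mul_sum]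
    exact h.symm.add_right _
  rw [h2, hd.2 p hp, e]; ring

theorem red_eq (X : ℕ) (hX : X = 2 ^ 864) (n : ℕ) : red n = n % X ^ 64 := by
  unfold red
  rw [Nat.land_eq, Nat.sub_eq, Nat.pow_eq, Nat.and_two_pow_sub_one_eq_mod, hX, ← pow_mul]

theorem big (X : ℕ) (hX : X = 2 ^ 864) : 2 ^ 55296 = X ^ 64 := by
  rw [hX, ← pow_mul]

theorem dv (a b : ℕ) : Nat.div a b = a / b := rfl

theorem dig_eq (X H : ℕ) (hX : X = 2 ^ 864) (hH : H = 2 ^ 863) (N p : ℕ) : dig (nrm N) p =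
    ((((N + H * ((X ^ 64 - 1) / (X - 1))) % X ^ 64) / X ^ p % X : ℕ) : ℤ) - H := by
  unfold dig dg nrm ON
  simp only [Nat.add_eq, Nat.mul_eq, Nat.sub_eq, Nat.pow_eq, dv]
  have e : (2 : ℤ) ^ 863 = (H : ℤ) := by rw [hH, Nat.cast_pow, Nat.cast_ofNat]
  rw [e, red_eq X hX, big X hX, Nat.shiftRight_eq_div_pow, pow_mul, ← hX, ← hH]

def R (X r : ℕ) (u v : ℝ) (m : TM) (x : ℝ) : Prop := ∃ L : List Tm,
  sv id ((X : ℤ) ^ 8) ((X : ℤ) ^ 9) L ≡ m.N [ZMOD (X : ℤ) ^ 64] ∧ sv Int.natAbs 1 1 L ≤ m.n1 ∧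
    sv Int.natAbs r r L ≤ m.nr ∧ |x - sv (fun c => (c : ℝ)) u v L| ≤ m.e

theorem ok (X H : ℕ) (hX : X = 2 ^ 864) (hH : H = 2 ^ 863) (r : ℕ) (u v : ℝ) (hr : 1 ≤ r)
    (hu : |u| ≤ 1) (hv : |v| ≤ 1) : RepOk r u v (R X r u v) := by
  have m1 : ∀ a b : ℤ, id (a * b) = id a * id b := fun _ _ => rfl
  have m2 : ∀ a b : ℤ, ((a * b : ℤ) : ℝ) = a * b := fun _ _ => Int.cast_mul _ _
  have hX0 : 0 < X := hX ▸ Nat.two_pow_pos _
  have rm : ∀ n : ℕ, ((red n : ℕ) : ℤ) ≡ n [ZMOD (X : ℤ) ^ 64] := fun n => by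
    rw [red_eq X hX]; push_cast; exact Int.mod_modEq _ _
  refine ⟨fun c => ⟨[(c, 0, 0)], ?_⟩, fun a b => ⟨[(1, a, b)], ?_⟩, ?_, ?_, ?_, ?_, ?_, ?_, ?_⟩
  · simp [sv_one, cst]
  · simp only [sv_one, mon, id, one_mul, Int.natAbs_one, one_pow, Int.cast_one, sub_self,
      abs_zero, pow_add r, le_refl, Nat.cast_zero, and_true]
    rw [pow_mul 2, ← hX, ← pow_mul, ← pow_mul, ← pow_add, Nat.cast_pow]
  · rintro a b x y ⟨L, h1, h2, h3, h4⟩ ⟨M, k1, k2, k3, k4⟩
    refine ⟨L ++ M, ?_⟩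
    simp only [sv_app, add, Nat.add_eq]
    push_cast
    refine ⟨h1.add k1, add_le_add h2 k2, add_le_add h3 k3, ?_⟩
    rw [add_sub_add_comm]
    exact (abs_add_le _ _).trans (add_le_add h4 k4)
  · rintro a b x y ⟨L, h1, h2, h3, h4⟩ ⟨M, k1, k2, k3, k4⟩
    refine ⟨L ++ pm [(-1, 0, 0)] M, ?_⟩
    have hl : red b.N ≤ X ^ 64 := by
      rw [red_eq X hX]; exact (Nat.mod_lt _ (Nat.pow_pos hX0)).le
    simp only [sv_app, sub, Nat.add_eq, Nat.sub_eq, Nat.pow_eq, sv_pm _ _ _ m1, sv_pm _ _ _ m2, sv_pm _ _ _ Int.natAbs_mul, sv_one,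
      big X hX, Nat.cast_add, Nat.cast_sub hl, Nat.cast_pow, id, pow_zero, mul_one, Int.natAbs_neg,
      Int.natAbs_one, one_mul, Int.cast_neg, Int.cast_one, neg_mul]
    refine ⟨h1.add ?_, add_le_add h2 k2, add_le_add h3 k3, ?_⟩
    · rw [← zero_sub]
      exact (Int.modEq_zero_iff_dvd.2 dvd_rfl).symm.sub (k1.trans (rm _).symm)
    · rw [abs_le] at h4 k4 ⊢
      constructor <;> linarith [h4.1, h4.2, k4.1, k4.2]
  · rintro c a x ⟨L, h1, h2, h3, h4⟩
    refine ⟨pm [(c, 0, 0)] L, ?_⟩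
    simp only [sm, Nat.mul_eq, sv_pm _ _ _ m1, sv_pm _ _ _ m2, sv_pm _ _ _ Int.natAbs_mul, sv_one,
      Nat.cast_mul, id, pow_zero, mul_one, Int.natAbs_natCast, Int.cast_natCast]
    refine ⟨h1.mul_left _, Nat.mul_le_mul_left _ h2, Nat.mul_le_mul_left _ h3, ?_⟩
    rw [← mul_sub, abs_mul, Nat.abs_cast]
    exact mul_le_mul_of_nonneg_left h4 (Nat.cast_nonneg _)
  · rintro a b x y ⟨L, h1, h2, h3, h4⟩ ⟨M, k1, k2, k3, k4⟩
    refine ⟨pm L M, ?_⟩
    simp only [mul, Nat.add_eq, Nat.mul_eq, sv_pm _ _ _ m1, sv_pm _ _ _ m2, sv_pm _ _ _ Int.natAbs_mul]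
    refine ⟨?_, Nat.mul_le_mul h2 k2, Nat.mul_le_mul h3 k3, ?_⟩
    · refine Int.ModEq.trans ?_ (rm _).symm
      rw [Nat.cast_mul]
      exact h1.mul k1
    · have a1 := (abs0 hu hv L).trans (Nat.cast_le.2 h2)
      have a2 := (abs0 hu hv M).trans (Nat.cast_le.2 k2)
      generalize sv (fun c => (c : ℝ)) u v L = p at h4 a1 ⊢
      generalize sv (fun c => (c : ℝ)) u v M = q at k4 a2 ⊢
      rw [show x * y - p * q = p * (y - q) + (x - p) * q + (x - p) * (y - q) by ring]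
      push_cast
      refine (abs_add_three _ _ _).trans ?_
      simp only [abs_mul]
      clear hX hH
      gcongr
  · rintro a x y δ ⟨L, h1, h2, h3, h4⟩ h
    refine ⟨L, h1, h2, h3, ?_⟩
    simp only [wid, Nat.add_eq]
    push_cast
    rw [abs_le] at h4 h ⊢
    constructor <;> linarith [h4.1, h4.2, h.1, h.2]
  · rintro a x ⟨L, -, h2, -, h4⟩
    have a1 := (abs0 hu hv L).trans (Nat.cast_le.2 h2)
    rw [abs_le] at h4 a1 ⊢
    constructor <;> linarith [h4.1, h4.2, a1.1, a1.2]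
  · rintro a x ⟨L, h1, h2, h3, h4⟩ hn
    replace hn : a.n1 < H := hH.symm ▸ hn
    have hXH : X = 2 * H := hX.trans ((pow_succ' 2 863).trans (by rw [← hH]))
    have e : (PS.map fun p => (dig (nrm a.N) (8 * p.1 + p.2) : ℝ) * (u ^ (p.1 - p.2) * v ^ p.2)) =
        PS.map fun p => (cf L (8 * p.1 + p.2) : ℝ) * (u ^ (p.1 - p.2) * v ^ p.2) := by
      refine List.map_congr_left fun p hp => ?_
      rw [dig_eq X H hX hH, key X H a.N hXH (cf L) (fun q => ((cf_le L q).trans h2).trans_lt hn)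
        ((cf_mod X L).symm.trans h1) _ (PS_lt p hp)]
    rw [e]
    have t := tail hu hv hr L
    have t2 : ((sv Int.natAbs r r L : ℕ) : ℝ) / (r : ℝ) ^ 8 ≤ ((a.nr / r ^ 8 + 1 : ℕ) : ℝ) := by
      clear hX hH
      have hr0 : 0 < r ^ 8 := by positivity
      rw [div_le_iff₀ (by positivity)]
      have := Nat.lt_div_mul_add (a := a.nr) hr0
      exact_mod_cast (h3.trans (by rw [add_mul, one_mul]; exact this.le) :
        sv Int.natAbs r r L ≤ (a.nr / r ^ 8 + 1) * r ^ 8)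
    unfold terr
    rw [Nat.add_eq, Nat.add_eq, Nat.pow_eq, dv, add_assoc, Nat.cast_add]
    rw [abs_le] at h4 t ⊢
    constructor <;> linarith [h4.1, h4.2, t.1, t.2]

end Vale.Agent.P154.AF.TMm

namespace Vale.Agent.P154.AF.Ck

theorem tmS : StmtTM := fun r u v hr hu hv => ⟨_, TMm.ok _ _ rfl rfl r u v hr hu hv⟩

end Vale.Agent.P154.AF.Ck
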