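import Vale.Agent.P154.AF.SpecB

namespace Vale.Agent.P154.AF.Ck

open Finset

namespace Tabsm

theorem p12_c {β : Type} (a : TM) (b : β) : p12 a (fun _ => b) = b := by
  simp only [p12, fT_eq]

theorem pws_c {β : Type} (w0 w1 w2 : TM) (z : β) (n : ℕ) : ∀ (a b c : TM) (acc : List TM),
    pws w0 w1 w2 n a b c acc (fun _ => z) = z := by
  induction n with
  | zero => intro a b c acc; rfl
  | succ n ih => intro a b c acc; simp only [pws, fT_eq, ih]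

theorem outs_c {β : Type} (me p : List TM) (z : β) (l : List (ℕ × ℕ × ℕ)) :
    outs me p l (fun _ => z) = z := by
  induction l with
  | nil => rfl
  | cons x l ih => simp only [outs, fT_eq, ih]

theorem part_c {β : Type} (w0 w1 w2 m3 : TM) (z : β) : part w0 w1 w2 m3 (fun _ => z) = z := by
  simp only [part, fT_eq, outs_c, pws_c]

theorem cell_c {β : Type} (ln r s0 s1 x0 x1 : ℕ) (z : β) :
    cell ln r s0 s1 x0 x1 (fun _ => z) = z := by
  simp only [cell, fT_eq, p12_c, part_c]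

theorem FL_len (ln : ℕ) (σ ξ : ℝ) : (FL ln σ ξ).length = 26 := by
  simp [FL, KS]

theorem par (a b : ℕ) (t : ℝ) (h0 : (a : ℝ) ≤ 4096 * t) (h1 : 4096 * t ≤ b) :
    ∃ u : ℝ, |u| ≤ 1 ∧ 8192 * t = a + b + ((b : ℝ) - a) * u := by
  rcases eq_or_lt_of_le (h0.trans h1) with h | h
  · refine ⟨0, by simp, ?_⟩
    linarith
  · have hp : (0 : ℝ) < b - a := by linarith
    refine ⟨(8192 * t - a - b) / (b - a), ?_, ?_⟩
    · rw [abs_le]
      constructor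
      · rw [le_div_iff₀ hp]; linarith
      · rw [div_le_iff₀ hp]; linarith
    · field_simp
      ring

theorem sem_mono {E n : ℕ} {Tb : List ℕ} {S S' : List ℝ → Prop} (h : Sem E n Tb S)
    (hs : ∀ y, S' y → S y) : Sem E n Tb S' := by
  obtain ⟨w, h1, h2, h3, h4⟩ := h
  exact ⟨w, h1, h2, h3, fun y hy => h4 y (hs y hy)⟩

theorem sem_cat {E n n' : ℕ} {a b : List ℕ} {S S' : List ℝ → Prop} (h : Sem E n a S)
    (h' : Sem E n' b S') : Sem E (n + n') (cat n a b) fun y => S y ∨ S' y := by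
  obtain ⟨w, h1, h2, h3, h4⟩ := h
  obtain ⟨w', h1', h2', h3', h4'⟩ := h'
  refine ⟨fun f i => if i < n then w f i else w' f (i - n), ?_, ?_, ?_, ?_⟩
  · intro f i
    by_cases hi : i < n
    · simp only [hi, if_true]; exact h1 f i
    · simp only [hi, if_false]; exact h1' f _
  · simp [cat, h2, h2']
  · intro f hf
    have e : (cat n a b).getD f 0 = a.getD f 0 + b.getD f 0 * 2 ^ (128 * n) := by
      have ha : f < a.length := by omega
      have hb : f < b.length := by omega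
      have hc : f < (cat n a b).length := by simp [cat]; omega
      rw [List.getD_eq_getElem _ _ ha, List.getD_eq_getElem _ _ hb, List.getD_eq_getElem _ _ hc]
      simp [cat, Nat.shiftLeft_eq]
    rw [e, Finset.sum_range_add]
    push_cast
    rw [h3 f hf, h3' f hf, Finset.sum_mul]
    congr 1
    · refine Finset.sum_congr rfl fun i hi => ?_
      simp only [Finset.mem_range.1 hi, if_true]
      norm_num
    · refine Finset.sum_congr rfl fun i _ => ?_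
      have : ¬ n + i < n := by omega
      simp only [this, if_false, Nat.add_sub_cancel_left]
      rw [mul_add 128, pow_add 2 (128 * n)]
      ring
  · intro y hy c T hT
    rcases hy with hy | hy
    · refine h4 y hy c T fun i hi => ?_
      have := hT i (by omega)
      simpa only [hi, if_true] using this
    · refine h4' y hy c T fun i hi => ?_
      have := hT (n + i) (by omega)
      have h0 : ¬ n + i < n := by omega
      simpa only [h0, if_false, Nat.add_sub_cancel_left] using this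

theorem inB_s {s0 s1 x0 x1 : ℕ} (m : ℕ) {σ ξ : ℝ} (h : InB s0 s1 x0 x1 σ ξ) :
    InB s0 m x0 x1 σ ξ ∨ InB m s1 x0 x1 σ ξ := by
  obtain ⟨a, b, c, d⟩ := h
  rcases le_total (4096 * σ) m with h | h
  · exact Or.inl ⟨a, h, c, d⟩
  · exact Or.inr ⟨h, b, c, d⟩

theorem inB_x {s0 s1 x0 x1 : ℕ} (m : ℕ) {σ ξ : ℝ} (h : InB s0 s1 x0 x1 σ ξ) :
    InB s0 s1 x0 m σ ξ ∨ InB s0 s1 m x1 σ ξ := by
  obtain ⟨a, b, c, d⟩ := h
  rcases le_total (4096 * ξ) m with h | h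
  · exact Or.inl ⟨a, b, c, h⟩
  · exact Or.inr ⟨a, b, h, d⟩

theorem one (h1 : StmtTM) (h2 : StmtRoot) (h3 : StmtCell) (ln r s0 s1 x0 x1 : ℕ) (hr : 1 ≤ r)
    (hl : ln ≤ 2 ^ 19) (hs : s0 ≤ s1) (hx : x0 ≤ x1) (hx1 : x1 ≤ 4096) (σ ξ : ℝ)
    (h : InB s0 s1 x0 x1 σ ξ) : ∃ (L : List TM) (u v : ℝ) (R : TM → ℝ → Prop),
    (∀ (β : Type) (k : List TM → β), cell ln r s0 s1 x0 x1 k = k L) ∧ |u| ≤ 1 ∧ |v| ≤ 1 ∧
      RepOk r u v R ∧ List.Forall₂ (fun m y => R m (2 ^ 840 * y)) L (FL ln σ ξ) := by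
  obtain ⟨a, b, c, d⟩ := h
  obtain ⟨u, hu, eu⟩ := par s0 s1 σ a b
  obtain ⟨v, hv, ev⟩ := par x0 x1 ξ c d
  obtain ⟨R, hR⟩ := h1 r u v hr hu hv
  have h0 : (0 : ℝ) ≤ s0 := Nat.cast_nonneg _
  have h0' : (0 : ℝ) ≤ x0 := Nat.cast_nonneg _
  have h4 : (x1 : ℝ) ≤ 4096 := by exact_mod_cast hx1
  obtain ⟨L, hL, hF⟩ := h3 ln r s0 s1 x0 x1 u v σ ξ R hR (h2 r u v R hu hv hR) hl hs hx
    (by linarith) (by linarith) (by linarith) eu ev
  exact ⟨L, u, v, R, hL, hu, hv, hR, hF⟩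

end Tabsm

open Tabsm

theorem tabsS (h1 : StmtTM) (h2 : StmtRoot) (h3 : StmtCell) (h4 : StmtCtl) : StmtTabs := by
  intro ln E t
  induction t with
  | lf r =>
    intro s0 s1 x0 x1 k hl hs hx hx1 h
    simp only [tabs] at h
    by_cases hr : 1 ≤ r
    · have hb : InB s0 s1 x0 x1 (s0 / 4096) (x0 / 4096) := by
        have a : (s0 : ℝ) ≤ s1 := by exact_mod_cast hs
        have b : (x0 : ℝ) ≤ x1 := by exact_mod_cast hx
        refine ⟨?_, ?_, ?_, ?_⟩ <;> linarith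
      obtain ⟨L, u, v, R, hL, -, -, -, hF⟩ := one h1 h2 h3 ln r s0 s1 x0 x1 hr hl hs hx hx1 _ _ hb
      rw [hL, fL_eq, Bool.and_eq_true, Bool.and_eq_true] at h
      refine ⟨64, _, h.2.2, h4 r E L _ (by rw [hF.length_eq, FL_len]) h.2.1 ?_⟩
      rintro y ⟨σ, ξ, hB, rfl⟩
      obtain ⟨L', u', v', R', hL', hu, hv, hR, hF'⟩ :=
        one h1 h2 h3 ln r s0 s1 x0 x1 hr hl hs hx hx1 σ ξ hB
      have e : L' = L := (hL' _ id).symm.trans (hL _ id)
      exact ⟨u', v', R', hu, hv, hR, e ▸ hF'⟩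
    · simp only [hr, decide_false, Bool.false_and, cell_c] at h
      exact absurd h (by simp)
  | hs l r ihl ihr =>
    intro s0 s1 x0 x1 k hl hs hx hx1 h
    simp only [tabs, frc_eq, fL_eq] at h
    obtain ⟨n, a, ha, sa⟩ := ihl s0 _ x0 x1 _ hl (by omega) hx hx1 h
    obtain ⟨n', b, hb, sb⟩ := ihr _ s1 x0 x1 _ hl (by omega) hx hx1 ha
    refine ⟨_, _, hb, sem_mono (sem_cat sa sb) ?_⟩
    rintro y ⟨σ, ξ, hB, rfl⟩
    rcases inB_s ((s0 + s1) / 2) hB with h | h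
    · exact Or.inl ⟨σ, ξ, h, rfl⟩
    · exact Or.inr ⟨σ, ξ, h, rfl⟩
  | hx l r ihl ihr =>
    intro s0 s1 x0 x1 k hl hs hx hx1 h
    simp only [tabs, frc_eq, fL_eq] at h
    obtain ⟨n, a, ha, sa⟩ := ihl s0 s1 x0 _ _ hl hs (by omega) (by omega) h
    obtain ⟨n', b, hb, sb⟩ := ihr s0 s1 _ x1 _ hl hs (by omega) hx1 ha
    refine ⟨_, _, hb, sem_mono (sem_cat sa sb) ?_⟩
    rintro y ⟨σ, ξ, hB, rfl⟩
    rcases inB_x ((x0 + x1) / 2) hB with h | h
    · exact Or.inl ⟨σ, ξ, h, rfl⟩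
    · exact Or.inr ⟨σ, ξ, h, rfl⟩

theorem chkP_sound (ht : StmtTabs) (hn : StmtNeg) {ln E : ℕ} {pool : List ℕ} {t : KT}
    {s0 s1 x0 x1 : ℕ} (hl : ln ≤ 2 ^ 19) (hs : s0 ≤ s1) (hx : x0 ≤ x1) (hx1 : x1 ≤ 4096)
    (h : chkP ln E pool t s0 s1 x0 x1 = true) : PW ln pool s0 s1 x0 x1 := by
  rw [chkP, fLZ_eq] at h
  obtain ⟨n, Tb, hk, hS⟩ := ht ln E t s0 s1 x0 x1 _ hl hs hx hx1 h
  rw [frc_eq, frc_eq, List.all_eq_true] at hk
  intro c hc σ ξ hB
  exact hn E n Tb _ c hS (hk c hc) _ ⟨σ, ξ, hB, rfl⟩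

theorem pw_hs {ln : ℕ} {pool : List ℕ} {s0 m s1 x0 x1 : ℕ} (h : PW ln pool s0 m x0 x1)
    (h' : PW ln pool m s1 x0 x1) : PW ln pool s0 s1 x0 x1 := fun c hc σ ξ hB =>
  (inB_s m hB).elim (h c hc σ ξ) (h' c hc σ ξ)

theorem pw_hx {ln : ℕ} {pool : List ℕ} {s0 s1 x0 m x1 : ℕ} (h : PW ln pool s0 s1 x0 m)
    (h' : PW ln pool s0 s1 m x1) : PW ln pool s0 s1 x0 x1 := fun c hc σ ξ hB =>
  (inB_x m hB).elim (h c hc σ ξ) (h' c hc σ ξ)

theorem pw_app {ln : ℕ} {p q : List ℕ} {s0 s1 x0 x1 : ℕ} (h : PW ln p s0 s1 x0 x1)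
    (h' : PW ln q s0 s1 x0 x1) : PW ln (p ++ q) s0 s1 x0 x1 := fun c hc =>
  (List.mem_append.1 hc).elim (h c) (h' c)

end Vale.Agent.P154.AF.Ck
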