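import Vale.Agent.P154.AF.Fin
import Vale.Agent.P154.AF.TM
import Vale.Agent.P154.AF.Root
import Vale.Agent.P154.AF.Cell
import Vale.Agent.P154.AF.Ctl
import Vale.Agent.P154.AF.Tabs
import Vale.Agent.P154.AF.Neg
import Vale.Agent.P154.AF.FNg
import Vale.Agent.P154.AF.FCt

namespace Vale.Agent.P154.AF

open Ck

theorem pwP {ln E : ℕ} {pool : List ℕ} {t : KT} {s0 s1 x0 x1 : ℕ}
    (h : chkP ln E pool t s0 s1 x0 x1 = true)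
    (k : ln ≤ 2 ^ 19 ∧ s0 ≤ s1 ∧ x0 ≤ x1 ∧ x1 ≤ 4096) : PW ln pool s0 s1 x0 x1 :=
  chkP_sound (tabsS tmS rootS cellS ctlS) negS k.1 k.2.1 k.2.2.1 k.2.2.2 h

theorem pwF {ln E : ℕ} {pool : List ℕ} {t : KT} {s0 s1 x0 x1 : ℕ}
    (h : chkF ln E pool t s0 s1 x0 x1 = true)
    (k : ln ≤ 2 ^ 19 ∧ s0 ≤ s1 ∧ x0 ≤ x1 ∧ x1 ≤ 4096) : PW ln pool s0 s1 x0 x1 :=
  pwP ((chkF_eq ln E pool t s0 s1 x0 x1).symm.trans h) k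

theorem pwN {ln E : ℕ} {pool : List ℕ} {t : KT} {s0 s1 x0 x1 : ℕ}
    (h : chkN ln E pool t s0 s1 x0 x1 = true)
    (k : ln ≤ 2 ^ 19 ∧ s0 ≤ s1 ∧ x0 ≤ x1 ∧ x1 ≤ 4096) : PW ln pool s0 s1 x0 x1 :=
  pwP ((chkN_eq ln E pool t s0 s1 x0 x1).symm.trans h) k

theorem cpF {a dn en : ℕ} {pool : List ℕ} {ct : Ct} (b : ℕ) (hp : PW a pool 0 4340 0 3867)
    (hc : chkCF (gPoiF dn) en pool ct = true)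
    (h : dn ≤ 2 ^ 16 ∧ a ≤ 2 ^ 19 ∧ 0 < b ∧ 2 ^ 50 ≤ dn * b ^ 2 ∧
      (en ≤ 163 ∨ (a ≤ 419430 ∧ en ≤ 276) ∨ (a ≤ 367001 ∧ en ≤ 368))) : CP a b :=
  cp_run b (big_poi h.2.1 h.1 hp (gPoiF_eq dn ▸ chkCF_sound hc)) h.2

theorem crF {a d en : ℕ} {pool : List ℕ} {ct : Ct} (hp : PW a pool 0 4340 0 3867)
    (hc : chkCF (gRegF d) en pool ct = true)
    (h : a ≤ 2 ^ 19 ∧ 4 ≤ d ∧ 2 ^ 40 ≤ d * a ^ 2 ∧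
      (en ≤ 163 ∨ (7 ≤ d ∧ en ≤ 276) ∨ (9 ≤ d ∧ en ≤ 368) ∨ (d = 4 ∧ en ≤ 215))) : CR d :=
  cr_run (big_reg h.1 (by omega) hp (gRegF_eq d ▸ chkCF_sound hc)) h

end Vale.Agent.P154.AF
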