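import Vale.Agent.P154.AF.TM
import Vale.Agent.P154.AF.Root
import Vale.Agent.P154.AF.Cell
import Vale.Agent.P154.AF.Ctl
import Vale.Agent.P154.AF.Tabs
import Vale.Agent.P154.AF.Neg
import Vale.Agent.P154.AF.Sym
import Vale.Agent.P154.AF.Ct
import Vale.Agent.P154.AF.G
import Vale.Agent.P154.AF.FNh
import Vale.Agent.P154.AF.FCt

namespace Vale.Agent.P154.AF.Ck

noncomputable def chkZ (ln E : ℕ) (pool : List ℕ) (t : KT) (s0 s1 x0 x1 : ℕ) : Bool :=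
  chkH ln E pool t s0 s1 x0 x1

theorem chkZ_eq (ln E : ℕ) (pool : List ℕ) (t : KT) (s0 s1 x0 x1 : ℕ) :
    chkZ ln E pool t s0 s1 x0 x1 = chkP ln E pool t s0 s1 x0 x1 := chkH_eq ..

theorem pwS {ln E : ℕ} {pool : List ℕ} {t : KT} {s0 s1 x0 x1 : ℕ} (hl : ln ≤ 2 ^ 19) (hs : s0 ≤ s1)
    (hx : x0 ≤ x1) (hx1 : x1 ≤ 4096) (h : chkZ ln E pool t s0 s1 x0 x1 = true) :
    PW ln pool s0 s1 x0 x1 :=
  chkP_sound (tabsS tmS rootS cellS ctlS) negS hl hs hx hx1 (chkZ_eq .. ▸ h)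

theorem bigP {ln dn en : ℕ} {pool q : List ℕ} {ct : Ct} (hl : ln ≤ 2 ^ 19) (hd : dn ≤ 2 ^ 16)
    (hp : PW ln pool 0 4340 0 3867)
    (hk : chkCF (gPoiF dn) en q ct = true)
    (hq : ∀ c ∈ q, c ∈ pool) :
    Big (lamOf ln) (fun s => Real.exp (-((dn : ℝ) / 2 ^ 10 * (1 - s)))) ((en : ℝ) / 2 ^ 10) :=
  ctS _ _ _ _ _ _ (gS.2 dn hd) (fun c hc => symS ln pool hl hp c (hq c hc))
    (gPoiF_eq dn ▸ chkCF_sound hk)

theorem bigR {ln d en : ℕ} {pool q : List ℕ} {ct : Ct} (hl : ln ≤ 2 ^ 19) (hd : 1 ≤ d)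
    (hp : PW ln pool 0 4340 0 3867)
    (hk : chkCF (gRegF d) en q ct = true)
    (hq : ∀ c ∈ q, c ∈ pool) :
    Big (lamOf ln) (fun s => s ^ d) ((en : ℝ) / 2 ^ 10) :=
  ctS _ _ _ _ _ _ (gS.1 d hd) (fun c hc => symS ln pool hl hp c (hq c hc))
    (gRegF_eq d ▸ chkCF_sound hk)

end Vale.Agent.P154.AF.Ck
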