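import Vale.Agent.P154.AF.C3
import Vale.Agent.P154.AF.C35
import Vale.Agent.P154.AF.C4
import Vale.Agent.P154.AF.C5
import Vale.Agent.P154.AF.R4

namespace Vale.Agent.P154.AF

open Filter Topology Tr

theorem smallG (hS : StmtSys) (hA : StmtAnti) {lam d c2 c3 c4 A : ℝ} {off : ℕ → ℝ}
    (h0 : -1 / 2 ≤ lam) (h1 : lam ≤ 0) (hd : d * lam ^ 2 = 1)
    (M : Mo (1 / 2) (1 / 3) (1 / 4) off d c2 c3 c4)
    (hl : Tendsto (fun n => E (V 3 lam off n) chi) atTop (𝓝 A))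
    (h : A ≤ 0.16 ∨ (-0.4 ≤ lam ∧ A ≤ 0.27) ∨ (-0.35 ≤ lam ∧ A ≤ 0.36) ∨ -0.3 ≤ lam) :
    Tendsto (adv 3 lam off) atTop (𝓝 0) := by
  obtain ⟨C3⟩ := c3_cert
  obtain ⟨C35⟩ := c35_cert
  obtain ⟨C4⟩ := c4_cert
  obtain ⟨C5⟩ := c5_cert
  have h2 : A ≤ 2 := le_of_tendsto' hl fun n => Smm.chi2 (hS lam off h0 (by linarith) M.o n)
  rcases le_total (-0.3) lam with a | a
  · exact small hS hA C3 h0 (by linarith) h1 (by linarith) hd M hl h2
  rcases le_or_gt (-0.35) lam with b | b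
  · rcases a.eq_or_lt with e | e
    · exact small hS hA C3 h0 (by linarith) h1 (by linarith) hd M hl h2
    refine small hS hA C35 h0 (by linarith) h1 (by linarith) hd M hl ?_
    rcases h with h | h | h | h <;> first | linarith | linarith [h.2]
  rcases le_or_gt (-0.4) lam with c | c
  · refine small hS hA C4 h0 (by linarith) h1 (by linarith) hd M hl ?_
    rcases h with h | h | h | h <;> first | linarith | linarith [h.1, h.2]
  · refine small hS hA C5 h0 (by linarith) h1 (by linarith) hd M hl ?_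
    rcases h with h | h | h | h <;> first | linarith | linarith [h.1, h.2]

theorem smallP (hS : StmtSys) (hA : StmtAnti) (lam d A : ℝ) (h0 : -1 / 2 ≤ lam) (h1 : lam ≤ 0)
    (hd : d * lam ^ 2 = 1) (hl : Tendsto (fun n => E (V 3 lam (offPoi d) n) chi) atTop (𝓝 A))
    (h : A ≤ 0.16 ∨ (-0.4 ≤ lam ∧ A ≤ 0.27) ∨ (-0.35 ≤ lam ∧ A ≤ 0.36) ∨ -0.3 ≤ lam) :
    Tendsto (adv 3 lam (offPoi d)) atTop (𝓝 0) := by
  have d0 : 0 < d := by
    by_contra hn
    nlinarith [sq_nonneg lam]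
  exact smallG hS hA h0 h1 hd (mo_poi d d0) hl h

theorem smallR (hS : StmtSys) (hA : StmtAnti) (lam : ℝ) (d : ℕ) (A : ℝ) (h0 : -1 / 2 ≤ lam)
    (h1 : lam ≤ 0) (hd : d * lam ^ 2 = 1)
    (hl : Tendsto (fun n => E (V 3 lam (offReg d) n) chi) atTop (𝓝 A))
    (h : A ≤ 0.16 ∨ (-0.4 ≤ lam ∧ A ≤ 0.27) ∨ (-0.35 ≤ lam ∧ A ≤ 0.36) ∨ -0.3 ≤ lam ∨
      (d = 4 ∧ A ≤ 0.21)) : Tendsto (adv 3 lam (offReg d)) atTop (𝓝 0) := by
  have d2 : 2 ≤ d := by
    by_contra hn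
    have : (d : ℝ) ≤ 1 := by exact_mod_cast (by omega : d ≤ 1)
    have h3 : lam ^ 2 ≤ 1 / 4 := by nlinarith
    nlinarith [sq_nonneg lam]
  have g := smallG hS hA h0 h1 hd (mo_reg d d2) hl
  rcases h with h | h | h | h | ⟨rfl, h⟩
  · exact g (Or.inl h)
  · exact g (Or.inr (Or.inl h))
  · exact g (Or.inr (Or.inr (Or.inl h)))
  · exact g (Or.inr (Or.inr (Or.inr h)))
  · obtain ⟨C⟩ := r4_cert
    have e : lam ≤ -(49 / 100) := by
      push_cast at hd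
      nlinarith
    exact small hS hA C h0 (by linarith) h1 e hd mo_reg4 hl (by linarith)

end Vale.Agent.P154.AF
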