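import Vale.Agent.P154.Tree

namespace Vale.Agent.P154.AF

open Filter Topology Tr

/-- continuous and convex on the simplex -/
def Cvx (f : (Fin 3 → ℝ) → ℝ) : Prop := Continuous f ∧ ConvexOn ℝ (Sx 3) f

/-- probability vector -/
def Off (off : ℕ → ℝ) : Prop := (∀ k, 0 ≤ off k) ∧ HasSum off 1

/-- stochastic order -/
def St (off off' : ℕ → ℝ) : Prop :=
  ∀ F : ℕ → ℝ, Monotone F → (∃ C, ∀ k, |F k| ≤ C) → ∑' k, off k * F k ≤ ∑' k, off' k * F k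

noncomputable def rt (x : ℝ) : ℝ := x ^ ((1 : ℝ) / 12)

noncomputable def ps (n : ℕ) (w : Fin 3 → ℝ) : ℝ := w 0 ^ n + w 1 ^ n + w 2 ^ n

/-- six times the symmetrised monomial with exponents `j + s, j + t, j` -/
noncomputable def Ph (k : ℕ × ℕ × ℕ) (w : Fin 3 → ℝ) : ℝ :=
  (w 0 * w 1 * w 2) ^ k.1 * (ps k.2.1 w * ps k.2.2 w - ps (k.2.1 + k.2.2) w)

noncomputable def ph (k : ℕ × ℕ × ℕ) (a : Fin 3 → ℝ) : ℝ := Ph k (fun i => rt (a i)) / 6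

def Ad (k : ℕ × ℕ × ℕ) : Prop := 3 * k.1 + k.2.1 + k.2.2 = 12

def chx (lam : ℝ) (a : Fin 3 → ℝ) : Fin 3 → ℝ := fun i => lam * a i + (1 - lam)

/-- limits `Z, N, A` of the Hellinger transforms and of the chi-square information -/
structure Hull (lam : ℝ) (G : ℝ → ℝ) (Z N : ℕ × ℕ × ℕ → ℝ) (A : ℝ) : Prop where
  id : ∀ k, Ad k → Z k = G (N k) ∧ 0 ≤ N k ∧ N k ≤ 1
  le : ∀ (L : List ((ℕ × ℕ × ℕ) × ℝ × ℝ)) (μ γ : ℝ), (∀ x ∈ L, Ad x.1) →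
    (∀ a ∈ Sx 3, (L.map fun x => x.2.1 * ph x.1 a + x.2.2 * ph x.1 (chx lam a)).sum +
      μ * chi a ≤ γ) →
    (L.map fun x => x.2.1 * Z x.1 + x.2.2 * N x.1).sum + μ * A ≤ γ

def StmtSys : Prop := ∀ (lam : ℝ) (off : ℕ → ℝ), -1 / 2 ≤ lam → lam ≤ 1 → Off off →
  ∀ n, IsSys (V 3 lam off n)

def StmtAnti : Prop := ∀ (lam : ℝ) (off : ℕ → ℝ), -1 / 2 ≤ lam → lam ≤ 1 → Off off →
  ∀ f, Cvx f → Antitone fun n => E (V 3 lam off n) f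

def StmtCmp : Prop := ∀ (lam lam' : ℝ) (off off' : ℕ → ℝ), -1 / 2 ≤ lam' → lam' ≤ lam → lam ≤ 0 →
  Off off → Off off' → St off off' → ∀ f, Cvx f → ∀ n, E (V 3 lam off n) f ≤ E (V 3 lam' off' n) f

def StmtSt : Prop :=
  (∀ d d' : ℕ, d ≤ d' → St (offReg d) (offReg d')) ∧
  (∀ d d' : ℝ, 0 < d → d ≤ d' → St (offPoi d) (offPoi d')) ∧
  (∀ (d : ℕ) (s : ℝ), ∑' k, offReg d k * s ^ k = s ^ d) ∧
  ∀ d s : ℝ, ∑' k, offPoi d k * s ^ k = Real.exp (-(d * (1 - s)))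

def StmtConc : Prop := Cvx chi ∧ ∀ k, Ad k → Cvx (fun a => -ph k a) ∧
  (∀ lam : ℝ, -1 / 2 ≤ lam → lam ≤ 1 → Cvx fun a => -ph k (chx lam a)) ∧
  ∀ a ∈ Sx 3, 0 ≤ ph k a ∧ ph k a ≤ 1

def StmtId : Prop := ∀ (lam : ℝ) (off : ℕ → ℝ), -1 / 2 ≤ lam → lam ≤ 1 → Off off → ∀ k, Ad k → ∀ n,
  E (V 3 lam off (n + 1)) (ph k) =
    ∑' j, off j * E (V 3 lam off n) (fun a => ph k (chx lam a)) ^ j

def StmtLim : Prop := ∀ (lam : ℝ) (off : ℕ → ℝ) (G : ℝ → ℝ), -1 / 2 ≤ lam → lam ≤ 1 → Off off →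
  Continuous G → (∀ s, ∑' j, off j * s ^ j = G s) →
  ∃ Z N A, Hull lam G Z N A ∧ Tendsto (fun n => E (V 3 lam off n) chi) atTop (𝓝 A)

/-- every limit point has chi-square information below `η` -/
def Big (lam : ℝ) (G : ℝ → ℝ) (η : ℝ) : Prop := ∀ Z N A, Hull lam G Z N A → A < η

end Vale.Agent.P154.AF
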