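import Vale.Agent.P154.AF.SpecA

namespace Vale.Agent.P154.AF

open Filter Topology Tr

namespace Sysm

theorem chan_nn {lam : ℝ} (h0 : -1 / 2 ≤ lam) (h1 : lam ≤ 1) (i j : Fin 3) : 0 ≤ chan 3 lam i j := by
  unfold chan
  split_ifs <;> push_cast <;> linarith

theorem ch_sys {O : Type} {v : O → Fin 3 → ℝ} (h : IsSys v) {lam : ℝ} (h0 : -1 / 2 ≤ lam)
    (h1 : lam ≤ 1) : IsSys (ch lam v) where
  nn o i := Finset.sum_nonneg fun j _ => mul_nonneg (chan_nn h0 h1 i j) (h.nn o j)
  hs i := by
    have := ((h.hs i).mul_left lam).add ((h.hasSum_mean (by norm_num)).mul_left (1 - lam))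
    simp only [mul_one, add_sub_cancel] at this
    simpa only [ch_eq] using this
  sym σ := by
    obtain ⟨e, he⟩ := h.sym σ
    refine ⟨e, fun o i => ?_⟩
    have : mean (v (e o)) = mean (v o) := by
      unfold mean
      simp only [he]
      rw [Equiv.sum_comp σ (v o)]
    rw [ch_eq, ch_eq, he, this]

theorem hasSum_poi (d s : ℝ) :
    HasSum (fun k => offPoi d k * s ^ k) (Real.exp (-(d * (1 - s)))) := by
  have h := (NormedSpace.expSeries_div_hasSum_exp (d * s)).mul_left (Real.exp (-d))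
  rw [← Real.exp_eq_exp_ℝ, ← Real.exp_add] at h
  have e : (fun k => offPoi d k * s ^ k) = fun i => Real.exp (-d) * ((d * s) ^ i / i.factorial) := by
    funext k
    rw [offPoi, mul_pow]
    ring
  rw [e, show -(d * (1 - s)) = -d + d * s by ring]
  exact h

theorem poi_one (d : ℝ) : HasSum (offPoi d) 1 := by
  simpa using hasSum_poi d 1

theorem poi_nn {d : ℝ} (h : 0 ≤ d) (k : ℕ) : 0 ≤ offPoi d k := by
  unfold offPoi
  positivity

theorem poi_add (a b : ℝ) (k : ℕ) :
    offPoi (a + b) k = ∑ p ∈ Finset.HasAntidiagonal.antidiagonal k, offPoi a p.1 * offPoi b p.2 := by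
  rw [offPoi, (Commute.all a b).add_pow', Finset.mul_sum, Finset.sum_div]
  refine Finset.sum_congr rfl fun p hp => ?_
  have e := Finset.HasAntidiagonal.mem_antidiagonal.1 hp
  have c : ((k.choose p.1 : ℕ) : ℝ) * (p.1.factorial * p.2.factorial) = k.factorial := by
    have := Nat.add_choose_mul_factorial_mul_factorial p.2 p.1
    rw [add_comm, e] at this
    rw [← this]
    push_cast
    ring
  have k0 : (k.factorial : ℝ) ≠ 0 := by positivity
  have p1 : (p.1.factorial : ℝ) ≠ 0 := by positivity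
  have p2 : (p.2.factorial : ℝ) ≠ 0 := by positivity
  rw [offPoi, offPoi, neg_add, Real.exp_add, nsmul_eq_mul]
  field_simp
  linear_combination (a ^ p.1 * b ^ p.2) * c

theorem st_poi {a b : ℝ} (ha : 0 ≤ a) (hb : 0 ≤ b) : St (offPoi a) (offPoi (a + b)) := by
  rintro F hF ⟨C, hC⟩
  have sp : Summable fun p : ℕ × ℕ => offPoi a p.1 * offPoi b p.2 :=
    summable_mul_of_summable_norm (poi_one a).summable.norm (poi_one b).summable.norm
  have bd : ∀ G : ℕ × ℕ → ℝ, (∀ p, |G p| ≤ C) →
      Summable fun p : ℕ × ℕ => offPoi a p.1 * offPoi b p.2 * G p := fun G hG =>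
    Summable.of_norm_bounded (sp.mul_right C) fun p => by
      have := mul_nonneg (poi_nn ha p.1) (poi_nn hb p.2)
      rw [Real.norm_eq_abs, abs_mul, abs_of_nonneg this]
      exact mul_le_mul_of_nonneg_left (hG p) this
  have s1 := bd (fun p => F p.1) fun p => hC _
  have s2 := bd (fun p => F (p.1 + p.2)) fun p => hC _
  have e1 : ∑' k, offPoi a k * F k = ∑' p : ℕ × ℕ, offPoi a p.1 * offPoi b p.2 * F p.1 := by
    rw [s1.tsum_prod]
    refine tsum_congr fun k => ?_
    have := (((poi_one b).mul_left (offPoi a k)).mul_right (F k)).tsum_eq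
    rw [this, mul_one]
  have e2 : ∑' k, offPoi (a + b) k * F k =
      ∑' p : ℕ × ℕ, offPoi a p.1 * offPoi b p.2 * F (p.1 + p.2) := by
    have h := (Finset.HasAntidiagonal.sigmaAntidiagonalEquivProd (A := ℕ)).summable_iff.2 s2
    rw [← (Finset.HasAntidiagonal.sigmaAntidiagonalEquivProd (A := ℕ)).tsum_eq]
    refine Eq.symm (h.tsum_sigma.trans (tsum_congr fun k => ?_))
    rw [poi_add, Finset.sum_mul, ← Finset.tsum_subtype]
    refine tsum_congr fun p => ?_
    have e := Finset.HasAntidiagonal.mem_antidiagonal.1 p.2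
    simp only [Function.comp, Finset.HasAntidiagonal.sigmaAntidiagonalEquivProd_apply, e]
  rw [e1, e2]
  exact s1.tsum_le_tsum (fun p => mul_le_mul_of_nonneg_left (hF (Nat.le_add_right _ _))
    (mul_nonneg (poi_nn ha p.1) (poi_nn hb p.2))) s2

theorem reg_sum (d : ℕ) (F : ℕ → ℝ) : ∑' k, offReg d k * F k = F d := by
  rw [tsum_eq_single d fun k hk => by simp [offReg, hk]]
  simp [offReg]

end Sysm

open Sysm

theorem sysS : StmtSys := by
  intro lam off h0 h1 ho n
  induction n with
  | zero => exact V_zero_sys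
  | succ n ih =>
    rw [V_succ]
    exact (ch_sys ih h0 h1).mx ho.1 ho.2

theorem stS : StmtSt := by
  refine ⟨fun d d' h F hF _ => ?_, fun d d' h0 h => ?_, fun d s => reg_sum d _,
    fun d s => (hasSum_poi d s).tsum_eq⟩
  · rw [reg_sum, reg_sum]
    exact hF h
  · have := st_poi h0.le (sub_nonneg.2 h)
    rwa [add_sub_cancel] at this

end Vale.Agent.P154.AF
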